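import Vale.Agent.P240.R2.H829.EP2
import Vale.Agent.P240.R2.H281.T4

/-!
Even orthogonal groups, package II: `StmtEII` of helper401.
-/

set_option autoImplicit false

namespace Vale.Agent.P240.R2.H829.EP

open Matrix Vale.Agent.P240.R2.AS Vale.Agent.P240.R2.H38 Vale.Agent.P240.K
open Vale.Agent.P240.R2.H938 (TD TC mem_TD Pack cjH mx_cjH)
open Vale.Agent.P240.R2.H296.O (SOm mem_SOm ab ab_gmap exists_mv hf_std)
open Vale.Agent.P240.R2.H401.E
open scoped Classical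

universe u v w

noncomputable section

section
variable {K : Type u} [Field K] [Fintype K] [StarRing K] {n m : ℕ}

omit [Fintype K] in
lemma S1_gmap {σ : K ≃+* K} (hσ : ∀ a, σ (star a) = star (σ a)) :
    ∀ g ∈ S1 K m, gmap σ hσ g ∈ S1 K m := by
  intro g hg
  rcases mem_S1.1 hg with h | h
  · exact SOm_le_S1 (H829.Sc_map ⟨σ, hσ⟩ g h)
  · have h1 : gmap σ hσ (g * sla K m) ∈ SOm K (m + 1) := H829.Sc_map ⟨σ, hσ⟩ _ h
    rw [gmap_mul', gmap_sla] at h1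
    exact mem_S1.2 (Or.inr h1)

variable {G : Type v} [Group G]
variable {L : Subgroup G} {ε : SOm K (m + 1) →* G} {e : G}

/-- the elements of a frame -/
lemma P2.De_eq [Finite G] (h : P2 L ε e) {w : List (Ln K (m + 1))} (hw : w ∈ Fr K (m + 1)) :
    ∃ (u : GU K (m + 1)) (e' : G), e' * e⁻¹ ∈ L ∧ e' ^ 2 = 1 ∧
      (∀ a ∈ Ae ε u, e' * a = a * e') ∧
      De (eS (S1 K m) (-1) 1 h.hom) w = Ae ε u ⊔ Subgroup.zpowers e' := by
  obtain ⟨u, rfl⟩ := exists_lnU hw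
  refine ⟨u, h.hom (cjH S1_conj u ⟨sla K m, sla_mem⟩), ?_, ?_, ?_, ?_⟩
  · have h1 : h.hom (cjH S1_conj u ⟨sla K m, sla_mem⟩) * e⁻¹ =
        h.hom (cjH S1_conj u ⟨sla K m, sla_mem⟩ * (⟨sla K m, sla_mem⟩ : S1 K m)⁻¹) := by
      rw [map_mul, map_inv, h.hom_sla]
    have h3 : (cjH S1_conj u ⟨sla K m, sla_mem⟩ * (⟨sla K m, sla_mem⟩ : S1 K m)⁻¹ : S1 K m).1 ∈
        SOm K (m + 1) := comm_mem u (sla K m)
    rw [h1, h.hom_in _ h3, ← h.range]
    exact ⟨_, rfl⟩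
  · rw [← map_pow]
    have h1 : (⟨sla K m, sla_mem⟩ : S1 K m) ^ 2 = 1 := by
      rw [pow_two]
      exact Subtype.ext sla_sq
    rw [← map_pow, h1, map_one, map_one]
  · rintro _ ⟨g, ⟨d, -, hd⟩, rfl⟩
    have h1 : (ε.comp (cjO u)) g = h.hom (cjH S1_conj u ⟨g.1, SOm_le_S1 g.2⟩) :=
      (h.hom_coe (cjO u g)).symm
    rw [h1, ← map_mul, ← map_mul, ← map_mul, ← map_mul]
    congr 2
    apply Subtype.ext
    apply Subtype.ext
    show (sla K m).1 * g.1.1 = g.1.1 * (sla K m).1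
    have h3 : g.1.1 = diagonal d := hd
    rw [h3, sla_coe, diagonal_mul_diagonal, diagonal_mul_diagonal]
    congr 1
    funext i
    rw [mul_comm]
  · rw [h.pack.De_map S1_conj (by ring) (neg_one_ne_one h.h2) u, h.au u]

omit [Fintype K] in
/-- the product with an element of the range -/
lemma acts_mul_in {S : Subgroup (GU K n)} (hconj : ∀ u : GU K n, ∀ g ∈ S, u * g * u⁻¹ ∈ S)
    {η : S →* G} {x : G} {g₀ : GU K n} {σ : K ≃+* K} (hx : ActsS η x g₀ σ)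
    (hg : ∀ g ∈ S, gmap σ hx.1 g ∈ S) (k : S) : ActsS η (η k * x) (k.1 * g₀) σ := by
  refine ⟨hx.1, fun y y' hy => ?_⟩
  set z : S := ⟨g₀ * gmap σ hx.1 y.1 * g₀⁻¹, hconj _ _ (hg _ y.2)⟩ with hz
  have h1 := hx.2 y z rfl
  have h3 : y' = k * z * k⁻¹ := by
    apply Subtype.ext
    apply Subtype.ext
    show mx y' = _
    rw [hy]
    show (k.1 * g₀).1 * (mx y).map σ * star (k.1 * g₀).1 =
      k.1.1 * (g₀.1 * (mx y).map σ * star g₀.1) * star k.1.1
    rw [gu_mul, star_mul]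
    simp only [mul_assoc]
  rw [h3, map_mul, map_mul, map_inv, ← h1]
  group

omit [Fintype K] in
lemma s_facts {s : GU K (m + 1)} (hs' : s = 1 ∨ s = sla K m) {σ : K ≃+* K}
    (hσ : ∀ a, σ (star a) = star (σ a)) :
    s * s = 1 ∧ gmap σ hσ s = s ∧ s * sla K m = sla K m * s := by
  rcases hs' with rfl | rfl
  · exact ⟨one_mul 1, gmap_one' hσ, by rw [one_mul, mul_one]⟩
  · exact ⟨sla_sq, gmap_sla hσ, rfl⟩

/-- **T3**, the cycle with a conjugate of a field automorphism -/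
theorem P2.t3 [Finite G] (𝕜 : Type w) [Field 𝕜] (h : P2 L ε e) {q : ℕ} (hq : Odd q)
    (hK : Nat.card K = q ^ 2) {x : G} {σ : K ≃+* K} (hsq : ∀ y : K, σ y = y ^ q)
    {s : GU K (m + 1)} (hs' : s = 1 ∨ s = sla K m) (hxe : x * e = e * x) (hx2 : x ^ 2 = 1)
    (hxM : x ∉ L ⊔ Subgroup.zpowers e) (hx : ActsS ε x s σ)
    (hcnt : (Ftw s σ).card < (m + 1) * 2 ^ (m - 1) * AS.t (Ftw s σ)) :
    ∃ w ∈ Fr K (m + 1), ∃ y, y * x⁻¹ ∈ L ⊔ Subgroup.zpowers e ∧ y ^ 2 = 1 ∧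
      (∀ a ∈ De (eS (S1 K m) (-1) 1 h.hom) w, y * a = a * y) ∧
      TC 𝕜 2 (L ⊔ Subgroup.zpowers e ⊔ Subgroup.zpowers x)
        (De (eS (S1 K m) (-1) 1 h.hom) w ⊔ Subgroup.zpowers y) := by
  have hσ := hx.1
  obtain ⟨s1, s2, s3⟩ := s_facts hs' hσ
  have hP := h.pack
  have hc := hP.comb
  have hm := h.modd.pos
  have hsi : s⁻¹ = s := inv_eq_of_mul_eq_one_left s1
  have hA : ActsS h.hom x s σ := h.acts hx hxe s3
  have hneg : σ (-1 : K) = -1 := by rw [map_neg, map_one]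
  have hss : ∀ y : K, σ (σ y) = y := by
    intro y
    rw [hsq, hsq, ← pow_mul, ← pow_two, ← hK, Nat.card_eq_fintype_card]
    exact FiniteField.pow_card y
  have hgg : ∀ g : GU K (m + 1), gmap σ hσ (gmap σ hσ g) = g := by
    intro g
    apply Subtype.ext
    ext i j
    exact hss _
  -- the elements of the group
  have hk : ∀ g : GU K (m + 1), tw σ hσ s g * s⁻¹ ∈ SOm K (m + 1) := by
    intro g
    rw [mem_SOm, tw, map_mul, map_mul, map_mul, map_inv, map_inv, ab_gmap h.hs h.h2 hq σ hsq hσ,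
      mul_comm (ab K (m + 1) g), mul_inv_cancel_right, mul_inv_cancel]
  set k : GU K (m + 1) → S1 K m := fun g => ⟨tw σ hσ s g * s⁻¹, SOm_le_S1 (hk g)⟩ with hkdef
  have hks : ∀ g, (k g).1 * s = tw σ hσ s g := fun g => inv_mul_cancel_right _ _
  set yy : GU K (m + 1) → G := fun g => h.hom (k g) * x with hyy
  have hact : ∀ g, ActsS h.hom (yy g) (tw σ hσ s g) σ := by
    intro g
    rw [← hks]
    exact acts_mul_in S1_conj hA (S1_gmap hσ) (k g)
  obtain ⟨Y, r, hmem, hr, hcount⟩ := count_tw h.hs hq hK hσ hsq hm hs' yy (by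
    intro g g' hgg'
    have h1 : h.hom (k g) = h.hom (k g') := mul_right_cancel hgg'
    have h3 : h.hom (k g' * (k g)⁻¹) = 1 := by rw [map_mul, map_inv, h1, mul_inv_cancel]
    obtain ⟨c, hc⟩ := (h.ker_hom _).1 h3
    have h4 : (tw σ hσ s g').1 = c • (tw σ hσ s g).1 := by
      have h5 : tw σ hσ s g' = (k g' * (k g)⁻¹).1 * tw σ hσ s g := by
        rw [← hks, ← hks]
        show _ = (k g').1 * (k g).1⁻¹ * ((k g).1 * s)
        group
      have h6 : (k g' * (k g)⁻¹ : S1 K m).1.1 = c • 1 := hc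
      rw [h5, gu_mul, h6, smul_mul_assoc, one_mul]
    refine ⟨c, ?_, h4⟩
    have h5 := gu_star (tw σ hσ s g')
    rw [h4, star_smul, smul_mul_smul_comm, gu_star] at h5
    have h6 := congrFun (congrFun h5 0) 0
    rwa [Matrix.smul_apply, one_apply_eq, smul_eq_mul, mul_one] at h6)
  have hkp : ∀ g, k g * (⟨s * gmap σ hσ (k g).1 * s⁻¹, S1_conj _ _ (S1_gmap hσ _ (k g).2)⟩ : S1 K m)
      = 1 := by
    intro g
    apply Subtype.ext
    show (tw σ hσ s g * s⁻¹) * (s * gmap σ hσ (tw σ hσ s g * s⁻¹) * s⁻¹) = 1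
    rw [tw, gmap_mul', gmap_mul', gmap_mul', gmap_inv', gmap_inv', s2, hgg, hsi]
    calc g * s * (gmap σ hσ g)⁻¹ * s * (s * (gmap σ hσ g * s * g⁻¹ * s) * s)
        = g * s * (gmap σ hσ g)⁻¹ * (s * s) * gmap σ hσ g * s * g⁻¹ * (s * s) := by
          simp only [mul_assoc]
      _ = g * s * s * g⁻¹ := by rw [s1]; group
      _ = 1 := by rw [mul_assoc g, s1, mul_one, mul_inv_cancel]
  have hxn : ∀ z : S1 K m, x * h.hom z * x⁻¹ ∈ h.hom.range := by
    intro z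
    have h1 := hA.2 z ⟨s * gmap σ hσ z.1 * s⁻¹, S1_conj _ _ (S1_gmap hσ _ z.2)⟩ rfl
    rw [h1]
    exact ⟨_, rfl⟩
  have hxi : x⁻¹ = x := by rw [inv_eq_iff_mul_eq_one, ← pow_two, hx2]
  let Fy : G → Finset (List (Ln K (m + 1))) := fun y => Ftw (tw σ hσ s (r y)) σ
  have hfixc : ∀ y ∈ Y, ∀ u v : List (Ln K (m + 1)), u ++ v ∈ Fy y →
      eS (S1 K m) (-1) 1 h.hom u * y = y * eS (S1 K m) (-1) 1 h.hom u := by
    intro y hy u v huv
    have h1 := hact (r y)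
    rw [hr y hy] at h1
    have h3 := mem_Ftw.1 huv
    exact (hP.comm_lit h1 hneg (List.pairwise_append.1 ((mem_Fr K).1 h3.1).2).1
      (fun P hP => h3.2 P (by simp [hP]))).symm
  have hyt : ∀ y ∈ Y, y * x⁻¹ ∈ h.hom.range := by
    intro y hy
    obtain ⟨g, rfl⟩ := (hmem y).1 hy
    exact ⟨k g, (mul_inv_cancel_right _ _).symm⟩
  have hyp : ∀ y ∈ Y, y ^ 2 = 1 := by
    intro y hy
    obtain ⟨g, rfl⟩ := (hmem y).1 hy
    have h1 := hA.2 (k g) ⟨s * gmap σ hσ (k g).1 * s⁻¹, S1_conj _ _ (S1_gmap hσ _ (k g).2)⟩ rfl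
    show (h.hom (k g) * x) ^ 2 = 1
    calc (h.hom (k g) * x) ^ 2 = h.hom (k g) * (x * h.hom (k g) * x⁻¹) * x ^ 2 := by
          rw [pow_two, pow_two]; group
      _ = 1 := by rw [h1, hx2, mul_one, ← map_mul, hkp, map_one]
  have hrng : h.hom.range = L ⊔ Subgroup.zpowers e := h.range_hom
  have hd : H945.SemiData 2 (Fr K (m + 1)) (eS (S1 K m) (-1) 1 h.hom) h.hom.range
      (h.hom.range ⊔ Subgroup.zpowers x) Y Fy := by
    refine ⟨fun u v _ => ⟨_, rfl⟩, le_sup_left, hyp, ?_, ?_, ?_, fun y _ => Ftw_sub _ _,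
      fun y _ => Ftw_perm _ _, hfixc⟩
    · intro y hy
      have h2 : y = (y * x⁻¹) * x := by group
      rw [h2]
      exact Subgroup.mul_mem _ (Subgroup.mem_sup_left (hyt y hy))
        (Subgroup.mem_sup_right (Subgroup.mem_zpowers x))
    · intro y hy h1
      apply hxM
      obtain ⟨g, rfl⟩ := (hmem y).1 hy
      rw [← hrng]
      exact (Subgroup.mul_mem_cancel_left _ (⟨k g, rfl⟩ : h.hom (k g) ∈ h.hom.range)).1 h1
    · intro y hy y' hy'
      obtain ⟨g, rfl⟩ := (hmem y).1 hy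
      obtain ⟨g', rfl⟩ := (hmem y').1 hy'
      have h1 := hxn ((k g)⁻¹ * k g')
      show (h.hom (k g) * x)⁻¹ * (h.hom (k g') * x) ∈ _
      have h3 : (h.hom (k g) * x)⁻¹ * (h.hom (k g') * x) =
          x * h.hom ((k g)⁻¹ * k g') * x⁻¹ := by
        rw [map_mul, map_inv, _root_.mul_inv_rev, hxi]
        simp only [mul_assoc]
      rw [h3]
      exact h1
  have hcard : (Fr K (m + 1)).card < (m + 1) * ∑ y ∈ Y, AS.t (Fy y) := by
    have h1 : ∀ y ∈ Y, AS.t (Fy y) = AS.t (Ftw s σ) := fun y _ => t_Ftw_tw hσ s (r y)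
    rw [Finset.sum_congr rfl h1, Finset.sum_const, smul_eq_mul]
    have hYpos : 0 < Y.card := Finset.card_pos.2 ⟨yy 1, (hmem _).2 ⟨1, rfl⟩⟩
    have h8 : 2 ^ (m - 1) * (Fr K (m + 1)).card <
        2 ^ (m - 1) * ((m + 1) * (Y.card * AS.t (Ftw s σ))) := by
      calc 2 ^ (m - 1) * (Fr K (m + 1)).card ≤ Y.card * (Ftw s σ).card := hcount
        _ < Y.card * ((m + 1) * 2 ^ (m - 1) * AS.t (Ftw s σ)) :=
            Nat.mul_lt_mul_of_pos_left hcnt hYpos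
        _ = _ := by ring
    exact Nat.lt_of_mul_lt_mul_left h8
  obtain ⟨y, hy, w, hw, α, φ, h1, -⟩ := H945.top_of_semi_n hP.hm hc
    (fun u v h => hP.eS_rev h) (fun u v w h => hP.eS_append (by
      have h5 := ((mem_Fr K).1 h).2
      rw [← List.append_assoc] at h5
      exact (List.pairwise_append.1 h5).1)) hd hcard 𝕜
  refine ⟨w, Ftw_sub _ _ hw, y, ?_, hyp y hy, fun a ha => ?_, α, φ, ?_⟩
  · rw [← hrng]
    exact hyt y hy
  · have h2 : De (eS (S1 K m) (-1) 1 h.hom) w ≤ Subgroup.centralizer ({y} : Set G) := by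
      rw [De, Subgroup.closure_le]
      rintro _ ⟨u, v, rfl, rfl⟩
      exact Subgroup.mem_centralizer_iff.2 (by
        rintro _ rfl
        exact (hfixc _ hy u v hw).symm)
    exact Subgroup.mem_centralizer_iff.1 (h2 ha) y rfl
  · rw [sup_comm (De (eS (S1 K m) (-1) 1 h.hom) w) (Subgroup.zpowers y), ← hrng]
    exact h1

end

/-- **StmtEII** -/
theorem stmtEII : StmtEII.{u, v, w} := by
  intro K _ _ _ m hN G _ _ L ε hε 𝕜 _ e he2 heL he
  have h2 : (2 : K) ≠ 0 := H221.two_ne hN.odd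
  have hm := hN.hm
  have h : P2 L ε e := ⟨hN.st, h2, hN.modd, hε.range, hε.ker, he2, he, heL⟩
  refine ⟨?_, ?_, ?_⟩
  · obtain ⟨w, hw, hT⟩ := h.pack.t1 𝕜 (F := Fr K (m + 1)) (Finset.Subset.refl _) H687.Fr_perm
      (H281.t_pos_triv hN.st h2 hN.card (by omega)) (L ⊔ Subgroup.zpowers e)
      (fun u v _ => by rw [← h.range_hom]; exact ⟨_, rfl⟩)
    obtain ⟨u, e', e1, e3, e4, e5⟩ := h.De_eq hw
    rw [e5] at hT
    exact ⟨u, e', e1, e3, e4, hT⟩
  · intro x σ s hs' hxe hx ht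
    obtain ⟨-, -, s3⟩ := s_facts hs' hx.1
    have hA : ActsS h.hom x s σ := h.acts hx hxe s3
    obtain ⟨w, hw, hwc, hT⟩ := h.pack.t2 𝕜 hA (by rw [map_neg, map_one]) (F := Ftw s σ)
      (Ftw_sub s σ) (Ftw_perm s σ) (fun w hw P hP => (mem_Ftw.1 hw).2 P hP) ht
    obtain ⟨u, e', e1, e3, e4, e5⟩ := h.De_eq hw
    rw [e5, h.range_hom] at hT
    rw [e5] at hwc
    exact ⟨u, e', e1, e3, e4, fun a ha => hwc a (Subgroup.mem_sup_left ha),
      hwc e' (Subgroup.mem_sup_right (Subgroup.mem_zpowers e')), hT⟩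
  · intro q hq hK x σ s hsq hs' hxe hx2 hxM hx hcnt
    obtain ⟨w, hw, y, y1, y2, y3, hT⟩ := h.t3 𝕜 hq hK hsq hs' hxe hx2 hxM hx hcnt
    obtain ⟨u, e', e1, e3, e4, e5⟩ := h.De_eq hw
    rw [e5] at hT y3
    exact ⟨u, e', y, e1, y1, e3, y2, e4, fun a ha => y3 a (Subgroup.mem_sup_left ha),
      (y3 e' (Subgroup.mem_sup_right (Subgroup.mem_zpowers e'))).symm, hT⟩

end

end Vale.Agent.P240.R2.H829.EP
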