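import Vale.Agent.P240.R2.H401.DDefs
import Vale.Agent.P240.R2.H775.CT
import Vale.Agent.P240.R2.H938.W6

/-!
`StmtDG` of helper401 (orthogonal groups with nonsquare discriminant): `Comb` for a subgroup `S` and a
set of frames closed under permutations.
-/

set_option autoImplicit false

namespace Vale.Agent.P240.R2.H829.DG

open Matrix Vale.Agent.P240.R2.AS Vale.Agent.P240.R2.H38 Vale.Agent.P240.K
open Vale.Agent.P240.R2.H401.D
open scoped Classical

universe u v w

noncomputable section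

variable {K : Type u} [Field K] [Fintype K] [StarRing K] {n : ℕ}

omit [Fintype K] in
/-- the subwords of a set of frames -/
lemma her {F : Finset (List (Ln K n))} (hp : ∀ w ∈ F, ∀ w', w.Perm w' → w' ∈ F) :
    H775.Her F (fun w => ∃ v, w ++ v ∈ F) where
  mem w hw := ⟨[], by rwa [List.append_nil]⟩
  left u v := by
    rintro ⟨x, hx⟩
    exact ⟨v ++ x, by rwa [← List.append_assoc]⟩
  right u v := by
    rintro ⟨x, hx⟩
    refine ⟨u ++ x, hp _ hx _ ?_⟩
    rw [List.append_assoc, ← List.append_assoc v u x]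
    have h1 : (u ++ (v ++ x)).Perm ((u ++ v) ++ x) := by rw [List.append_assoc]
    exact h1.trans (List.perm_append_comm.append_right x)
  perm u v huv := by
    rintro ⟨x, hx⟩
    exact ⟨x, hp _ hx _ (huv.append_right x)⟩

omit [Fintype K] in
lemma mk_eq {ζ : K} (h1 : ζ ≠ 1) (h2 : ζ * star ζ = 1) {a b : GU K n} {l : K}
    (h : a.1 = l • b.1) : (QuotientGroup.mk b : PGU K n) = QuotientGroup.mk a := by
  refine QuotientGroup.eq.2 ((H296.mem_center_iff h1 h2 _).2 ⟨l, ?_⟩)
  show (b⁻¹).1 * a.1 = l • 1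
  rw [gu_inv, h, mul_smul_comm, star_gu]

/-- **StmtDG** -/
theorem stmtDG : StmtDG.{u, v} := by
  intro K _ _ _ n p ζ c G _ hpr hζ h1 h2 _ _ S ε hker F hF hp hne hmem
  have : Fact p.Prime := ⟨hpr⟩
  have h0 := her hp
  let f : S →* PGU K n := (QuotientGroup.mk' (Subgroup.center (GU K n))).comp S.subtype
  have hk : f.ker = ε.ker := by
    ext g
    rw [MonoidHom.mem_ker, MonoidHom.mem_ker, hker]
    have h3 : f g = 1 ↔ g.1 ∈ Subgroup.center (GU K n) := QuotientGroup.eq_one_iff g.1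
    rw [h3, H296.mem_center_iff h1 h2]
    exact Iff.rfl
  have h3 : Comb p n F (eW ζ) := H945.Comb_mono (H938.comb_eW hζ h1 h2) hF hp
  have h4 : ∀ w : List (Ln K n), (∃ v, w ++ v ∈ F) → eW ζ w = f (sS S ζ c w) := by
    rintro w ⟨v, hv⟩
    have ho : Orth w := (List.pairwise_append.1 ((mem_Fr K).1 (hF hv)).2).1
    have h5 : mx (sS S ζ c w) = sM ζ c w := by
      rw [sS, dif_pos (hmem w v hv)]
      exact (hmem w v hv).choose_spec
    refine mk_eq h1 h2 (l := c ^ w.length) ?_
    rw [H687.eU_val (H687.isPr_sm ho) h2]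
    exact h5
  have hnil : ∃ v, ([] : List (Ln K n)) ++ v ∈ F := by
    obtain ⟨w, hw⟩ := hne
    exact ⟨w, hw⟩
  exact H775.Comb.of_ker hk (H775.Comb.congr h3 h0 h4 (h4 [] hnil))

end

end Vale.Agent.P240.R2.H829.DG
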