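import Vale.Agent.P240.R2.H829.Cnt2
import Vale.Agent.P240.R2.H281.H90b

/-!
Diagonal orthogonal matrices are coboundaries for the field automorphism of order `2`, up to sign
(`n` odd); the count for the trivial star (P240, R5 of helper296).
-/

set_option autoImplicit false

namespace Vale.Agent.P240.R2.H829

open Matrix Vale.Agent.P240.R2.AS Vale.Agent.P240.R2.H687
open Vale.Agent.P240.R2.H387 (Fs mem_Fs)
open scoped Classical

universe u v w

noncomputable section

section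
variable {K : Type u} [Field K] [Fintype K] {q : ℕ}

lemma two_le_of (hq : Odd q) (hK : Nat.card K = q ^ 2) : 2 ≤ q := by
  by_contra h
  have h1 : q = 1 := by
    obtain ⟨k, hk⟩ := hq
    omega
  rw [h1, one_pow, Nat.card_eq_fintype_card] at hK
  have := Fintype.one_lt_card (α := K)
  omega

lemma two_ne_of (hq : Odd q) (hK : Nat.card K = q ^ 2) : (2 : K) ≠ 0 := by
  intro h
  have hodd : Odd (Nat.card K) := by rw [hK]; exact hq.pow
  have hch : ringChar K = 2 := by
    have h1 : ringChar K ∣ 2 := by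
      apply ringChar.dvd
      exact_mod_cast h
    rcases (Nat.dvd_prime Nat.prime_two).mp h1 with h1 | h1
    · exact absurd h1 (CharP.ringChar_ne_one)
    · exact h1
  have h3 := FiniteField.even_card_iff_char_two.mp hch
  rw [← Nat.card_eq_fintype_card] at h3
  rw [Nat.odd_iff] at hodd
  omega

lemma exists_pow_ne (hq : 2 ≤ q) (hK : Nat.card K = q ^ 2) : ∃ y : K, y ^ q ≠ y := by
  by_contra hc
  push Not at hc
  have h1 : (Polynomial.X ^ q - Polynomial.X : Polynomial K) ≠ 0 :=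
    FiniteField.X_pow_card_sub_X_ne_zero K hq
  have h3 : (Finset.univ : Finset K) ⊆
      (Polynomial.X ^ q - Polynomial.X : Polynomial K).roots.toFinset := by
    intro x _
    rw [Multiset.mem_toFinset, Polynomial.mem_roots h1, Polynomial.IsRoot.def,
      Polynomial.eval_sub, Polynomial.eval_pow, Polynomial.eval_X, hc, sub_self]
  have h4 := (Finset.card_le_card h3).trans (Multiset.toFinset_card_le _)
  have h5 := h4.trans (Polynomial.card_roots' _)
  rw [FiniteField.X_pow_card_sub_X_natDegree_eq K hq, Finset.card_univ,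
    ← Nat.card_eq_fintype_card, hK] at h5
  nlinarith

/-- an element with `s θ = - θ` -/
lemma exists_theta {s : K ≃+* K} (hq : Odd q) (hK : Nat.card K = q ^ 2) (hsq : ∀ x : K, s x = x ^ q) :
    ∃ θ : K, θ ≠ 0 ∧ s θ = - θ := by
  obtain ⟨y, hy⟩ := exists_pow_ne (two_le_of hq hK) hK
  have h1 : s (s y) = y := by
    rw [hsq, hsq, ← pow_mul, ← pow_two, ← hK, Nat.card_eq_fintype_card]
    exact FiniteField.pow_card y
  refine ⟨y - s y, ?_, ?_⟩
  · rw [hsq]
    exact sub_ne_zero.2 (Ne.symm hy)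
  · rw [map_sub, h1, neg_sub]

/-- **Diagonal matrices as coboundaries.** -/
theorem exists_v {s : K ≃+* K} (hq : Odd q) (hK : Nat.card K = q ^ 2) (hsq : ∀ x : K, s x = x ^ q)
    {n : ℕ} (hn : Odd n) (a : Fin n → K) (ha : ∀ i, a i = 1 ∨ a i = -1) :
    ∃ v : Matrix (Fin n) (Fin n) K, vᵀ * v = 1 ∧ ∃ ε : K, ε ≠ 0 ∧
      v.map s = ε • (diagonal a * v) := by
  obtain ⟨θ, hθ0, hθ⟩ := exists_theta hq hK hsq
  have h2 := two_ne_of (K := K) hq hK
  let K₀ : Subfield K := RingHom.eqLocusField (s : K →+* K) (RingHom.id K)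
  have hK₀ : ∀ x : K, x ∈ K₀ ↔ s x = x := fun x => Iff.rfl
  let b : Fin n → K := fun i => if a i = 1 then 1 else θ
  have hb0 : ∀ i, b i ≠ 0 := by
    intro i
    simp only [b]
    split_ifs
    · exact one_ne_zero
    · exact hθ0
  have hb : ∀ i, s (b i) = a i * b i := by
    intro i
    simp only [b]
    split_ifs with h
    · rw [map_one, h, one_mul]
    · rw [hθ, (ha i).resolve_left h, neg_one_mul]
  have haa : ∀ i, a i * a i = 1 := by
    intro i
    rcases ha i with h | h <;> rw [h] <;> ring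
  have hd : ∀ i, b i * b i ∈ K₀ := by
    intro i
    rw [hK₀, map_mul, hb]
    linear_combination (b i * b i) * haa i
  let d : Fin n → K₀ := fun i => ⟨b i * b i, hd i⟩
  have hd0 : ∀ i, d i ≠ 0 := by
    intro i h
    have h1 : b i * b i = 0 := congrArg Subtype.val h
    exact (mul_self_ne_zero.2 (hb0 i)) h1
  have h2' : (2 : K₀) ≠ 0 := by
    intro h
    apply h2
    have h3 := congrArg K₀.subtype h
    rwa [map_ofNat, map_zero] at h3
  set D := ∏ i, d i with hD
  have hD0 : D ≠ 0 := Finset.prod_ne_zero_iff.mpr fun i _ => hd0 i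
  obtain ⟨M, hM⟩ := H281.exists_orthonormal (F := K₀) h2' _ (fun i => D⁻¹ * d i)
    (fun i => mul_ne_zero (inv_ne_zero hD0) (hd0 i)) (by
      rw [Finset.prod_mul_distrib, ← hD, Finset.prod_const, Finset.card_univ, Fintype.card_fin]
      obtain ⟨k, rfl⟩ := hn
      refine ⟨D⁻¹ ^ k, ?_⟩
      rw [pow_succ, mul_assoc, inv_mul_cancel₀ hD0, mul_one]
      ring) rfl
  set δ : K := ∏ i, b i with hδ
  have hδ0 : δ ≠ 0 := Finset.prod_ne_zero_iff.mpr fun i _ => hb0 i
  have hDδ : (D : K) = δ * δ := by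
    rw [hδ, ← Finset.prod_mul_distrib, hD]
    exact map_prod K₀.subtype d Finset.univ
  let N : Matrix (Fin n) (Fin n) K := M.map K₀.subtype
  have hN : Nᵀ * diagonal (fun i => ((D⁻¹ * d i : K₀) : K)) * N = 1 := by
    have h1 := congrArg (fun A => K₀.subtype.mapMatrix A) hM
    simp only [map_mul, map_one, RingHom.mapMatrix_apply] at h1
    rw [← h1]
    congr 2
    rw [diagonal_map (map_zero _)]
    rfl
  have hNs : ∀ i j, s (N i j) = N i j := fun i j => (M i j).2
  refine ⟨δ⁻¹ • (diagonal b * N), ?_, (∏ i, a i)⁻¹, ?_, ?_⟩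
  · rw [transpose_smul, transpose_mul, diagonal_transpose, smul_mul_smul_comm, ← hN]
    have h3 : Nᵀ * diagonal b * (diagonal b * N) =
        Nᵀ * diagonal (fun i => ((d i : K₀) : K)) * N := by
      rw [mul_assoc, ← mul_assoc (diagonal b), diagonal_mul_diagonal, ← mul_assoc]
    rw [h3, ← smul_mul_assoc, ← mul_smul_comm]
    congr 2
    ext i j
    rw [Matrix.smul_apply, diagonal_apply, diagonal_apply]
    by_cases h : i = j
    · rw [if_pos h, if_pos h, smul_eq_mul]
      have h4 : ((D⁻¹ * d i : K₀) : K) = (D : K)⁻¹ * (d i : K) := rfl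
      rw [h4, hDδ, mul_inv]
    · rw [if_neg h, if_neg h, smul_zero]
  · refine inv_ne_zero (Finset.prod_ne_zero_iff.mpr fun i _ => ?_)
    exact left_ne_zero_of_mul (b := a i) (by rw [haa i]; exact one_ne_zero)
  · have h5 : s δ = (∏ i, a i) * δ := by
      rw [hδ, map_prod, ← Finset.prod_mul_distrib]
      exact Finset.prod_congr rfl fun i _ => hb i
    ext i j
    rw [map_apply, Matrix.smul_apply, Matrix.smul_apply, diagonal_mul, diagonal_mul,
      Matrix.smul_apply, diagonal_mul, smul_eq_mul, smul_eq_mul, map_mul, map_mul,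
      map_inv₀, h5, hb, hNs, mul_inv]
    ring

end

section
variable {K : Type u} [Field K] [StarRing K] {n : ℕ}

lemma star_eq_transpose (hs : ∀ x : K, star x = x) (M : Matrix (Fin n) (Fin n) K) :
    star M = Mᵀ := by
  ext i j
  rw [star_apply, hs, transpose_apply]

/-- the diagonals `±1` with first entry `1` -/
def Dg (K : Type u) [Field K] (n : ℕ) : Finset (Fin n → K) :=
  Fintype.piFinset fun i : Fin n => if (i : ℕ) = 0 then {1} else {1, -1}

omit [StarRing K] in
lemma mem_Dg {a : Fin n → K} :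
    a ∈ Dg K n ↔ ∀ i : Fin n, ((i : ℕ) = 0 → a i = 1) ∧ (a i = 1 ∨ a i = -1) := by
  rw [Dg, Fintype.mem_piFinset]
  refine forall_congr' fun i => ?_
  by_cases h : (i : ℕ) = 0
  · rw [if_pos h, Finset.mem_singleton]
    exact ⟨fun h1 => ⟨fun _ => h1, Or.inl h1⟩, fun h1 => h1.1 h⟩
  · rw [if_neg h, Finset.mem_insert, Finset.mem_singleton]
    exact ⟨fun h1 => ⟨fun h2 => absurd h2 h, h1⟩, fun h1 => h1.2⟩

omit [StarRing K] in
lemma card_Dg (h2 : (2 : K) ≠ 0) (hn : 0 < n) : (Dg K n).card = 2 ^ (n - 1) := by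
  rw [Dg, Fintype.card_piFinset]
  have h3 : (1 : K) ≠ -1 := by
    intro h
    apply h2
    linear_combination h
  have h1 : ∀ i : Fin n, (if (i : ℕ) = 0 then ({1} : Finset K) else {1, -1}).card =
      if i = ⟨0, hn⟩ then 1 else 2 := by
    intro i
    by_cases h : i = ⟨0, hn⟩
    · rw [if_pos h, if_pos (by rw [h]), Finset.card_singleton]
    · rw [if_neg h, if_neg (fun h' => h (Fin.ext h')), Finset.card_pair h3]
  rw [Finset.prod_congr rfl fun i _ => h1 i,
    ← Finset.mul_prod_erase Finset.univ _ (Finset.mem_univ (⟨0, hn⟩ : Fin n)), if_pos rfl, one_mul,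
    Finset.prod_congr rfl (fun i hi => if_neg (Finset.ne_of_mem_erase hi)), Finset.prod_const,
    Finset.card_erase_of_mem (Finset.mem_univ _), Finset.card_univ, Fintype.card_fin]

variable {Γ : Type w} [Fintype K]

/-- **R5**, general factor. Trivial star, `|K| = q²`, `s x = x ^ q`, `n` odd. `yy g` stands for the
conjugate by `g` of the field automorphism of order `2`, `C y u` for: the element of the word `u`
commutes with `y`. -/
theorem family_orthM (hstar : ∀ x : K, star x = x) {q : ℕ} (hq : Odd q)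
    (hK : Nat.card K = q ^ 2) (s : K ≃+* K) (hsq : ∀ x : K, s x = x ^ q) (hn : Odd n)
    (yy : GU K n → Γ)
    (hyy : ∀ g g', yy g = yy g' →
      ∃ c : K, ((g⁻¹ * g' : GU K n).1).map s = c • (g⁻¹ * g' : GU K n).1)
    (C : Γ → List (Ln K n) → Prop)
    (hC : ∀ (g : GU K n) (u v : List (Ln K n)), u ++ v ∈ Fs s n → C (yy g) (u.map (lg g)))
    {M : ℕ} (hcount : (Fs s n).card < 2 ^ (n - 1) * M * t (Fs s n)) :
    ∃ (Y : Finset Γ) (Fy : Γ → Finset (List (Ln K n))),
      (∀ y, y ∈ Y ↔ ∃ g, yy g = y) ∧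
      (∀ y ∈ Y, Fy y ⊆ Fr K n ∧ (∀ w ∈ Fy y, ∀ w', w.Perm w' → w' ∈ Fy y) ∧
        ∀ u v, u ++ v ∈ Fy y → C y u) ∧
      (Fr K n).card < M * ∑ y ∈ Y, t (Fy y) := by
  have h2 := two_ne_of (K := K) hq hK
  have hn0 : 0 < n := hn.pos
  obtain ⟨Y, Fy, h3, h4, h5, h6⟩ := family_gen hn0 s (fun x => by rw [hstar, hstar]) yy hyy C hC
    (Dg K n) (fun a ha => by
      obtain ⟨v, hv, ε, hε, hv2⟩ := exists_v hq hK hsq hn a fun i => ((mem_Dg.1 ha) i).2
      refine ⟨⟨v, mem_unitaryGroup_iff'.2 ?_⟩, ε, hε, hv2⟩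
      rw [star_eq_transpose hstar, hv]) (fun a ha a' ha' c h => by
      have h7 := (mem_Dg.1 ha ⟨0, hn0⟩).1 rfl
      have h8 := (mem_Dg.1 ha' ⟨0, hn0⟩).1 rfl
      have h9 := congrFun h ⟨0, hn0⟩
      rw [Pi.smul_apply, h7, h8, smul_eq_mul, mul_one] at h9
      rw [h, ← h9, one_smul])
  refine ⟨Y, Fy, h3, h4, ?_⟩
  rw [Finset.sum_congr rfl fun y hy => (h5 y hy).2, Finset.sum_const, smul_eq_mul]
  rw [card_Dg h2 hn0] at h6
  have hY : 0 < Y.card := Finset.card_pos.2 ⟨yy 1, (h3 _).2 ⟨1, rfl⟩⟩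
  have h8 : 2 ^ (n - 1) * (Fr K n).card < 2 ^ (n - 1) * (M * (Y.card * t (Fs s n))) := by
    calc 2 ^ (n - 1) * (Fr K n).card ≤ Y.card * (Fs s n).card := h6
      _ < Y.card * (2 ^ (n - 1) * M * t (Fs s n)) := Nat.mul_lt_mul_of_pos_left hcount hY
      _ = 2 ^ (n - 1) * (M * (Y.card * t (Fs s n))) := by ring
  exact Nat.lt_of_mul_lt_mul_left h8

/-- **R5.** Trivial star, `|K| = q²`, `s x = x ^ q`, `n` odd. `yy g` stands for the conjugate by `g`
of the field automorphism of order `2`, `C y u` for: the element of the word `u` commutes with `y`. -/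
theorem family_orth (hstar : ∀ x : K, star x = x) {q : ℕ} (hq : Odd q)
    (hK : Nat.card K = q ^ 2) (s : K ≃+* K) (hsq : ∀ x : K, s x = x ^ q) (hn : Odd n)
    (yy : GU K n → Γ)
    (hyy : ∀ g g', yy g = yy g' →
      ∃ c : K, ((g⁻¹ * g' : GU K n).1).map s = c • (g⁻¹ * g' : GU K n).1)
    (C : Γ → List (Ln K n) → Prop)
    (hC : ∀ (g : GU K n) (u v : List (Ln K n)), u ++ v ∈ Fs s n → C (yy g) (u.map (lg g)))
    (hcount : (Fs s n).card < 2 ^ n * t (Fs s n)) :
    ∃ (Y : Finset Γ) (Fy : Γ → Finset (List (Ln K n))),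
      (∀ y, y ∈ Y ↔ ∃ g, yy g = y) ∧
      (∀ y ∈ Y, Fy y ⊆ Fr K n ∧ (∀ w ∈ Fy y, ∀ w', w.Perm w' → w' ∈ Fy y) ∧
        ∀ u v, u ++ v ∈ Fy y → C y u) ∧
      (Fr K n).card < 2 * ∑ y ∈ Y, t (Fy y) := by
  have hn0 : 0 < n := hn.pos
  refine family_orthM hstar hq hK s hsq hn yy hyy C hC ?_
  rwa [← pow_succ, Nat.sub_add_cancel hn0]

end

end

end Vale.Agent.P240.R2.H829
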