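import Vale.Agent.P240.R2.H986.EDefs
import Vale.Agent.P240.R2.H387.Scnt

/-!
StmtEO (even unitary line of helper986): the order of the group of matrices in `SU_n(q)` that commute
with `Da α ∘ star` modulo scalars.
-/

set_option autoImplicit false

namespace Vale.Agent.P240.R2.H829.EO

open Matrix Vale.Agent.P240.R2.AS Vale.Agent.P240.R2.H38 Vale.Agent.P240.R2.H986.E
open Vale.Agent.P240.R2.H986.St Vale.Agent.P240.R2.H687
open scoped Classical

universe u

noncomputable section

section
variable {K : Type u} [Field K] [Fintype K] [StarRing K] {n : ℕ}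

omit [Fintype K] in
lemma mul_map_star (A B : Matrix (Fin n) (Fin n) K) :
    (A * B).map star = A.map star * B.map star :=
  Matrix.map_mul (f := starRingEnd K)

omit [Fintype K] in
lemma smul_map_star (a : K) (A : Matrix (Fin n) (Fin n) K) :
    (a • A).map star = star a • A.map star := by
  ext i j
  simp

/-- the diagonal entries of `Da` -/
def dl (n : ℕ) (α : K) (i : Fin n) : K := if i.1 + 1 = n then α else 1

omit [Fintype K] in
lemma dl_norm {α : K} (h : α * star α = 1) (i : Fin n) : dl n α i * star (dl n α i) = 1 := by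
  unfold dl
  split_ifs
  · exact h
  · rw [star_one, mul_one]

omit [Fintype K] in
lemma star_Da_mul {α : K} (h : α * star α = 1) : star (Da n α) * Da n α = 1 := by
  rw [Da, star_eq_conjTranspose, diagonal_conjTranspose, diagonal_mul_diagonal, ← diagonal_one]
  congr 1
  funext i
  rw [Pi.star_apply, mul_comm]
  exact dl_norm h i

omit [Fintype K] in
lemma Da_mul_star {α : K} (h : α * star α = 1) : Da n α * star (Da n α) = 1 := by
  rw [Da, star_eq_conjTranspose, diagonal_conjTranspose, diagonal_mul_diagonal, ← diagonal_one]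
  congr 1
  funext i
  exact dl_norm h i

/-- `h ↦ D h^* D⁻¹` -/
def cD (α : K) (A : Matrix (Fin n) (Fin n) K) : Matrix (Fin n) (Fin n) K :=
  Da n α * A.map star * star (Da n α)

omit [Fintype K] in
lemma cD_mul {α : K} (h : α * star α = 1) (A B : Matrix (Fin n) (Fin n) K) :
    cD α (A * B) = cD α A * cD α B := by
  unfold cD
  rw [mul_map_star]
  calc Da n α * (A.map star * B.map star) * star (Da n α)
      = Da n α * A.map star * (star (Da n α) * Da n α) * B.map star * star (Da n α) := by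
        rw [star_Da_mul h]; simp only [mul_assoc, one_mul]
    _ = Da n α * A.map star * star (Da n α) * (Da n α * B.map star * star (Da n α)) := by
        simp only [mul_assoc]

omit [Fintype K] in
lemma cD_star {α : K} (A : Matrix (Fin n) (Fin n) K) : cD α (star A) = star (cD α A) := by
  unfold cD
  rw [star_mul, star_mul, star_star, mul_assoc]
  congr 2

omit [Fintype K] in
lemma cD_one {α : K} (h : α * star α = 1) : cD α (1 : Matrix (Fin n) (Fin n) K) = 1 := by
  unfold cD
  have : (1 : Matrix (Fin n) (Fin n) K).map star = 1 :=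
    Matrix.map_one _ (star_zero K) (star_one K)
  rw [this, mul_one, Da_mul_star h]

omit [Fintype K] in
lemma cD_smul {α : K} (a : K) (A : Matrix (Fin n) (Fin n) K) :
    cD α (a • A) = star a • cD α A := by
  unfold cD
  rw [smul_map_star, mul_smul_comm, smul_mul_assoc]

omit [Fintype K] in
lemma cD_det {α : K} (h : α * star α = 1) (A : Matrix (Fin n) (Fin n) K) :
    (cD α A).det = star A.det := by
  unfold cD
  have h1 : (A.map star).det = star A.det := ((starRingEnd K).map_det A).symm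
  have h2 : (Da n α).det * (star (Da n α)).det = 1 := by
    rw [← det_mul, Da_mul_star h, det_one]
  rw [det_mul, det_mul, h1]
  linear_combination (star A.det) * h2

omit [Fintype K] [StarRing K] in
lemma Da_mulVec_single (α : K) (i : Fin n) :
    Da n α *ᵥ (Pi.single i (1 : K)) = dl n α i • Pi.single i (1 : K) := by
  ext j
  rw [Da, mulVec_diagonal, Pi.smul_apply, smul_eq_mul]
  by_cases h : j = i
  · subst h; rfl
  · rw [Pi.single_eq_of_ne h, mul_zero, mul_zero]

omit [Fintype K] in
lemma star_single (i : Fin n) : star (Pi.single i (1 : K) : Fin n → K) = Pi.single i 1 := by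
  ext j
  rw [Pi.star_apply]
  by_cases h : j = i
  · subst h; simp
  · rw [Pi.single_eq_of_ne h, star_zero]

omit [Fintype K] in
lemma star_mulVec' (A : Matrix (Fin n) (Fin n) K) (x : Fin n → K) :
    star (A *ᵥ x) = A.map star *ᵥ star x := by
  ext j
  simp only [Pi.star_apply, mulVec, dotProduct, star_sum, star_mul', map_apply]

variable {α : K}

/-- the elements that commute with `D` star -/
def Cc (K : Type u) [Field K] [Fintype K] [StarRing K] (n : ℕ) (α : K) : Type u :=
  {h : H38.SU K n // cD α (mx h) = mx h}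

omit [Fintype K] in
lemma comm_of_cD (h : α * star α = 1) {A : Matrix (Fin n) (Fin n) K} (e : cD α A = A) :
    Da n α * A.map star = A * Da n α := by
  calc Da n α * A.map star = Da n α * A.map star * (star (Da n α) * Da n α) := by
        rw [star_Da_mul h, mul_one]
    _ = cD α A * Da n α := by rw [cD, mul_assoc]; simp only [mul_assoc]
    _ = _ := by rw [e]

omit [Fintype K] in
lemma vec_fix (h : α * star α = 1) {A : Matrix (Fin n) (Fin n) K} (e : cD α A = A) (i : Fin n) :
    Da n α *ᵥ star (A *ᵥ Pi.single i (1 : K)) = dl n α i • (A *ᵥ Pi.single i (1 : K)) := by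
  rw [star_mulVec', star_single, mulVec_mulVec, comm_of_cD h e, ← mulVec_mulVec,
    Da_mulVec_single, mulVec_smul]

omit [Fintype K] in
lemma dot_one (u : GU K n) (i : Fin n) :
    star (u.1 *ᵥ Pi.single i (1 : K)) ⬝ᵥ (u.1 *ᵥ Pi.single i (1 : K)) = 1 := by
  rw [star_mulVec, ← star_eq_conjTranspose, ← dotProduct_mulVec, mulVec_mulVec, star_gu, one_mulVec]
  simp

omit [Fintype K] in
lemma lnU_E1 (u : GU K n) (i : Fin n) :
    (lnU u (E1 i)).1 = vecMulVec (u.1 *ᵥ Pi.single i (1 : K)) (star (u.1 *ᵥ Pi.single i (1 : K))) := by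
  rw [lnU_coe, E1_coe, ← vec_e1, mul_vecMulVec, vecMulVec_mul, star_mulVec, ← star_eq_conjTranspose]

omit [Fintype K] in
lemma not_L1 (hα : NSq α) {i : Fin n} (hi : i.1 + 1 = n) {u : GU K n} (e : cD α u.1 = u.1) :
    ¬ L1 α (lnU u (E1 i)) := by
  rintro ⟨y, hy1, hy2, hy3⟩
  set x : Fin n → K := u.1 *ᵥ Pi.single i (1 : K) with hx
  have h1 : star x ⬝ᵥ x = 1 := dot_one u i
  have h2 : Da n α *ᵥ star x = α • x := by
    rw [hx, vec_fix hα.1 e i]
    congr 1
    rw [dl, if_pos hi]
  rw [lnU_E1, ← hx] at hy3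
  set c : K := star x ⬝ᵥ y with hc
  have h3 : y = c • x := by
    have h4 : vecMulVec y (star y) *ᵥ y = y := by
      rw [vecMulVec_mulVec, hy2]
      simp
    rw [← hy3, vecMulVec_mulVec] at h4
    rw [← h4]
    ext j
    simp [hc, mul_comm]
  have h4 : c * star c = 1 := by
    rw [h3, star_smul, smul_dotProduct, dotProduct_smul, h1, smul_eq_mul, smul_eq_mul, mul_one,
      mul_comm] at hy2
    exact hy2
  have hx0 : ∃ j, x j ≠ 0 := by
    by_contra hcon
    push Not at hcon
    have : x = 0 := funext hcon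
    rw [this, dotProduct_zero] at h1
    exact zero_ne_one h1
  obtain ⟨j, hj⟩ := hx0
  rw [h3, star_smul, mulVec_smul, h2] at hy1
  have h5 := congrFun hy1 j
  simp only [Pi.smul_apply, smul_eq_mul] at h5
  have h6 : star c * α = c := mul_right_cancel₀ hj (by rw [mul_assoc]; exact h5)
  refine hα.2 c h4 ?_
  calc c * c = c * (star c * α) := by rw [h6]
    _ = (c * star c) * α := by ring
    _ = α := by rw [h4, one_mul]

omit [Fintype K] in
lemma is_L1 (hα : α * star α = 1) {i : Fin n} (hi : i.1 + 1 ≠ n) {u : GU K n} (e : cD α u.1 = u.1) :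
    L1 α (lnU u (E1 i)) := by
  refine ⟨u.1 *ᵥ Pi.single i (1 : K), ?_, dot_one u i, lnU_E1 u i⟩
  rw [vec_fix hα e i, dl, if_neg hi, one_smul]

omit [Fintype K] in
lemma cD_E1 (hα : α * star α = 1) (i : Fin n) : cD α (E1 i : Ln K n).1 = (E1 i : Ln K n).1 := by
  have h1 : ((E1 i : Ln K n).1).map star = (E1 i : Ln K n).1 := by
    rw [E1_coe]
    ext a b
    rw [map_apply, diagonal_apply]
    by_cases hab : a = b
    · subst hab
      by_cases ha : a = i
      · simp [ha]
      · simp [ha]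
    · simp [hab]
  rw [cD, h1, E1_coe, Da, star_eq_conjTranspose, diagonal_conjTranspose, diagonal_mul_diagonal,
    diagonal_mul_diagonal]
  congr 1
  funext k
  have h2 := dl_norm (n := n) hα k
  rw [dl] at h2
  rw [Pi.star_apply]
  by_cases hk : k = i
  · rw [if_pos hk, mul_one]
    exact h2
  · rw [if_neg hk, mul_zero, zero_mul]

omit [Fintype K] in
lemma is_Lf (hα : α * star α = 1) (i : Fin n) {u : GU K n} (e : cD α u.1 = u.1) :
    Lf α (lnU u (E1 i)) := by
  show cD α (lnU u (E1 i)).1 = _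
  rw [lnU_coe, cD_mul hα, cD_mul hα, cD_star, e, cD_E1 hα]

lemma map_mem_FM {m : ℕ} (hα : NSq α) {u : GU K (m + 1)} (e : cD α u.1 = u.1) :
    (w0 K (m + 1)).map (lnU u) ∈ FM K (m + 1) α := by
  rw [FM, Finset.mem_filter]
  refine ⟨(mem_Fr_map u).2 w0_mem, (List.ofFn fun i : Fin m => (E1 i.castSucc : Ln K (m + 1))).map (lnU u),
    lnU u (E1 (Fin.last m)), ?_, ?_, is_Lf hα.1 _ e, not_L1 hα (by simp) e⟩
  · rw [w0, List.ofFn_succ', List.concat_eq_append, List.map_append]
    rfl
  · intro Q hQ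
    obtain ⟨R, hR, rfl⟩ := List.mem_map.1 hQ
    obtain ⟨i, rfl⟩ := (List.mem_ofFn' _ _).1 hR
    exact is_L1 hα.1 (by
      have := i.2
      simp only [Fin.val_castSucc]
      omega) e

omit [Fintype K] in
/-- a matrix that fixes the standard letters is diagonal -/
lemma diag_of_fix {u : GU K n} (h : ∀ i, lnU u (E1 i) = E1 i) : ∀ j i, j ≠ i → u.1 j i = 0 := by
  intro j i hji
  have h1 := congrArg Subtype.val (h i)
  rw [lnU_coe] at h1
  have h2 : u.1 * (E1 i : Ln K n).1 = (E1 i : Ln K n).1 * u.1 := by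
    calc u.1 * (E1 i : Ln K n).1 = u.1 * (E1 i : Ln K n).1 * (star u.1 * u.1) := by
          rw [star_gu, mul_one]
      _ = (u.1 * (E1 i : Ln K n).1 * star u.1) * u.1 := by simp only [mul_assoc]
      _ = _ := by rw [h1]
  have h3 := congrFun (congrFun h2 j) i
  rw [E1_coe, mul_diagonal, diagonal_mul, if_pos rfl, if_neg hji, mul_one, zero_mul] at h3
  exact h3

omit [Fintype K] in
lemma entry_pm (hα : α * star α = 1) {u : GU K n} (e : cD α u.1 = u.1)
    (h : ∀ i, lnU u (E1 i) = E1 i) (i : Fin n) : u.1 i i = 1 ∨ u.1 i i = -1 := by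
  have h0 := diag_of_fix h
  have h1 := vec_fix hα e i
  have h2 := congrFun h1 i
  rw [Pi.smul_apply, mulVec_single_one, Da, mulVec_diagonal, Pi.star_apply, smul_eq_mul] at h2
  have h3 : dl n α i ≠ 0 := by
    intro h4
    have h5 := dl_norm (n := n) hα i
    rw [h4, zero_mul] at h5
    exact zero_ne_one h5
  have h4 : star (u.1 i i) = u.1 i i := mul_left_cancel₀ h3 h2
  have h5 := congrFun (congrFun (gu_star u) i) i
  rw [mul_apply, one_apply_eq, Finset.sum_eq_single i
    (fun k _ hk => by rw [h0 i k (fun h => hk h.symm), zero_mul])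
    (fun h => absurd (Finset.mem_univ _) h), star_apply, h4] at h5
  exact mul_self_eq_one_iff.1 h5

omit [Fintype K] in
lemma diag_ext {u v : GU K n} (hu : ∀ j i, j ≠ i → u.1 j i = 0) (hv : ∀ j i, j ≠ i → v.1 j i = 0)
    (h : ∀ i, u.1 i i = v.1 i i) : u = v := by
  apply Subtype.ext
  ext j i
  by_cases hji : j = i
  · subst hji; exact h j
  · rw [hu j i hji, hv j i hji]

/-- the lists of the standard letters -/
def wl (h : GU K n) : List (Ln K n) := (w0 K n).map (lnU h)

omit [Fintype K] in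
lemma lnU_mul (u v : GU K n) (P : Ln K n) : lnU (u * v) P = lnU u (lnU v P) := by
  apply Subtype.ext
  rw [lnU_coe, lnU_coe, lnU_coe, gu_mul, star_mul]
  simp only [mul_assoc]

omit [Fintype K] in
lemma wl_eq {u v : GU K n} (h : wl u = wl v) (i : Fin n) : lnU (v⁻¹ * u) (E1 i) = E1 i := by
  have h1 : lnU u (E1 i) = lnU v (E1 i) := by
    rw [wl, wl, w0, List.map_ofFn, List.map_ofFn] at h
    exact congrFun (List.ofFn_injective h) i
  rw [lnU_mul, h1, lnU_inv]

variable (K) in
/-- the elements of `SU` that commute with `D` star -/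
theorem card_C_le {m : ℕ} (hα : NSq α) :
    Nat.card {h : H38.SU K (m + 1) // cD α (mx h) = mx h} ≤ 2 ^ (m + 1) * (FM K (m + 1) α).card := by
  set C := {h : H38.SU K (m + 1) // cD α (mx h) = mx h} with hC
  have hrep : ∀ w : {w // w ∈ FM K (m + 1) α}, ∃ r : C, (∃ g : C, wl g.1.1 = w.1) → wl r.1.1 = w.1 := by
    intro w
    by_cases h : ∃ g : C, wl g.1.1 = w.1
    · obtain ⟨g, hg⟩ := h
      exact ⟨g, fun _ => hg⟩
    · refine ⟨⟨1, ?_⟩, fun h' => absurd h' h⟩
      rw [mx_one, cD_one hα.1]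
  choose r hr using hrep
  let W : C → {w // w ∈ FM K (m + 1) α} := fun h => ⟨wl h.1.1, map_mem_FM hα h.2⟩
  have hW : ∀ h : C, wl (r (W h)).1.1 = wl h.1.1 := fun h => hr (W h) ⟨h, rfl⟩
  let g : C → GU K (m + 1) := fun h => (r (W h)).1.1⁻¹ * h.1.1
  have hg1 : ∀ h i, lnU (g h) (E1 i) = E1 i := fun h i => wl_eq (hW h).symm i
  have hg2 : ∀ h, cD α (g h).1 = (g h).1 := by
    intro h
    show cD α (((r (W h)).1.1⁻¹ * h.1.1 : GU K (m + 1))).1 = _
    rw [gu_mul, gu_inv, cD_mul hα.1, cD_star]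
    have e1 : cD α (r (W h)).1.1.1 = (r (W h)).1.1.1 := (r (W h)).2
    have e2 : cD α h.1.1.1 = h.1.1.1 := h.2
    rw [e1, e2]
  have hcard : Nat.card ({w // w ∈ FM K (m + 1) α} × (Fin (m + 1) → Bool)) =
      2 ^ (m + 1) * (FM K (m + 1) α).card := by
    rw [Nat.card_prod, Nat.card_eq_fintype_card, Fintype.card_coe, Nat.card_eq_fintype_card,
      Fintype.card_fun, Fintype.card_bool, Fintype.card_fin, mul_comm]
  rw [← hcard]
  refine Nat.card_le_card_of_injective
    (fun h : C => (W h, fun i => decide ((g h).1 i i = 1))) ?_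
  intro h h' e
  have e1 : W h = W h' := congrArg Prod.fst e
  have e2 := congrArg Prod.snd e
  have e3 : g h = g h' := by
    refine diag_ext (diag_of_fix (hg1 h)) (diag_of_fix (hg1 h')) fun i => ?_
    have h3 := congrFun e2 i
    simp only [decide_eq_decide] at h3
    rcases entry_pm hα.1 (hg2 h) (hg1 h) i with h4 | h4
    · rw [h4, h3.1 h4]
    · rcases entry_pm hα.1 (hg2 h') (hg1 h') i with h5 | h5
      · rw [h5, h3.2 h5]
      · rw [h4, h5]
  have e4 : h.1.1 = h'.1.1 := by
    have h3 : (r (W h)).1.1⁻¹ * h.1.1 = (r (W h')).1.1⁻¹ * h'.1.1 := e3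
    rw [e1] at h3
    exact mul_left_cancel h3
  exact Subtype.ext (Subtype.ext e4)

omit [Fintype K] in
lemma scal_facts (hα : α * star α = 1) (hn : 0 < n) {h : H38.SU K n} {a : K}
    (e : cD α (mx h) = a • mx h) : a ^ n = 1 ∧ a * star a = 1 := by
  constructor
  · have h1 := congrArg Matrix.det e
    have h2 : (mx h).det = 1 := mem_SUg.1 (by rw [← H687.SU_eq]; exact h.2)
    rw [cD_det hα, h2, det_smul, h2, Fintype.card_fin, star_one, mul_one] at h1
    exact h1.symm
  · have h1 : cD α (mx h) * star (cD α (mx h)) = 1 := by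
      rw [← cD_star, ← cD_mul hα, mx_star, cD_one hα]
    rw [e, star_smul, smul_mul_smul_comm, mx_star] at h1
    have h2 := congrFun (congrFun h1 ⟨0, hn⟩) ⟨0, hn⟩
    rw [Matrix.smul_apply, one_apply_eq, smul_eq_mul, mul_one] at h2
    exact h2

variable (K) in
/-- the elements of `SU` that commute with `D` star up to scalars -/
theorem card_X_le {m q : ℕ} (hF : Fld K q) (hα : NSq α) :
    Nat.card {h : H38.SU K (m + 1) // ∃ a : K, cD α (mx h) = a • mx h} ≤
      (m + 1).gcd (q + 1) * (2 ^ (m + 1) * (FM K (m + 1) α).card) := by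
  have hfin1 : Finite (Matrix (Fin (m + 1)) (Fin (m + 1)) K) :=
    inferInstanceAs (Finite (Fin (m + 1) → Fin (m + 1) → K))
  have hfin2 : Finite (unitaryGroup (Fin (m + 1)) K) := Subtype.finite
  set X := {h : H38.SU K (m + 1) // ∃ a : K, cD α (mx h) = a • mx h} with hX
  set C := {h : H38.SU K (m + 1) // cD α (mx h) = mx h} with hC
  let Z : Set K := {c : K | c ^ ((m + 1).gcd (q + 1)) = 1}
  have hZ : Nat.card Z ≤ (m + 1).gcd (q + 1) :=
    H687.card_roots_le (Nat.gcd_pos_of_pos_left _ (Nat.succ_pos m))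
  choose a ha using fun h : X => h.2
  have haZ : ∀ h, a h ∈ Z := by
    intro h
    obtain ⟨h1, h2⟩ := scal_facts hα.1 (Nat.succ_pos m) (ha h)
    have h3 : (a h) ^ (q + 1) = 1 := by rw [pow_succ, ← hF.2.2, mul_comm]; exact h2
    exact pow_gcd_eq_one.2 ⟨h1, h3⟩
  have hrep : ∀ z : K, ∃ r : X, (∃ g : X, a g = z) → a r = z := by
    intro z
    by_cases h : ∃ g : X, a g = z
    · obtain ⟨g, hg⟩ := h
      exact ⟨g, fun _ => hg⟩
    · exact ⟨⟨1, 1, by rw [mx_one, cD_one hα.1, one_smul]⟩, fun h' => absurd h' h⟩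
  choose r hr using hrep
  have hra : ∀ h : X, a (r (a h)) = a h := fun h => hr _ ⟨h, rfl⟩
  have hc : ∀ h : X, cD α (mx (h.1 * (r (a h)).1⁻¹)) = mx (h.1 * (r (a h)).1⁻¹) := by
    intro h
    rw [mx_mul, mx_inv, cD_mul hα.1, cD_star, ha h, ha (r (a h)), hra, star_smul,
      smul_mul_smul_comm, (scal_facts hα.1 (Nat.succ_pos m) (ha h)).2, one_smul]
  calc Nat.card X ≤ Nat.card (Z × C) := by
        refine Nat.card_le_card_of_injective
          (fun h : X => ((⟨a h, haZ h⟩ : Z), (⟨h.1 * (r (a h)).1⁻¹, hc h⟩ : C))) ?_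
        intro h h' e
        have e1 : a h = a h' := congrArg (fun x : Z × C => x.1.1) e
        have e2 : h.1 * (r (a h)).1⁻¹ = h'.1 * (r (a h')).1⁻¹ :=
          congrArg (fun x : Z × C => x.2.1) e
        rw [e1] at e2
        exact Subtype.ext (mul_right_cancel e2)
    _ = Nat.card Z * Nat.card C := Nat.card_prod _ _
    _ ≤ _ := Nat.mul_le_mul hZ (card_C_le K hα)

end

/-- **EO** -/
theorem stmtEO : StmtEO.{u} := by
  intro K _ _ _ q hF n hn α hα
  obtain ⟨m, rfl⟩ : ∃ m, n = m + 1 := ⟨n - 1, by omega⟩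
  refine ⟨card_X_le K hF hα, ?_⟩
  have hK := hF.2.1
  have hs := hF.2.2
  have hq2 : 2 ≤ q := by
    have h1 : 1 < Nat.card K := Finite.one_lt_card
    rw [hK] at h1
    by_contra hcon
    have h2 : q ≤ 1 := by omega
    have h3 : q ^ 2 ≤ 1 ^ 2 := Nat.pow_le_pow_left h2 2
    omega
  have hfin1 : Finite (Matrix (Fin (m + 1)) (Fin (m + 1)) K) :=
    inferInstanceAs (Finite (Fin (m + 1) → Fin (m + 1) → K))
  have hfin2 : Finite (unitaryGroup (Fin (m + 1)) K) := Subtype.finite
  have hU := H715.card_unitary_pow (K := K) hq2 hK hs (m + 1)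
  have e1 := card_U_SU (K := K) (n := m + 1) (Nat.succ_pos m)
  rw [card_unitary_N1, H715.card_N1_of_pow hq2 hK hs, hU, ← H687.SU_eq (K := K) (n := m + 1)] at e1
  refine Nat.eq_of_mul_eq_mul_left (Nat.succ_pos q) ?_
  rw [Nat.succ_eq_add_one, ← e1, Nat.add_sub_cancel, pow_succ]
  ring

end

end Vale.Agent.P240.R2.H829.EO
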