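import Vale.Agent.P240.R2.H829.Cnt6
import Vale.Agent.P240.R2.H945.SemiN

/-!
T3 for orthogonal groups with the obstructions counted up to the factor `n` (P240, R5 of helper296).
-/

set_option autoImplicit false

namespace Vale.Agent.P240.R2.H829

open Matrix Subgroup Vale.Agent.P240.R2.AS Vale.Agent.P240.R2.H687 Vale.Agent.P240.K
open Vale.Agent.P240.R2.H387 (Fs mem_Fs)
open Vale.Agent.P240.R2.H38 (sM)
open scoped Classical

universe u v w

noncomputable section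

variable {K : Type u} [Field K] [Fintype K] [StarRing K] {n : ℕ} {G : Type w} [Group G] [Finite G]

/-- **R5, T3**, factor `n`: as `top_orth`, with a weaker numerical hypothesis. -/
theorem top_orth_n (hstar : ∀ x : K, star x = x) {q : ℕ} (hq : Odd q)
    (hK : Nat.card K = q ^ 2) (s : K ≃+* K) (hsq : ∀ x : K, s x = x ^ q) (hn : Odd n) (hn2 : 2 ≤ n)
    (S : Subgroup (GU K n)) (hSs : ∀ h : S, ∃ h' : S, h'.1.1 = h.1.1.map s)
    (hST : ∀ g : GU K n, ∃ h : S, h.1.1 = g.1 * star (g.1.map s))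
    (ep : S →* G)
    (hker : ∀ g : S, ep g = 1 → ∃ c : K, g.1.1 = c • (1 : Matrix (Fin n) (Fin n) K))
    (x : G) (hx2 : x ^ 2 = 1) (hxN : x ∉ ep.range)
    (hx : ∀ h h' : S, h'.1.1 = h.1.1.map s → x * ep h * x⁻¹ = ep h')
    (ew : List (Ln K n) → G)
    (hew : ∀ u, Orth u → ∃ h : S, h.1.1 = sM (-1) (-1) u ∧ ew u = ep h)
    (hC : Comb 2 n (Fr K n) ew) (hcount : (Fs s n).card < 2 ^ (n - 1) * n * t (Fs s n))
    (𝕜 : Type v) [Field 𝕜] :
    ∃ w ∈ Fr K n, ∃ h : S, (ep h * x) ^ 2 = 1 ∧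
      (∀ a ∈ closure {z | ∃ u v, w = u ++ v ∧ z = ew u}, (ep h * x) * a = a * (ep h * x)) ∧
      ∃ (α : Ch 𝕜 (Subgroup G)) (l : List (Subgroup G)),
        TopCycle 𝕜 2 (ep.range ⊔ zpowers x)
          (closure {z | ∃ u v, w = u ++ v ∧ z = ew u} ⊔ zpowers (ep h * x)) α l ∧
        l.length = n := by
  obtain ⟨Y, Fy, hd, h1, h2, h3⟩ := semi_orth hstar hq hK s hsq hn S hSs hST ep hker x hx2 hxN hx ew
    hew hcount
  obtain ⟨y, hy, w, hw, α, l, h4, h5⟩ := H945.top_of_semi_n hn2 hC (fun u v h => by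
    rw [h2 u v h]) (fun u v w h => ew_append hew h) hd h3 𝕜
  obtain ⟨h, rfl⟩ := h1 y hy
  refine ⟨w, hd.sub _ hy hw, h, hd.pow _ hy, comm_of hd hy hw, α, l, ?_, h5⟩
  rw [sup_comm (zpowers (ep h * x))] at h4
  exact h4

end

end Vale.Agent.P240.R2.H829
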