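import Vale.Agent.P240.R2.H829.DII2

/-!
`StmtDII` of helper401: the top cycle with the reflection in the last coordinate, even orthogonal
groups with nonsquare discriminant.
-/

set_option autoImplicit false

namespace Vale.Agent.P240.R2.H829.DII

open Matrix Vale.Agent.P240.R2.AS Vale.Agent.P240.R2.H38 Vale.Agent.P240.K
open Vale.Agent.P240.R2.H145.EO (B ac OD Big Ker)
open Vale.Agent.P240.R2.H938 (TC)
open Vale.Agent.P240.R2.H401.D
open Vale.Agent.P240.R2.H281DC (gd gd_coe card_Ad)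
open scoped Classical

universe u v w

noncomputable section

/-- transport of the homomorphism to the unitary group of `K'` -/
theorem transport {K : Type u} [Field K] [Fintype K] {m : ℕ} {d : K} (hF : StmtDF.{u})
    (hN : DNum K m d) {G : Type v} [Group G] {K' : Type u} [Field K'] [Fintype K'] [StarRing K']
    {j : K →+* K'} {δ : K'} {φ : ↥(OD (fd m d)) →* GU K' (m + 1)} (hδ0 : δ ≠ 0)
    (hφi : Function.Injective φ)
    (hφ : ∀ g i k, (φ g).1 i k = (if i = Fin.last m then δ else 1) * j (g.1.1 i k) *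
        (if k = Fin.last m then δ⁻¹ else 1)) {η : S1 hF hN →* G} {M : Subgroup G}
    (hr : ∀ g, η g ∈ M) (hker : ∀ g : S1 hF hN, η g = 1 ↔
      ∃ l : K, g.1.1.1 = l • (1 : Matrix (Fin (m + 1)) (Fin (m + 1)) K)) :
    ∃ (S' : Subgroup (GU K' (m + 1))) (ε' : S' →* G),
      (∀ g : S', ε' g = 1 ↔
        ∃ l : K', mx g = l • (1 : Matrix (Fin (m + 1)) (Fin (m + 1)) K')) ∧
      (∀ g, ε' g ∈ M) ∧
      ∀ (x : ↥(OD (fd m d))) (hx : x ∈ S1 hF hN), ∃ h : φ x ∈ S', ε' ⟨φ x, h⟩ = η ⟨x, hx⟩ := by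
  let eqv : S1 hF hN ≃* ↥((S1 hF hN).map φ) := (S1 hF hN).equivMapOfInjective φ hφi
  let ε' : ↥((S1 hF hN).map φ) →* G := η.comp eqv.symm.toMonoidHom
  have hval : ∀ (x : ↥(OD (fd m d))) (hx : x ∈ S1 hF hN) (hx' : φ x ∈ (S1 hF hN).map φ),
      ε' ⟨φ x, hx'⟩ = η ⟨x, hx⟩ := by
    intro x hx hx'
    show η (eqv.symm ⟨φ x, hx'⟩) = η ⟨x, hx⟩
    congr 1
    rw [MulEquiv.symm_apply_eq]
    exact Subtype.ext rfl
  refine ⟨(S1 hF hN).map φ, ε', ?_, fun g => hr (eqv.symm g), fun x hx =>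
    ⟨Subgroup.mem_map_of_mem _ hx, hval x hx _⟩⟩
  intro g
  obtain ⟨x, hx, hxg⟩ := Subgroup.mem_map.1 g.2
  have h1 : g = ⟨φ x, by rw [hxg]; exact g.2⟩ := Subtype.ext hxg.symm
  rw [h1, hval x hx, hker, scal_iff hδ0 hφ]
  exact Iff.rfl

/-- **StmtDII** -/
theorem stmtDII_of (hF : StmtDF.{u}) (hDK : StmtDK.{u}) (hDL : StmtDL.{u}) :
    StmtDII.{u, v, w} := by
  intro K _ _ m d hN G _ _ L ε hε 𝕜 _ e he2 heL hact
  obtain ⟨K', _, _, j, δ, hδ⟩ := hDK K d hN.ns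
  let _ : StarRing K' := starRingOfComm
  have hst : ∀ x : K', star x = x := fun _ => rfl
  have h2 := two_ne hN
  have h2' : (2 : K') ≠ 0 := by
    intro h
    apply h2
    apply j.injective
    rw [map_ofNat, map_zero, h]
  have hm1 : (-1 : K') ≠ 1 := by
    intro h
    apply h2'
    linear_combination -h
  have hδ0 : δ ≠ 0 := by
    rintro rfl
    have hd0 : d ≠ 0 := by
      rintro rfl
      exact hN.ns ⟨0, by ring⟩
    apply hd0
    apply j.injective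
    rw [map_zero, ← hδ]; ring
  obtain ⟨φ, hφi, hφ, hT⟩ := H613.DT.stmtDT K m d hN K' j δ hst hδ
  obtain ⟨η, hη1, hη2, hr, hker⟩ := exists_eta hF hN hε he2 heL hact
  obtain ⟨S', ε', hker', hin, hval⟩ := transport hF hN hδ0 hφi hφ hr hker
  have hwords := words hF hN hδ0 hφ hη1
  -- the frames
  obtain ⟨hLS, hne, hLG⟩ := hDL K m d hN K' j δ hst hδ
  have hneA : (FA (m := m) j d δ).Nonempty := hne.mono FB_sub
  have ht : 0 < AS.t (FA (m := m) j d δ) :=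
    H401.exists_ev_ne FB_sub (fun P => LN j d δ P) hLG hne (FB_last hLS)
  have hpre : ∀ w ∈ FA (m := m) j d δ, ∃ u : ↥(OD (fd m d)), ∀ p v, w = p ++ v →
      Orth p ∧ ∀ P ∈ p, ∃ i, P = lnU (φ u) (E1 i) := by
    intro w hw
    obtain ⟨u, w₀, hw₀, rfl⟩ := hT w hw
    refine ⟨u, fun p v h => ⟨?_, ?_⟩⟩
    · have h1 := ((mem_Fr K').1 (FA_sub hw)).2
      rw [h] at h1
      exact (List.pairwise_append.1 h1).1
    · intro P hP
      have h1 : P ∈ w₀.map (lnU (φ u)) := by rw [h]; exact List.mem_append_left _ hP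
      obtain ⟨Q, hQ, rfl⟩ := List.mem_map.1 h1
      have h3 : Q ∈ w0 K' (m + 1) := hw₀.mem_iff.1 hQ
      rw [w0, List.mem_ofFn] at h3
      obtain ⟨i, rfl⟩ := h3
      exact ⟨i, rfl⟩
  have hmem : ∀ p v, p ++ v ∈ FA (m := m) j d δ → ∃ g : S', mx g = sM (-1 : K') 1 p := by
    intro p v hw
    obtain ⟨u, hu⟩ := hpre _ hw
    obtain ⟨h1, h3⟩ := hu p v rfl
    obtain ⟨x, hx, hx1, -⟩ := hwords u p h1 h3
    obtain ⟨h4, -⟩ := hval x hx
    exact ⟨⟨φ x, h4⟩, hx1⟩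
  have hcomb := DG.stmtDG K' (m + 1) 2 (-1) 1 G Nat.prime_two (by norm_num) hm1
    (by rw [hst]; ring) one_ne_zero (by omega) S' ε' hker' (FA (m := m) j d δ) FA_sub FA_perm
    hneA hmem
  have hF2 : Fact (Nat.Prime 2) := ⟨Nat.prime_two⟩
  have hm5 := hN.hm
  obtain ⟨w, hw, α, l, htc⟩ := H945.top_of_comb (by omega : 2 ≤ m + 1) hcomb ht 𝕜
    (L ⊔ Subgroup.zpowers e) (fun p v _ => hin _)
  obtain ⟨u, hu⟩ := hpre w hw
  -- the group
  have hgrp : Subgroup.closure {y | ∃ p v, w = p ++ v ∧ y = eS S' (-1) 1 ε' p} =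
      Ad ε u ⊔ Subgroup.zpowers (ei hF hN η u) := by
    refine Subgroup.eq_of_le_of_card_ge ?_ ?_
    · rw [Subgroup.closure_le]
      rintro _ ⟨p, v, hpv, rfl⟩
      obtain ⟨h1, h3⟩ := hu p v hpv
      obtain ⟨x, hx, hx1, hx2⟩ := hwords u p h1 h3
      obtain ⟨h5, h6⟩ := hval x hx
      have hex : ∃ g : S', mx g = sM (-1 : K') 1 p := ⟨⟨φ x, h5⟩, hx1⟩
      have h4 : sS S' (-1) 1 p = ⟨φ x, h5⟩ := by
        apply mx_inj
        rw [sS, dif_pos hex]
        exact hex.choose_spec.trans hx1.symm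
      show ε' (sS S' (-1) 1 p) ∈ _
      rw [h4, h6]
      exact hx2
    · have h1 : Nat.card ↥(Subgroup.closure {y | ∃ p v, w = p ++ v ∧ y = eS S' (-1) 1 ε' p}) =
          2 ^ m := hcomb.card w hw
      rw [h1]
      exact card_le hF hN hε hη1 u
  exact ⟨u, ei hF hN η u, ei_mem hF hN hε.range hη2 u, ei_sq hF hN u, ei_comm hF hN hη1 u, α, l,
    by rw [← hgrp]; exact htc⟩

end

end Vale.Agent.P240.R2.H829.DII
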