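import Vale.Agent.P240.R2.H829.Cnt5

/-!
The elements of the words are multiplicative (P240, R5 of helper296).
-/

set_option autoImplicit false

namespace Vale.Agent.P240.R2.H829

open Matrix Subgroup Vale.Agent.P240.R2.AS Vale.Agent.P240.R2.H687 Vale.Agent.P240.K
open Vale.Agent.P240.R2.H387 (Fs mem_Fs)
open Vale.Agent.P240.R2.H38 (sM)
open scoped Classical

universe u v w

noncomputable section

variable {K : Type u} [Field K] [Fintype K] [StarRing K] {n : ℕ}

lemma sM_append (ζ c : K) {u v : List (Ln K n)} (h : Orth (u ++ v)) :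
    sM ζ c (u ++ v) = sM ζ c u * sM ζ c v := by
  have h1 : sm u * sm v = 0 := H275.o_ss h
  have h2 : sm (u ++ v) = sm u + sm v := by simp [sm]
  rw [sM, sM, sM, smul_mul_smul_comm, ← pow_add, List.length_append, h2]
  congr 1
  simp only [mul_add, add_mul, mul_one, one_mul, smul_mul_smul_comm, h1, smul_zero, add_zero]
  module

/-- the ratio `3 / 5`: `n ≥ 5`, `q ≥ 7` -/
theorem card_Fs_lt_n (hstar : ∀ x : K, star x = x) {q : ℕ} (hq : Odd q)
    (hK : Nat.card K = q ^ 2) (s : K ≃+* K) (hsq : ∀ x : K, s x = x ^ q) (hn : Odd n)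
    (hn5 : 5 ≤ n) (hq7 : 7 ≤ q) :
    (Fs s n).card < 2 ^ (n - 1) * n * t (Fs s n) := by
  refine card_Fs_lt hstar hq hK s hsq hn (by omega) (3 / 5) (by norm_num) ?_
  have e1 : ((q - 1 : ℕ) : ℚ) = (q : ℚ) - 1 := by
    rw [Nat.cast_sub (by omega), Nat.cast_one]
  have hq' : (7 : ℚ) ≤ q := by exact_mod_cast hq7
  have hn' : (5 : ℚ) ≤ n := by exact_mod_cast hn5
  have h1 : 1 / (((q - 1 : ℕ) : ℚ) * (3 / 5)) ≤ 5 / 18 := by
    rw [e1, div_le_div_iff₀ (by linarith) (by norm_num)]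
    linarith
  have h2 : (11 / 90 : ℚ) ≤ 1 - 3 / 5 - 1 / (((q - 1 : ℕ) : ℚ) * (3 / 5)) := by linarith
  have h3 : (1296 / 625 : ℚ) ≤ (2 * (3 / 5)) ^ (n - 1) := by
    calc (1296 / 625 : ℚ) = (2 * (3 / 5)) ^ 4 := by norm_num
      _ ≤ (2 * (3 / 5)) ^ (n - 1) := pow_le_pow_right₀ (by norm_num) (by omega)
  calc (1 : ℚ) ≤ 11 / 90 * (1296 / 625) * 5 := by norm_num
    _ ≤ (1 - 3 / 5 - 1 / (((q - 1 : ℕ) : ℚ) * (3 / 5))) * (2 * (3 / 5)) ^ (n - 1) * n :=
        mul_le_mul (mul_le_mul h2 h3 (by norm_num) (by linarith)) hn' (by norm_num)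
          (mul_nonneg (by linarith) (by positivity))

variable {G : Type w} [Group G]

/-- the elements of the words are multiplicative -/
theorem ew_append {S : Subgroup (GU K n)} {ep : S →* G} {ew : List (Ln K n) → G}
    (hew : ∀ u, Orth u → ∃ h : S, h.1.1 = sM (-1) (-1) u ∧ ew u = ep h) {u v w : List (Ln K n)}
    (h : u ++ (v ++ w) ∈ Fr K n) : ew (u ++ v) = ew u * ew v := by
  have h1 : Orth (u ++ v) := by
    have h2 := ((mem_Fr K).1 h).2
    rw [← List.append_assoc] at h2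
    exact (List.pairwise_append.1 h2).1
  have h3 : Orth u := (List.pairwise_append.1 h1).1
  have h4 : Orth v := (List.pairwise_append.1 h1).2.1
  obtain ⟨a, ha, ha'⟩ := hew _ h1
  obtain ⟨b, hb, hb'⟩ := hew _ h3
  obtain ⟨c, hc, hc'⟩ := hew _ h4
  rw [ha', hb', hc', ← map_mul]
  congr 1
  apply Subtype.ext
  apply Subtype.ext
  rw [ha, sM_append _ _ h1, ← hb, ← hc]
  rfl

end

end Vale.Agent.P240.R2.H829
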