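import Vale.Agent.P240.R2.H829.T2a
import Vale.Agent.P240.R2.H687.TDefs

/-!
`StmtCen` of helper687: an isometry of order prime to `6` that normalizes an elementary abelian
`3`-group of isometries of a space of dimension less than `10` centralizes it.
-/

set_option autoImplicit false

namespace Vale.Agent.P240.R2.H829.T2

open Matrix Function Vale.Agent.P240.R2.H145.EO Vale.Agent.P240.R2.H687

universe u

noncomputable section

variable {K : Type u} [Field K] {n : ℕ} {a : Fin n → K}

/-- the matrix over the algebraic closure -/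
def mk' (g : GL (Fin n) K) : Matrix (Fin n) (Fin n) (AlgebraicClosure K) :=
  g.1.map (algebraMap K (AlgebraicClosure K))

lemma mk'_mul (g h : GL (Fin n) K) : mk' (g * h) = mk' g * mk' h :=
  Matrix.map_mul (f := algebraMap K (AlgebraicClosure K))

lemma mk'_one : mk' (1 : GL (Fin n) K) = 1 := by
  have h1 : (1 : Matrix (Fin n) (Fin n) K).map (algebraMap K (AlgebraicClosure K)) = 1 :=
    Matrix.map_one _ (map_zero _) (map_one _)
  exact h1

lemma mk'_inj {g h : GL (Fin n) K} (e : mk' g = mk' h) : g = h := by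
  apply Units.ext
  ext i j
  have h1 := congrFun (congrFun e i) j
  exact (algebraMap K (AlgebraicClosure K)).injective h1

/-- the endomorphism -/
def en (g : GL (Fin n) K) : Module.End (AlgebraicClosure K) (Fin n → AlgebraicClosure K) :=
  (mk' g).mulVecLin

lemma en_apply (g : GL (Fin n) K) (v : Fin n → AlgebraicClosure K) : en g v = mk' g *ᵥ v := rfl

lemma en_mul (g h : GL (Fin n) K) : en (g * h) = en g * en h := by
  apply LinearMap.ext
  intro v
  rw [Module.End.mul_apply, en_apply, en_apply, en_apply, mk'_mul, mulVec_mulVec]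

lemma en_one : en (1 : GL (Fin n) K) = 1 := by
  apply LinearMap.ext
  intro v
  rw [en_apply, mk'_one, one_mulVec, Module.End.one_apply]

lemma en_inj {g h : GL (Fin n) K} (e : en g = en h) : g = h := by
  apply mk'_inj
  apply Matrix.ext_of_mulVec_single
  intro i
  exact LinearMap.congr_fun e (Pi.single i 1)

/-- the form over the algebraic closure -/
def Ba (a : Fin n → K) (x y : Fin n → AlgebraicClosure K) : AlgebraicClosure K :=
  ∑ i, algebraMap K (AlgebraicClosure K) (a i) * x i * y i

lemma Ba_eq (x y : Fin n → AlgebraicClosure K) :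
    Ba a x y = x ⬝ᵥ (diagonal (fun i => algebraMap K (AlgebraicClosure K) (a i)) *ᵥ y) := by
  unfold Ba dotProduct
  refine Finset.sum_congr rfl fun i _ => ?_
  rw [mulVec_diagonal]
  ring

lemma gram {g : GL (Fin n) K} (hg : g ∈ OD a) : g.1ᵀ * diagonal a * g.1 = diagonal a := by
  ext i j
  have h1 := OD_B hg (Pi.single i 1) (Pi.single j 1)
  rw [B_single] at h1
  have h2 : B a (ac g (Pi.single i 1)) (ac g (Pi.single j 1)) = (g.1ᵀ * diagonal a * g.1) i j := by
    unfold B ac
    rw [Matrix.mul_apply]
    refine Finset.sum_congr rfl fun l _ => ?_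
    rw [mul_diagonal, transpose_apply, mulVec_single_one, mulVec_single_one]
    simp only [col_apply]
    ring
  rw [← h2, h1, diagonal_apply, mul_one]
  by_cases h : i = j
  · subst h
    rw [if_pos rfl, Pi.single_eq_same, mul_one]
  · rw [if_neg h, Pi.single_eq_of_ne h, mul_zero]

lemma Ba_inv {g : GL (Fin n) K} (hg : g ∈ OD a) (x y : Fin n → AlgebraicClosure K) :
    Ba a (en g x) (en g y) = Ba a x y := by
  have h1 : (mk' g)ᵀ * diagonal (fun i => algebraMap K (AlgebraicClosure K) (a i)) * mk' g =
      diagonal (fun i => algebraMap K (AlgebraicClosure K) (a i)) := by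
    have h2 := congrArg (fun M : Matrix (Fin n) (Fin n) K =>
      M.map (algebraMap K (AlgebraicClosure K))) (gram hg)
    simp only [Matrix.map_mul] at h2
    rw [diagonal_map (map_zero _)] at h2
    exact h2
  rw [Ba_eq, Ba_eq, en_apply, en_apply]
  conv_rhs => rw [← h1, ← mulVec_mulVec, ← mulVec_mulVec, dotProduct_mulVec, vecMul_transpose]

lemma Ba_nd (ha : ∀ i, a i ≠ 0) (x : Fin n → AlgebraicClosure K) (h : ∀ y, Ba a x y = 0) :
    x = 0 := by
  funext i
  have h1 := h (Pi.single i 1)
  unfold Ba at h1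
  rw [Finset.sum_eq_single i] at h1
  · rw [Pi.single_eq_same, mul_one] at h1
    rcases mul_eq_zero.1 h1 with h2 | h2
    · exact absurd ((map_eq_zero _).1 h2) (ha i)
    · exact h2
  · intro j _ hj
    rw [Pi.single_eq_of_ne hj, mul_zero]
  · intro h2
    exact absurd (Finset.mem_univ _) h2

/-- conjugation by `c` on `E` -/
def cjE {E : Subgroup (GL (Fin n) K)} {c : GL (Fin n) K} (hcE : ∀ x ∈ E, c * x * c⁻¹ ∈ E)
    (x : E) : E := ⟨c * x.1 * c⁻¹, hcE x.1 x.2⟩

lemma cjE_iter {E : Subgroup (GL (Fin n) K)} {c : GL (Fin n) K} (hcE : ∀ x ∈ E, c * x * c⁻¹ ∈ E)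
    (i : ℕ) (x : E) : ((cjE hcE)^[i] x).1 = c ^ i * x.1 * (c ^ i)⁻¹ := by
  induction i with
  | zero => simp
  | succ i ih =>
    rw [iterate_succ_apply']
    show c * ((cjE hcE)^[i] x).1 * c⁻¹ = _
    rw [ih, pow_succ' c i, _root_.mul_inv_rev]
    simp only [mul_assoc]

/-- **StmtCen** -/
theorem stmtCen : T.StmtCen.{u} := by
  intro K _ _ n a hn h3 ha E hE hE3 hEc c hc hcE N hN hcN x hx
  have h3' : (3 : AlgebraicClosure K) ≠ 0 := by
    intro h
    apply h3
    apply (algebraMap K (AlgebraicClosure K)).injective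
    rw [map_ofNat, map_zero, h]
  have key := centralize (E := E) (k := AlgebraicClosure K) (V := Fin n → AlgebraicClosure K) h3'
    (by rw [Module.finrank_fin_fun]; exact hn) (f := fun x => en x.1)
    (fun x => by
      show en x.1 ^ 3 = 1
      rw [pow_succ, pow_two, ← en_mul, ← en_mul, ← pow_two, ← pow_succ, hE3 x.1 x.2, en_one])
    (fun x y => by
      show en x.1 * en y.1 = en y.1 * en x.1
      rw [← en_mul, ← en_mul, hEc x.1 x.2 y.1 y.2])
    (cj := cjE hcE) hN
    (fun x => by
      apply Subtype.ext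
      rw [cjE_iter, hcN, one_mul, inv_one, mul_one])
    (g := en c⁻¹)
    (by
      intro v w h
      have h1 : ∀ v, en c (en c⁻¹ v) = v := by
        intro v
        rw [← Module.End.mul_apply, ← en_mul, mul_inv_cancel, en_one, Module.End.one_apply]
      rw [← h1 v, ← h1 w, h])
    (fun x v => by
      show en x.1 (en c⁻¹ v) = en c⁻¹ (en (c * x.1 * c⁻¹) v)
      rw [← Module.End.mul_apply, ← Module.End.mul_apply, ← en_mul, ← en_mul]
      congr 2
      group)
    (Ba a)
    (fun u v w => by
      unfold Ba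
      rw [← Finset.sum_add_distrib]
      exact Finset.sum_congr rfl fun i _ => by rw [Pi.add_apply]; ring)
    (fun u => by
      unfold Ba
      exact Finset.sum_eq_zero fun i _ => by rw [Pi.zero_apply, mul_zero])
    (fun t u v => by
      unfold Ba
      rw [Finset.mul_sum]
      exact Finset.sum_congr rfl fun i _ => by rw [Pi.smul_apply, smul_eq_mul]; ring)
    (fun t u v => by
      unfold Ba
      rw [Finset.mul_sum]
      exact Finset.sum_congr rfl fun i _ => by rw [Pi.smul_apply, smul_eq_mul]; ring)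
    (fun x u v => Ba_inv (hE x.2) u v) (Ba_nd ha) ⟨x, hx⟩
  have h1 : c * x * c⁻¹ = x := en_inj key
  rw [mul_inv_eq_iff_eq_mul] at h1
  exact h1

end

end Vale.Agent.P240.R2.H829.T2
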