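import Vale.Agent.P240.R2.H687.Fy
import Vale.Agent.P240.R2.H387.Fs

/-!
Frames whose letters are fixed by the conjugates of a field automorphism: the double count
(P240, R5 of helper296).
-/

set_option autoImplicit false

namespace Vale.Agent.P240.R2.H829

open Matrix Vale.Agent.P240.R2.AS Vale.Agent.P240.R2.H687
open Vale.Agent.P240.R2.H387 (Fs mem_Fs)
open scoped Classical

universe u v w

noncomputable section

/-- double counting -/
theorem double_count {W : Type u} [DecidableEq W] {Γ : Type w} (F : Finset W) (Y : Finset Γ)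
    (Fy : Γ → Finset W) (hsub : ∀ y ∈ Y, Fy y ⊆ F) {k : ℕ}
    (hk : ∀ w ∈ F, k ≤ (Y.filter fun y => w ∈ Fy y).card) :
    k * F.card ≤ ∑ y ∈ Y, (Fy y).card := by
  have h1 : ∑ y ∈ Y, (Fy y).card = ∑ w ∈ F, (Y.filter fun y => w ∈ Fy y).card := by
    have h2 : ∀ y ∈ Y, (Fy y).card = (F.filter fun w => w ∈ Fy y).card := by
      intro y hy
      congr 1
      ext w
      rw [Finset.mem_filter]
      exact ⟨fun h => ⟨hsub y hy h, h⟩, fun h => h.2⟩
    rw [Finset.sum_congr rfl h2]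
    exact Finset.sum_card_bipartiteAbove_eq_sum_card_bipartiteBelow (fun y w => w ∈ Fy y)
  rw [h1, mul_comm, ← smul_eq_mul]
  exact Finset.card_nsmul_le_sum F _ k hk

section
variable {K : Type u} [Field K] [StarRing K] {n : ℕ}

/-- the letter map of a unitary matrix -/
def lg (g : GU K n) : Ln K n → Ln K n := lam (RingHom.id K) (fun _ => rfl) g

lemma lg_coe (g : GU K n) (P : Ln K n) : (lg g P).1 = g.1 * P.1 * star g.1 := rfl

lemma lg_injective (g : GU K n) : Function.Injective (lg g) := lam_injective _ _ g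

lemma lg_lg (g h : GU K n) (P : Ln K n) : lg g (lg h P) = lg (g * h) P := by
  apply Subtype.ext
  rw [lg_coe, lg_coe, lg_coe, coe_mul', star_mul]
  simp only [Matrix.mul_assoc]

lemma lg_one (P : Ln K n) : lg 1 P = P := by
  apply Subtype.ext
  rw [lg_coe]
  have h : ((1 : GU K n) : Matrix (Fin n) (Fin n) K) = 1 := rfl
  rw [h, star_one, Matrix.one_mul, Matrix.mul_one]

lemma orth_lg (g : GU K n) {w : List (Ln K n)} (h : Orth w) : Orth (w.map (lg g)) :=
  orth_map _ _ g h

lemma map_lg_inv (g : GU K n) (w : List (Ln K n)) : (w.map (lg g⁻¹)).map (lg g) = w := by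
  rw [List.map_map]
  conv_rhs => rw [← List.map_id w]
  refine List.map_congr_left fun P _ => ?_
  simp only [Function.comp_apply, id_eq]
  rw [lg_lg, mul_inv_cancel, lg_one]

lemma inv_coe (g : GU K n) : ((g⁻¹ : GU K n) : Matrix (Fin n) (Fin n) K) = star g.1 := rfl

lemma map_star {s : K ≃+* K} (hs : ∀ x, s (star x) = star (s x)) (M : Matrix (Fin n) (Fin n) K) :
    (star M).map s = star (M.map s) := by
  ext i j
  simp [star_eq_conjTranspose, conjTranspose_apply, hs]

end

section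
variable {K : Type u} [Field K] [StarRing K] [Fintype K] {n : ℕ}

/-- the frames of letters fixed by `s`, moved by `g` -/
def Fu (s : K ≃+* K) (g : GU K n) : Finset (List (Ln K n)) :=
  mapW (lg g) (lg_injective g) (Fs s n)

lemma card_Fu (s : K ≃+* K) (g : GU K n) : (Fu s g).card = (Fs s n).card := Finset.card_map _

lemma t_Fu (s : K ≃+* K) (g : GU K n) : t (Fu s g) = t (Fs s n) := t_map _ _

lemma Fu_sub (s : K ≃+* K) (g : GU K n) : Fu s g ⊆ Fr K n := by
  intro w hw
  obtain ⟨w₀, h₀, rfl⟩ := mem_mapW.1 hw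
  have h₁ := (mem_Fs.1 h₀).1
  rw [mem_Fr] at h₁ ⊢
  exact ⟨by rw [List.length_map, h₁.1], orth_lg g h₁.2⟩

lemma Fs_perm (s : K ≃+* K) : ∀ w ∈ Fs s n, ∀ w', w.Perm w' → w' ∈ Fs s n := by
  intro w hw w' h
  rw [mem_Fs] at hw ⊢
  exact ⟨Fr_perm w hw.1 w' h, fun P hP => hw.2 P (h.mem_iff.2 hP)⟩

lemma Fu_perm (s : K ≃+* K) (g : GU K n) :
    ∀ w ∈ Fu s g, ∀ w', w.Perm w' → w' ∈ Fu s g := mapW_perm (Fs_perm s)

lemma mem_Fu {s : K ≃+* K} {g : GU K n} {w : List (Ln K n)} :
    w ∈ Fu s g ↔ w ∈ Fr K n ∧ ∀ P ∈ w, (star g.1 * P.1 * g.1).map s = star g.1 * P.1 * g.1 := by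
  constructor
  · intro h
    refine ⟨Fu_sub s g h, ?_⟩
    obtain ⟨w₀, h₀, rfl⟩ := mem_mapW.1 h
    intro P hP
    obtain ⟨Q, hQ, rfl⟩ := List.mem_map.1 hP
    have h1 := (mem_Fs.1 h₀).2 Q hQ
    have h2 : star g.1 * (lg g Q).1 * g.1 = Q.1 := by
      have h3 := mem_unitaryGroup_iff'.1 g.2
      rw [lg_coe]
      calc star g.1 * (g.1 * Q.1 * star g.1) * g.1
          = (star g.1 * g.1) * Q.1 * (star g.1 * g.1) := by simp only [Matrix.mul_assoc]
        _ = Q.1 := by rw [h3, Matrix.one_mul, Matrix.mul_one]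
    rw [h2, h1]
  · rintro ⟨h1, h2⟩
    rw [← map_lg_inv g w]
    refine map_mem_mapW.2 (mem_Fs.2 ⟨?_, ?_⟩)
    · rw [mem_Fr] at h1 ⊢
      exact ⟨by rw [List.length_map, h1.1], orth_lg _ h1.2⟩
    · intro P hP
      obtain ⟨Q, hQ, rfl⟩ := List.mem_map.1 hP
      rw [lg_coe, inv_coe, star_star]
      exact h2 Q hQ

/-- the frames moved by `g` only depend on `g` modulo matrices fixed by `s` up to a scalar -/
lemma Fu_le (hn : 0 < n) {s : K ≃+* K} (hs : ∀ x, s (star x) = star (s x)) {g z : GU K n} {c : K}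
    (h : z.1.map s = c • z.1) : Fu s g ⊆ Fu s (g * z) := by
  intro w hw
  rw [mem_Fu] at hw ⊢
  refine ⟨hw.1, fun P hP => ?_⟩
  have h1 := hw.2 P hP
  have hc : c * star c = 1 := scal_norm hn s.toRingHom hs h
  have h2 : star (g * z : GU K n).1 * P.1 * (g * z : GU K n).1 =
      star z.1 * (star g.1 * P.1 * g.1) * z.1 := by
    rw [coe_mul', star_mul]
    simp only [Matrix.mul_assoc]
  rw [h2]
  have h3 : (star z.1 * (star g.1 * P.1 * g.1) * z.1).map s =
      (star z.1).map s * (star g.1 * P.1 * g.1).map s * z.1.map s := by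
    have := Matrix.map_mul (L := star z.1) (M := star g.1 * P.1 * g.1) (f := s.toRingHom)
    have h4 := Matrix.map_mul (L := star z.1 * (star g.1 * P.1 * g.1)) (M := z.1)
      (f := s.toRingHom)
    rw [this] at h4
    exact h4
  rw [h3, h1, map_star hs, h, star_smul, Matrix.smul_mul, Matrix.smul_mul, Matrix.mul_smul,
    smul_smul, mul_comm, hc, one_smul]

end

end

end Vale.Agent.P240.R2.H829
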