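import Vale.Agent.P240.R2.H829.Cnt

/-!
The conjugates of a field automorphism that fix all letters of a frame (P240, R5 of helper296).
-/

set_option autoImplicit false

namespace Vale.Agent.P240.R2.H829

open Matrix Vale.Agent.P240.R2.AS Vale.Agent.P240.R2.H687
open Vale.Agent.P240.R2.H387 (Fs mem_Fs)
open scoped Classical

universe u v w

noncomputable section

section
variable {K : Type u} [Field K] [StarRing K] {n : ℕ}

/-- a frame is given by the columns of a unitary matrix -/
lemma exists_basis [Fintype K] {w : List (Ln K n)} (hw : w ∈ Fr K n) :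
    ∃ U : GU K n, ∀ P ∈ w, ∃ i : Fin n,
      star U.1 * P.1 * U.1 = vecMulVec (Pi.single i (1 : K)) (Pi.single i 1) := by
  obtain ⟨hn, hO⟩ := (mem_Fr K).1 hw
  have h1 : ∀ j : Fin n, ∃ v : Fin n → K, star v ⬝ᵥ v = 1 ∧
      (w.get (Fin.cast hn.symm j)).1 = vecMulVec v (star v) :=
    fun j => (w.get (Fin.cast hn.symm j)).2
  choose v hv2 hv1 using h1
  have horth : ∀ i j : Fin n, i < j → star (v i) ⬝ᵥ (v j) = 0 := by
    intro i j hij
    have h2 := (List.pairwise_iff_get.1 hO) (Fin.cast hn.symm i) (Fin.cast hn.symm j) hij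
    rw [hv1, hv1] at h2
    have h3 : star (v i) ⬝ᵥ ((vecMulVec (v i) (star (v i)) *
        vecMulVec (v j) (star (v j))) *ᵥ (v j)) = 0 := by
      rw [h2, zero_mulVec, dotProduct_zero]
    have hB : (vecMulVec (v j) (star (v j))) *ᵥ v j = v j := by
      rw [vecMulVec_mulVec, hv2, op_smul_eq_smul, one_smul]
    rw [← mulVec_mulVec, hB, vecMulVec_mulVec, op_smul_eq_smul, dotProduct_smul, hv2,
      smul_eq_mul, mul_one] at h3
    exact h3
  have hdot : ∀ i j : Fin n, star (v i) ⬝ᵥ (v j) = (Pi.single j (1 : K) : Fin n → K) i := by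
    intro i j
    rcases lt_trichotomy i j with h | h | h
    · rw [horth i j h, Pi.single_eq_of_ne h.ne]
    · subst h
      rw [hv2, Pi.single_eq_same]
    · have h4 : star (v i) ⬝ᵥ v j = star (star (v j) ⬝ᵥ v i) := by
        rw [star_dotProduct]
      rw [h4, horth j i h, star_zero, Pi.single_eq_of_ne h.ne']
  have hU : star (Matrix.of fun i j => v j i : Matrix (Fin n) (Fin n) K) *
      (Matrix.of fun i j => v j i) = 1 := by
    ext i j
    have hij : (star (Matrix.of fun i j => v j i : Matrix (Fin n) (Fin n) K) *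
        (Matrix.of fun i j => v j i)) i j = star (v i) ⬝ᵥ (v j) := by
      simp [Matrix.mul_apply, dotProduct]
    rw [hij, hdot, Matrix.one_apply, Pi.single_apply]
  refine ⟨⟨_, mem_unitaryGroup_iff'.2 hU⟩, fun P hP => ?_⟩
  obtain ⟨k, hk⟩ := List.mem_iff_get.1 hP
  refine ⟨Fin.cast hn k, ?_⟩
  have h5 : P.1 = vecMulVec (v (Fin.cast hn k)) (star (v (Fin.cast hn k))) := by
    rw [← hv1, ← hk]
    rfl
  rw [h5, Matrix.mul_vecMulVec, Matrix.vecMulVec_mul]
  congr 1
  · funext i
    have h6 : (star (Matrix.of fun i j => v j i : Matrix (Fin n) (Fin n) K) *ᵥ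
        v (Fin.cast hn k)) i = star (v i) ⬝ᵥ v (Fin.cast hn k) := by
      simp [Matrix.mulVec, dotProduct]
    exact h6.trans (hdot _ _)
  · funext i
    have h6 : (star (v (Fin.cast hn k)) ᵥ* (Matrix.of fun i j => v j i :
        Matrix (Fin n) (Fin n) K)) i = star (v (Fin.cast hn k)) ⬝ᵥ v i := by
      simp [Matrix.vecMul, dotProduct]
    rw [h6, hdot, Pi.single_apply, Pi.single_apply]
    by_cases h : i = Fin.cast hn k
    · rw [if_pos h, if_pos h.symm]
    · rw [if_neg h, if_neg (Ne.symm h)]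

omit [StarRing K] in
lemma map_mul' (s : K ≃+* K) (A B : Matrix (Fin n) (Fin n) K) :
    (A * B).map s = A.map s * B.map s := Matrix.map_mul (f := s.toRingHom)

/-- the diagonal is unitary -/
lemma diag_norm {s : K ≃+* K} (hs : ∀ x, s (star x) = star (s x)) {v : GU K n} {a : Fin n → K}
    (hv : v.1.map s = diagonal a * v.1) (i : Fin n) : star (a i) * a i = 1 := by
  have h1 : (v.1.map s) * star (v.1.map s) = 1 := mem_unitaryGroup_iff.1 (uMap n s.toRingHom hs v).2
  have h2 : diagonal a * star (diagonal a) = (1 : Matrix (Fin n) (Fin n) K) := by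
    rw [← h1, hv, star_mul]
    have h3 : v.1 * star v.1 = 1 := mem_unitaryGroup_iff.1 v.2
    calc diagonal a * star (diagonal a) = diagonal a * (v.1 * star v.1) * star (diagonal a) := by
          rw [h3, Matrix.mul_one]
      _ = diagonal a * v.1 * (star v.1 * star (diagonal a)) := by
          simp only [Matrix.mul_assoc]
  rw [star_eq_conjTranspose, diagonal_conjTranspose, diagonal_mul_diagonal] at h2
  have h4 := congrFun (congrFun h2 i) i
  rw [diagonal_apply_eq, one_apply_eq] at h4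
  rw [mul_comm]
  exact h4

/-- the frame `U` is fixed by `U v s (U v)⁻¹` -/
lemma mem_Fu_of [Fintype K] {s : K ≃+* K} (hs : ∀ x, s (star x) = star (s x))
    {w : List (Ln K n)} (hw : w ∈ Fr K n) {U : GU K n}
    (hU : ∀ P ∈ w, ∃ i : Fin n,
      star U.1 * P.1 * U.1 = vecMulVec (Pi.single i (1 : K)) (Pi.single i 1))
    {v : GU K n} {a : Fin n → K} (hv : v.1.map s = diagonal a * v.1) : w ∈ Fu s (U * v) := by
  rw [mem_Fu]
  refine ⟨hw, fun P hP => ?_⟩
  obtain ⟨i, hi⟩ := hU P hP
  have h2 : star (U * v : GU K n).1 * P.1 * (U * v : GU K n).1 =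
      star v.1 * (star U.1 * P.1 * U.1) * v.1 := by
    rw [coe_mul', star_mul]
    simp only [Matrix.mul_assoc]
  have h3 : (vecMulVec (Pi.single i (1 : K)) (Pi.single i 1) : Matrix (Fin n) (Fin n) K).map s =
      vecMulVec (Pi.single i (1 : K)) (Pi.single i 1) := by
    ext j k
    rw [map_apply, vecMulVec_apply, map_mul, Pi.single_apply, Pi.single_apply]
    split_ifs <;> simp
  have h4 : star (diagonal a) * vecMulVec (Pi.single i (1 : K)) (Pi.single i 1) * diagonal a =
      vecMulVec (Pi.single i (1 : K)) (Pi.single i 1) := by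
    rw [star_eq_conjTranspose, diagonal_conjTranspose]
    ext j k
    rw [mul_diagonal, diagonal_mul, vecMulVec_apply, Pi.single_apply, Pi.single_apply,
      Pi.star_apply]
    by_cases hj : j = i
    · by_cases hk : k = i
      · subst hj; subst hk
        simp only [if_true, mul_one]
        exact diag_norm hs hv _
      · simp [hk]
    · simp [hj]
  rw [h2, hi, map_mul', map_mul', h3, map_star hs, hv, star_mul]
  calc star v.1 * star (diagonal a) * vecMulVec (Pi.single i (1 : K)) (Pi.single i 1) *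
        (diagonal a * v.1)
      = star v.1 * (star (diagonal a) * vecMulVec (Pi.single i (1 : K)) (Pi.single i 1) *
        diagonal a) * v.1 := by simp only [Matrix.mul_assoc]
    _ = star v.1 * vecMulVec (Pi.single i (1 : K)) (Pi.single i 1) * v.1 := by rw [h4]

/-- two diagonal matrices with the same class -/
lemma prop_of {s : K ≃+* K} {v v' : GU K n} {a a' : Fin n → K} {c : K}
    (hv : v.1.map s = diagonal a * v.1) (hv' : v'.1.map s = diagonal a' * v'.1)
    (h : ((v⁻¹ * v' : GU K n).1).map s = c • (v⁻¹ * v' : GU K n).1) : a' = c • a := by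
  have h1 : v'.1 = v.1 * (v⁻¹ * v' : GU K n).1 := by
    rw [← coe_mul', mul_inv_cancel_left]
  have h2 : diagonal a' * v'.1 = (c • diagonal a) * v'.1 := by
    calc diagonal a' * v'.1 = v'.1.map s := hv'.symm
      _ = v.1.map s * ((v⁻¹ * v' : GU K n).1).map s := by rw [← map_mul', ← h1]
      _ = (c • diagonal a) * (v.1 * (v⁻¹ * v' : GU K n).1) := by
          rw [h, hv, Matrix.mul_smul, Matrix.smul_mul]
          simp only [Matrix.mul_assoc]
      _ = (c • diagonal a) * v'.1 := by rw [← h1]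
  have h3 : v'.1 * star v'.1 = 1 := mem_unitaryGroup_iff.1 v'.2
  have h4 := congrArg (fun M => M * star v'.1) h2
  simp only [Matrix.mul_assoc] at h4
  rw [h3, Matrix.mul_one, Matrix.mul_one] at h4
  funext i
  have h5 := congrFun (congrFun h4 i) i
  rw [Matrix.smul_apply, diagonal_apply_eq, diagonal_apply_eq] at h5
  exact h5

end

section
variable {K : Type u} [Field K] [StarRing K] {n : ℕ} {Γ : Type w} [Group Γ]

/-- equal conjugates -/
lemma conj_eq {s : K ≃+* K} {hs : ∀ x, s (star x) = star (s x)} {e : GU K n →* Γ}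
    (he : ∀ g, e g = 1 → ∃ c : K, g.1 = c • (1 : Matrix (Fin n) (Fin n) K)) {x : Γ}
    (hx : ∀ g, x * e g * x⁻¹ = e (uMap n s.toRingHom hs g)) {g g' : GU K n}
    (h : e g * x * (e g)⁻¹ = e g' * x * (e g')⁻¹) :
    ∃ c : K, ((g⁻¹ * g' : GU K n).1).map s = c • (g⁻¹ * g' : GU K n).1 := by
  refine scal_of_fix s.toRingHom hs e he ?_
  rw [← hx, map_mul, map_inv]
  have h1 : e g' = e g * x * (e g)⁻¹ * e g' * x⁻¹ := by rw [h]; group
  calc x * ((e g)⁻¹ * e g') * x⁻¹ = (e g)⁻¹ * (e g * x * (e g)⁻¹ * e g' * x⁻¹) := by group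
    _ = (e g)⁻¹ * e g' := by rw [← h1]

variable [Fintype K]

omit [Group Γ] in
/-- **The double count.** `yy g` is the conjugate by `g` of the field automorphism `s`; `D` is a set
of diagonal matrices, no two of them proportional, that are `s`-coboundaries modulo scalars. -/
theorem family_gen (hn : 0 < n) (s : K ≃+* K) (hs : ∀ x, s (star x) = star (s x))
    (yy : GU K n → Γ)
    (hyy : ∀ g g', yy g = yy g' →
      ∃ c : K, ((g⁻¹ * g' : GU K n).1).map s = c • (g⁻¹ * g' : GU K n).1)
    (C : Γ → List (Ln K n) → Prop)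
    (hC : ∀ (g : GU K n) (u v : List (Ln K n)), u ++ v ∈ Fs s n → C (yy g) (u.map (lg g)))
    (D : Finset (Fin n → K))
    (hD : ∀ a ∈ D, ∃ (v : GU K n) (ε : K), ε ≠ 0 ∧ v.1.map s = ε • (diagonal a * v.1))
    (hD' : ∀ a ∈ D, ∀ a' ∈ D, ∀ c : K, a' = c • a → a' = a) :
    ∃ (Y : Finset Γ) (Fy : Γ → Finset (List (Ln K n))),
      (∀ y, y ∈ Y ↔ ∃ g, yy g = y) ∧
      (∀ y ∈ Y, Fy y ⊆ Fr K n ∧ (∀ w ∈ Fy y, ∀ w', w.Perm w' → w' ∈ Fy y) ∧
        ∀ u v, u ++ v ∈ Fy y → C y u) ∧
      (∀ y ∈ Y, (Fy y).card = (Fs s n).card ∧ t (Fy y) = t (Fs s n)) ∧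
      D.card * (Fr K n).card ≤ Y.card * (Fs s n).card := by
  have : Finite (Matrix (Fin n) (Fin n) K) := inferInstanceAs (Finite (Fin n → Fin n → K))
  have : Finite (GU K n) := Subtype.finite
  set Y : Finset Γ := (Set.finite_range yy).toFinset with hY
  have hmem : ∀ y, y ∈ Y ↔ ∃ g, yy g = y := fun y => by
    rw [hY, Set.Finite.mem_toFinset, Set.mem_range]
  have hr : ∀ y : Γ, ∃ g : GU K n, y ∈ Y → yy g = y := by
    intro y
    by_cases h : y ∈ Y
    · obtain ⟨g, hg⟩ := (hmem y).1 h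
      exact ⟨g, fun _ => hg⟩
    · exact ⟨1, fun h' => absurd h' h⟩
  choose r hr using hr
  have hcount : D.card * (Fr K n).card ≤ ∑ y ∈ Y, (Fu s (r y)).card := by
    refine double_count (Fr K n) Y (fun y => Fu s (r y)) (fun y _ => Fu_sub s _) ?_
    intro w hw
    obtain ⟨U, hU⟩ := exists_basis hw
    choose! v ε hε hv using hD
    have hv2 : ∀ a ∈ D, (v a).1.map s = diagonal (ε a • a) * (v a).1 := by
      intro a ha
      rw [hv a ha, ← Matrix.smul_mul]
      congr 1
      ext i j
      rw [Matrix.smul_apply, diagonal_apply, diagonal_apply]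
      by_cases h : i = j
      · rw [if_pos h, if_pos h]; rfl
      · rw [if_neg h, if_neg h, smul_zero]
    refine Finset.card_le_card_of_injOn (fun a => yy (U * v a)) ?_ ?_
    · intro a ha
      have h1 : yy (U * v a) ∈ Y := (hmem _).2 ⟨_, rfl⟩
      rw [Finset.mem_coe, Finset.mem_filter]
      refine ⟨h1, ?_⟩
      obtain ⟨c, hc⟩ := hyy _ _ (hr _ h1).symm
      have h3 := mem_Fu_of hs hw hU (hv2 a ha)
      have h4 := Fu_le hn hs (g := U * v a) hc h3
      rwa [mul_inv_cancel_left] at h4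
    · intro a ha a' ha' h
      have ha := Finset.mem_coe.1 ha
      have ha' := Finset.mem_coe.1 ha'
      obtain ⟨c, hc⟩ := hyy _ _ h
      have h1 : (U * v a)⁻¹ * (U * v a') = (v a)⁻¹ * v a' := by group
      rw [h1] at hc
      have h2 := prop_of (hv2 a ha) (hv2 a' ha') hc
      refine (hD' a ha a' ha' ((ε a')⁻¹ * c * ε a) ?_).symm
      funext i
      have h3 := congrFun h2 i
      simp only [Pi.smul_apply, smul_eq_mul] at h3 ⊢
      have h4 := hε a' ha'
      field_simp
      linear_combination h3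
  refine ⟨Y, fun y => Fu s (r y), hmem, fun y hy => ⟨Fu_sub s _, Fu_perm s _,
    fun u v huv => ?_⟩, fun y _ => ⟨card_Fu s _, t_Fu s _⟩, ?_⟩
  · obtain ⟨w₀, h₀, h1⟩ := mem_mapW.1 huv
    obtain ⟨u₀, v₀, rfl, rfl, rfl⟩ := List.map_eq_append_iff.1 h1
    have h := hC (r y) u₀ v₀ h₀
    rwa [hr y hy] at h
  · simp only [card_Fu] at hcount
    rwa [Finset.sum_const, smul_eq_mul] at hcount

end

end

end Vale.Agent.P240.R2.H829
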