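import Vale.Agent.P240.R2.H829.Cnt3
import Vale.Agent.P240.R2.H945.SemiG
import Vale.Agent.P240.R2.H38.UDefs
import Vale.Agent.P240.R2.H472.M2b

/-!
The top cycle in the extension of an orthogonal group by the field automorphism of order `2`
(P240, R5 of helper296: T3).
-/

set_option autoImplicit false

namespace Vale.Agent.P240.R2.H829

open Matrix Subgroup Vale.Agent.P240.R2.AS Vale.Agent.P240.R2.H687 Vale.Agent.P240.K
open Vale.Agent.P240.R2.H387 (Fs mem_Fs)
open Vale.Agent.P240.R2.H38 (sM)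
open scoped Classical

universe u v w

noncomputable section

section
variable {K : Type u} [Field K] [StarRing K] {n : ℕ}

/-- the entrywise field automorphism -/
abbrev uS (n : ℕ) (s : K ≃+* K) (hs : ∀ x, s (star x) = star (s x)) : GU K n →* GU K n :=
  uMap n s.toRingHom hs

lemma sm_lg (g : GU K n) (w : List (Ln K n)) :
    sm (w.map (lg g)) = g.1 * sm w * star g.1 := by
  have h := H687.sm_map (RingHom.id K) (fun _ => rfl) g w
  exact h

lemma sM_lg (ζ c : K) (g : GU K n) (w : List (Ln K n)) :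
    sM ζ c (w.map (lg g)) = g.1 * sM ζ c w * star g.1 := by
  have h3 : g.1 * star g.1 = 1 := mem_unitaryGroup_iff.1 g.2
  rw [sM, sM, sm_lg, List.length_map, Matrix.mul_smul, Matrix.smul_mul, Matrix.mul_add,
    Matrix.add_mul, Matrix.mul_one, h3, Matrix.mul_smul, Matrix.smul_mul]

lemma sm_fix {s : K ≃+* K} {w : List (Ln K n)} (h : ∀ P ∈ w, P.1.map s = P.1) :
    (sm w).map s = sm w := by
  induction w with
  | nil =>
    ext i j
    simp [sm]
  | cons P w ih =>
    have h2 : sm (P :: w) = P.1 + sm w := by simp [sm]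
    have h1 := ih fun Q hQ => h Q (by simp [hQ])
    have h3 := h P (by simp)
    rw [h2]
    ext i j
    have h4 := congrFun (congrFun h1 i) j
    have h5 := congrFun (congrFun h3 i) j
    rw [map_apply] at h4 h5
    rw [map_apply, Matrix.add_apply, map_add, h4, h5]

lemma sM_fix {s : K ≃+* K} {ζ c : K} (hζ : s ζ = ζ) (hc : s c = c) {w : List (Ln K n)}
    (h : ∀ P ∈ w, P.1.map s = P.1) : (sM ζ c w).map s = sM ζ c w := by
  have h1 := sm_fix h
  ext i j
  have h4 := congrFun (congrFun h1 i) j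
  rw [map_apply] at h4
  rw [map_apply, sM, Matrix.smul_apply, Matrix.add_apply, Matrix.smul_apply, smul_eq_mul,
    smul_eq_mul, map_mul, map_pow, map_add, map_mul, map_sub, h4, hζ, hc, map_one]
  by_cases hij : i = j
  · subst hij
    rw [one_apply_eq, map_one]
  · rw [one_apply_ne hij, map_zero]

/-- reversed words, `n` odd -/
lemma sM_rev [Fintype K] (hn : Odd n) {u v : List (Ln K n)} (h : u ++ v ∈ Fr K n) :
    sM (-1) (-1) v.reverse = sM (-1) (-1) u := by
  obtain ⟨h1, h2⟩ := (mem_Fr K).1 h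
  have h3 := H472.sm_eq_one h1 h2
  rw [H472.sm_append] at h3
  have h4 : sm v.reverse = sm v := by
    rw [sm, sm, List.map_reverse, List.sum_reverse]
  have h5 : sm v = 1 - sm u := by rw [← h3]; abel
  rw [List.length_append] at h1
  rw [sM, sM, List.length_reverse, h4, h5]
  have h6 : (-1 : K) ^ v.length = - (-1 : K) ^ u.length := by
    have h7 : (-1 : K) ^ (u.length + v.length) = -1 := by rw [h1]; exact hn.neg_one_pow
    have h8 : (-1 : K) ^ u.length * (-1 : K) ^ u.length = 1 := by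
      rw [← pow_add]
      exact Even.neg_one_pow ⟨u.length, rfl⟩
    rw [pow_add] at h7
    linear_combination (-1 : K) ^ u.length * h7 - (-1 : K) ^ v.length * h8
  rw [h6]
  ext i j
  simp only [Matrix.smul_apply, Matrix.add_apply, Matrix.sub_apply, smul_eq_mul]
  ring

lemma twist {s : K ≃+* K} (hs : ∀ x, s (star x) = star (s x)) {g g' : GU K n} {c : K}
    (h : (g * (uS n s hs g)⁻¹ : GU K n).1 = c • (g' * (uS n s hs g')⁻¹ : GU K n).1) :
    ((g⁻¹ * g' : GU K n).1).map s = c • (g⁻¹ * g' : GU K n).1 := by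
  have h1 : ((g⁻¹ * g' : GU K n).1).map s = (uS n s hs (g⁻¹ * g')).1 := rfl
  have h2 : uS n s hs (g⁻¹ * g') = g⁻¹ * (g * (uS n s hs g)⁻¹) * uS n s hs g' := by
    rw [map_mul, map_inv]
    group
  have h3 : g⁻¹ * g' = g⁻¹ * (g' * (uS n s hs g')⁻¹) * uS n s hs g' := by group
  rw [h1, h2, coe_mul', coe_mul', h, Matrix.mul_smul, Matrix.smul_mul, ← coe_mul', ← coe_mul', ← h3]

end

section
variable {K : Type u} [Field K] [Fintype K] [StarRing K] {n : ℕ} {G : Type w} [Group G] [Finite G]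

/-- the data for the theorems on top cycles of extensions: `S` is a group of orthogonal matrices
(`n` odd) that contains all `g s(g)⁻¹`, `ep : S → G` has only scalars in its kernel, `x` acts on the
image of `S` as the field automorphism `s` of order `2`. -/
theorem semi_orth (hstar : ∀ x : K, star x = x) {q : ℕ} (hq : Odd q)
    (hK : Nat.card K = q ^ 2) (s : K ≃+* K) (hsq : ∀ x : K, s x = x ^ q) (hn : Odd n)
    (S : Subgroup (GU K n)) (hSs : ∀ h : S, ∃ h' : S, h'.1.1 = h.1.1.map s)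
    (hST : ∀ g : GU K n, ∃ h : S, h.1.1 = g.1 * star (g.1.map s))
    (ep : S →* G)
    (hker : ∀ g : S, ep g = 1 → ∃ c : K, g.1.1 = c • (1 : Matrix (Fin n) (Fin n) K))
    (x : G) (hx2 : x ^ 2 = 1) (hxN : x ∉ ep.range)
    (hx : ∀ h h' : S, h'.1.1 = h.1.1.map s → x * ep h * x⁻¹ = ep h')
    (ew : List (Ln K n) → G)
    (hew : ∀ u, Orth u → ∃ h : S, h.1.1 = sM (-1) (-1) u ∧ ew u = ep h)
    {M : ℕ} (hcount : (Fs s n).card < 2 ^ (n - 1) * M * t (Fs s n)) :
    ∃ (Y : Finset G) (Fy : G → Finset (List (Ln K n))),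
      H945.SemiData 2 (Fr K n) ew ep.range (ep.range ⊔ zpowers x) Y Fy ∧
      (∀ y ∈ Y, ∃ h : S, y = ep h * x) ∧
      (∀ u v : List (Ln K n), u ++ v ∈ Fr K n → ew v.reverse = ew u) ∧
      (Fr K n).card < M * ∑ y ∈ Y, t (Fy y) := by
  have hs : ∀ x, s (star x) = star (s x) := fun x => by rw [hstar, hstar]
  have hss : ∀ y : K, s (s y) = y := by
    intro y
    rw [hsq, hsq, ← pow_mul, ← pow_two, ← hK, Nat.card_eq_fintype_card]
    exact FiniteField.pow_card y
  have ext' : ∀ {h h' : S}, h.1.1 = h'.1.1 → h = h' := fun h => Subtype.ext (Subtype.ext h)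
  choose k hk using hST
  have hk' : ∀ g, (k g).1 = g * (uS n s hs g)⁻¹ := fun g => Subtype.ext (hk g)
  -- the conjugates
  set yy : GU K n → G := fun g => ep (k g) * x with hyy
  have huu : ∀ g : GU K n, uS n s hs (uS n s hs g) = g := by
    intro g
    apply Subtype.ext
    ext i j
    exact hss _
  have hx' : ∀ h h' : S, h'.1 = uS n s hs h.1 → x * ep h = ep h' * x := by
    intro h h' h1
    rw [← hx h h' (by rw [h1]; rfl)]
    group
  have hpref : ∀ {u v : List (Ln K n)}, u ++ v ∈ Fr K n → Orth u := by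
    intro u v h
    exact (List.pairwise_append.1 ((mem_Fr K).1 h).2).1
  have hneg : s (-1 : K) = -1 := by rw [map_neg, map_one]
  obtain ⟨Y, Fy, h1, h2, h3⟩ := family_orthM hstar hq hK s hsq hn yy (fun g g' h => by
      have h4 : ep (k g) = ep (k g') := mul_right_cancel h
      obtain ⟨c, hc⟩ := hker (k g * (k g')⁻¹) (by rw [map_mul, map_inv, h4, mul_inv_cancel])
      refine ⟨c, twist hs ?_⟩
      rw [← hk', ← hk']
      have h5 : (k g).1 = (k g * (k g')⁻¹).1 * (k g').1 := by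
        rw [← Subgroup.coe_mul, inv_mul_cancel_right]
      rw [h5, coe_mul', hc, Matrix.smul_mul, Matrix.one_mul])
    (fun y u => ew u * y = y * ew u) (fun g u v h => by
      have h4 := mem_Fs.1 h
      have hO := hpref h4.1
      obtain ⟨m₀, hm₀, -⟩ := hew u hO
      obtain ⟨m, hm, hm'⟩ := hew _ (orth_lg g hO)
      obtain ⟨m', hm2⟩ := hSs m
      have e0 : uS n s hs m₀.1 = m₀.1 := by
        apply Subtype.ext
        show m₀.1.1.map s = m₀.1.1
        rw [hm₀]
        exact sM_fix hneg hneg fun P hP => h4.2 P (List.mem_append_left _ hP)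
      have e1 : m.1 = g * m₀.1 * g⁻¹ := by
        apply Subtype.ext
        rw [hm, sM_lg, coe_mul', coe_mul', hm₀]
        rfl
      have e2 : m'.1 = uS n s hs m.1 := Subtype.ext hm2
      show ew (u.map (lg g)) * (ep (k g) * x) = ep (k g) * x * ew (u.map (lg g))
      rw [hm', mul_assoc (ep (k g)), hx' m m' e2, ← mul_assoc, ← mul_assoc, ← map_mul, ← map_mul]
      congr 2
      apply Subtype.ext
      rw [Subgroup.coe_mul, Subgroup.coe_mul, e2, e1, hk', map_mul, map_mul, e0, map_inv]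
      group) hcount
  have hN : ∀ z : S, ∃ z' : S, x⁻¹ * ep z * x = ep z' := by
    intro z
    obtain ⟨z', hz'⟩ := hSs z
    refine ⟨z', ?_⟩
    have h4 : x⁻¹ = x := by
      rw [inv_eq_iff_mul_eq_one, ← pow_two, hx2]
    rw [← hx z z' hz', h4]
  have hd : H945.SemiData 2 (Fr K n) ew ep.range (ep.range ⊔ zpowers x) Y Fy := by
    have hY : ∀ y ∈ Y, ∃ g, y = ep (k g) * x := by
      intro y hy
      obtain ⟨g, hg⟩ := (h1 y).1 hy
      exact ⟨g, hg.symm⟩
    refine ⟨fun u v h => ?_, le_sup_left, fun y hy => ?_, fun y hy => ?_, fun y hy => ?_,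
      fun y hy y' hy' => ?_, fun y hy => (h2 y hy).1, fun y hy => (h2 y hy).2.1,
      fun y hy => (h2 y hy).2.2⟩
    · obtain ⟨m, -, hm⟩ := hew u (hpref h)
      exact ⟨m, hm.symm⟩
    · obtain ⟨g, rfl⟩ := hY y hy
      obtain ⟨m', hm2⟩ := hSs (k g)
      have e2 : m'.1 = uS n s hs (k g).1 := Subtype.ext hm2
      have e3 : k g * m' = 1 := by
        apply Subtype.ext
        rw [Subgroup.coe_mul, e2, hk', map_mul, map_inv, huu]
        show g * (uS n s hs g)⁻¹ * (uS n s hs g * g⁻¹) = 1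
        group
      calc (ep (k g) * x) ^ 2 = ep (k g) * (x * ep (k g)) * x := by rw [pow_two]; group
        _ = ep (k g) * ep m' * x ^ 2 := by rw [hx' _ m' e2, pow_two]; group
        _ = 1 := by rw [← map_mul, e3, map_one, hx2, mul_one]
    · obtain ⟨g, rfl⟩ := hY y hy
      exact Subgroup.mul_mem _ (Subgroup.mem_sup_left ⟨k g, rfl⟩)
        (Subgroup.mem_sup_right (mem_zpowers x))
    · obtain ⟨g, rfl⟩ := hY y hy
      intro h
      have h6 : ep (k g) ∈ ep.range := ⟨k g, rfl⟩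
      exact hxN ((Subgroup.mul_mem_cancel_left _ h6).1 h)
    · obtain ⟨g, rfl⟩ := hY y hy
      obtain ⟨g', rfl⟩ := hY y' hy'
      obtain ⟨z', hz'⟩ := hN ((k g)⁻¹ * k g')
      refine ⟨z', ?_⟩
      rw [← hz', map_mul, map_inv]
      group
  refine ⟨Y, Fy, hd, ?_, fun u v h => ?_, h3⟩
  · intro y hy
    obtain ⟨g, hg⟩ := (h1 y).1 hy
    exact ⟨k g, hg.symm⟩
  · obtain ⟨m, hm, hm'⟩ := hew u (hpref h)
    have h6 : Orth v.reverse := by
      have h7 : v.reverse ++ u.reverse ∈ Fr K n :=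
        Fr_perm _ h _ (by rw [← List.reverse_append]; exact (List.reverse_perm _).symm)
      exact hpref h7
    obtain ⟨m₁, hm₁, hm₁'⟩ := hew _ h6
    rw [hm', hm₁', ext' (h := m₁) (h' := m) (by rw [hm₁, hm, sM_rev hn h])]

omit [Finite G] in
/-- the elements of `Y` commute with the groups of their frames -/
lemma comm_of {p : ℕ} {ew : List (Ln K n) → G} {N M : Subgroup G} {Y : Finset G}
    {Fy : G → Finset (List (Ln K n))} (hd : H945.SemiData p (Fr K n) ew N M Y Fy) {y : G}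
    (hy : y ∈ Y) {w : List (Ln K n)} (hw : w ∈ Fy y) :
    ∀ a ∈ closure {z | ∃ u v, w = u ++ v ∧ z = ew u}, y * a = a * y := by
  have h7 : closure {z | ∃ u v, w = u ++ v ∧ z = ew u} ≤ centralizer ({y} : Set G) := by
    rw [closure_le]
    rintro _ ⟨u, v, h, rfl⟩
    rw [SetLike.mem_coe, mem_centralizer_singleton_iff]
    exact hd.fix y hy u v (h ▸ hw)
  intro a ha
  exact (mem_centralizer_singleton_iff.1 (h7 ha)).symm

/-- **R5, T3.** `S` is a group of orthogonal matrices (`n` odd) that contains all `g s(g)⁻¹`,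
`ep : S → G` has only scalars in its kernel, `x` acts on the image of `S` as the field automorphism
`s` of order `2`. -/
theorem top_orth (hstar : ∀ x : K, star x = x) {q : ℕ} (hq : Odd q)
    (hK : Nat.card K = q ^ 2) (s : K ≃+* K) (hsq : ∀ x : K, s x = x ^ q) (hn : Odd n) (hn2 : 2 ≤ n)
    (S : Subgroup (GU K n)) (hSs : ∀ h : S, ∃ h' : S, h'.1.1 = h.1.1.map s)
    (hST : ∀ g : GU K n, ∃ h : S, h.1.1 = g.1 * star (g.1.map s))
    (ep : S →* G)
    (hker : ∀ g : S, ep g = 1 → ∃ c : K, g.1.1 = c • (1 : Matrix (Fin n) (Fin n) K))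
    (x : G) (hx2 : x ^ 2 = 1) (hxN : x ∉ ep.range)
    (hx : ∀ h h' : S, h'.1.1 = h.1.1.map s → x * ep h * x⁻¹ = ep h')
    (ew : List (Ln K n) → G)
    (hew : ∀ u, Orth u → ∃ h : S, h.1.1 = sM (-1) (-1) u ∧ ew u = ep h)
    (hC : Comb 2 n (Fr K n) ew) (hcount : (Fs s n).card < 2 ^ n * t (Fs s n))
    (𝕜 : Type v) [Field 𝕜] :
    ∃ w ∈ Fr K n, ∃ h : S, (ep h * x) ^ 2 = 1 ∧
      (∀ a ∈ closure {z | ∃ u v, w = u ++ v ∧ z = ew u}, (ep h * x) * a = a * (ep h * x)) ∧
      ∃ (α : Ch 𝕜 (Subgroup G)) (l : List (Subgroup G)),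
        TopCycle 𝕜 2 (ep.range ⊔ zpowers x)
          (closure {z | ∃ u v, w = u ++ v ∧ z = ew u} ⊔ zpowers (ep h * x)) α l ∧
        l.length = n := by
  obtain ⟨Y, Fy, hd, h1, h2, h3⟩ := semi_orth hstar hq hK s hsq hn S hSs hST ep hker x hx2 hxN hx ew
    hew (M := 2) (by rwa [← pow_succ, Nat.sub_add_cancel (by omega)])
  obtain ⟨y, hy, w, hw, α, l, h4, h5⟩ := H945.top_of_semi₂ hn2 hC (fun u v h => by
    rw [h2 u v h]) hd h3 𝕜
  obtain ⟨h, rfl⟩ := h1 y hy
  refine ⟨w, hd.sub _ hy hw, h, hd.pow _ hy, comm_of hd hy hw, α, l, ?_, h5⟩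
  rw [sup_comm (zpowers (ep h * x))] at h4
  exact h4

end

end

end Vale.Agent.P240.R2.H829
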