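import Vale.Agent.P240.R2.H829.Cnt4
import Vale.Agent.P240.R2.H775.CT
import Vale.Agent.P240.R2.H775.GX
import Vale.Agent.P240.R2.H472.R4b
import Vale.Agent.P240.R2.H221.B3

/-!
The numerical input of `semi_orth`, and the group `S` of all orthogonal matrices whose class lies in
the commutator subgroup of `PGU` (P240, R5 of helper296).
-/

set_option autoImplicit false

namespace Vale.Agent.P240.R2.H829

open Matrix Subgroup Vale.Agent.P240.R2.AS Vale.Agent.P240.R2.H687 Vale.Agent.P240.K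
open Vale.Agent.P240.R2.H387 (Fs mem_Fs)
open Vale.Agent.P240.R2.H38 (sM)
open scoped Classical

universe u v w

noncomputable section

section
variable {K : Type u} [Field K] [Fintype K] [StarRing K] {n : ℕ}

/-- the numerical input -/
theorem card_Fs_lt (hstar : ∀ x : K, star x = x) {q : ℕ} (hq : Odd q)
    (hK : Nat.card K = q ^ 2) (s : K ≃+* K) (hsq : ∀ x : K, s x = x ^ q) (hn : Odd n)
    (hn2 : 2 ≤ n) {M : ℕ} (x : ℚ) (hx : 0 < x)
    (hM : 1 ≤ (1 - x - 1 / (((q - 1 : ℕ) : ℚ) * x)) * (2 * x) ^ (n - 1) * M) :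
    (Fs s n).card < 2 ^ (n - 1) * M * t (Fs s n) := by
  have hq2 := two_le_of (K := K) hq hK
  have hM0 : (0 : ℚ) ≤ M := Nat.cast_nonneg M
  have hx' : 0 < (2 * x) ^ (n - 1) := by positivity
  set c : ℚ := 1 - x - 1 / (((q - 1 : ℕ) : ℚ) * x) with hc
  have hc0 : 0 ≤ c := by
    by_contra h
    push Not at h
    have h1 : c * (2 * x) ^ (n - 1) * M ≤ 0 :=
      mul_nonpos_of_nonpos_of_nonneg (mul_nonpos_of_nonpos_of_nonneg h.le hx'.le) hM0
    linarith
  have hM1 : (0 : ℚ) < M := by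
    rcases hM0.lt_or_eq with h | h
    · exact h
    · rw [← h, mul_zero] at hM
      linarith
  obtain ⟨k0, h0⟩ := H775.X.gsX (q - 1) n x (by omega) hn2 hx hc0
  have hs : ∀ x, s (star x) = star (s x) := fun x => by rw [hstar, hstar]
  obtain ⟨g, hg, hw, h1⟩ := h0 (Ln K k0) (Fs s k0) k0 le_rfl
    (H387.good_Fs_triv hstar hq hK hsq k0) (H387.Fs_nonempty hs)
  obtain ⟨e1, e2⟩ := H472.r4b hstar hq hK hsq hn hg hw
  rw [e1, e2] at h1
  have h2 : ((Fs s n).card : ℚ) < 2 ^ (n - 1) * M * (t (Fs s n) : ℚ) := by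
    have h3 : (0 : ℚ) ≤ (Fs s n).card := Nat.cast_nonneg _
    have h4 : (0 : ℚ) < 2 ^ (n - 1) * M := by positivity
    calc ((Fs s n).card : ℚ) = 1 * ((Fs s n).card : ℚ) := (one_mul _).symm
      _ ≤ (c * (2 * x) ^ (n - 1) * M) * ((Fs s n).card : ℚ) := mul_le_mul_of_nonneg_right hM h3
      _ = 2 ^ (n - 1) * M * (c * x ^ (n - 1) * ((Fs s n).card : ℚ)) := by
          rw [mul_pow]; ring
      _ < 2 ^ (n - 1) * M * (t (Fs s n) : ℚ) := mul_lt_mul_of_pos_left h1 h4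
  exact_mod_cast h2

/-- the ratio `1 / 2` -/
theorem card_Fs_lt_half (hstar : ∀ x : K, star x = x) {q : ℕ} (hq : Odd q)
    (hK : Nat.card K = q ^ 2) (s : K ≃+* K) (hsq : ∀ x : K, s x = x ^ q) (hn : Odd n)
    (hn2 : 2 ≤ n) (h : 2 * (q - 1) ≤ n * (q - 5)) :
    (Fs s n).card < 2 ^ (n - 1) * n * t (Fs s n) := by
  have hq2 := two_le_of (K := K) hq hK
  refine card_Fs_lt hstar hq hK s hsq hn hn2 (1 / 2) (by norm_num) ?_
  have hq5 : 5 < q := by
    by_contra h5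
    have h6 : q - 5 = 0 := by omega
    rw [h6, mul_zero] at h
    omega
  have e1 : ((q - 1 : ℕ) : ℚ) = (q : ℚ) - 1 := by
    rw [Nat.cast_sub (by omega), Nat.cast_one]
  have e2 : ((q - 5 : ℕ) : ℚ) = (q : ℚ) - 5 := by
    rw [Nat.cast_sub (by omega)]; norm_num
  have h7 : (2 : ℚ) * ((q : ℚ) - 1) ≤ n * ((q : ℚ) - 5) := by
    rw [← e1, ← e2]
    exact_mod_cast h
  have h8 : (0 : ℚ) < (q : ℚ) - 1 := by
    have : (5 : ℚ) < q := by exact_mod_cast hq5
    linarith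
  rw [e1]
  have e3 : (2 * (1 / 2) : ℚ) = 1 := by norm_num
  rw [e3, one_pow, mul_one]
  have e4 : (1 - 1 / 2 - 1 / (((q : ℚ) - 1) * (1 / 2))) * n =
      (n * ((q : ℚ) - 5)) / (2 * ((q : ℚ) - 1)) := by
    field_simp
    ring
  rw [e4, le_div_iff₀ (by linarith), one_mul]
  exact h7

end

section
variable {K : Type u} [Field K] [Fintype K] [StarRing K]

variable (K) in
/-- the matrices whose class lies in the commutator subgroup of `PGU` -/
def Sc (n : ℕ) : Subgroup (GU K n) :=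
  (commutator (PGU K n)).comap (QuotientGroup.mk' (Subgroup.center (GU K n)))

variable {n : ℕ}

omit [Fintype K] in
lemma mem_Sc {g : GU K n} : g ∈ Sc K n ↔ (QuotientGroup.mk g : PGU K n) ∈ commutator (PGU K n) :=
  Iff.rfl

omit [Fintype K] in
lemma Sc_map (σ : SA K) (g : GU K n) (hg : g ∈ Sc K n) : mapGU σ g ∈ Sc K n := by
  rw [mem_Sc] at hg ⊢
  have h1 : (commutator (PGU K n)).comap (act n σ).toMonoidHom = commutator (PGU K n) :=
    (inferInstance : (commutator (PGU K n)).Characteristic).fixed (act n σ)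
  rw [← h1] at hg
  exact hg

omit [Fintype K] in
lemma Sc_stable (s : K ≃+* K) (hs : ∀ x, s (star x) = star (s x)) (h : Sc K n) :
    ∃ h' : Sc K n, h'.1.1 = h.1.1.map s :=
  ⟨⟨mapGU (⟨s, hs⟩ : SA K) h.1, Sc_map _ _ h.2⟩, rfl⟩

omit [Fintype K] in
lemma norm_neg_one : (-1 : K) * star (-1 : K) = 1 := by rw [star_neg, star_one]; ring

omit [Fintype K] [StarRing K] in
lemma neg_one_ne (h2 : (2 : K) ≠ 0) : (-1 : K) ≠ 1 := by
  intro h
  apply h2
  linear_combination -h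

/-- the matrices `(-1)^|u| (1 - 2 sm u)` lie in `Sc` -/
theorem exists_Sc (hstar : ∀ x : K, star x = x) (hodd : Odd (Nat.card K)) (h2 : (2 : K) ≠ 0)
    (hn : Odd n) {u : List (Ln K n)} (hu : Orth u) :
    ∃ h : Sc K n, h.1.1 = sM (-1) (-1) u ∧ (QuotientGroup.mk h.1 : PGU K n) = eW (-1) u := by
  have hc : (-1 : K) ^ n * (-1) = 1 := by rw [hn.neg_one_pow]; ring
  have h1 := H775.cl_sW (neg_one_ne h2) norm_neg_one norm_neg_one hc hu
  have h3 := H775.mt_sW norm_neg_one norm_neg_one hc hu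
  generalize H38.sW (-1) (-1) u = g at h1 h3
  have h4 : (QuotientGroup.mk g.1 : PGU K n) = eW (-1) u := h1
  have h5 : g.1.1 = sM (-1) (-1) u := h3
  have h6 : g.1 ∈ Sc K n := by
    rw [mem_Sc, h4]
    exact H221.stmtB3 K hstar hodd n hn u hu
  exact ⟨⟨g.1, h6⟩, h5, h4⟩

variable {G : Type w} [Group G]

omit [Fintype K] in
/-- elements of `Sc` with proportional matrices -/
lemma ep_eq {ep : Sc K n →* G}
    (hker : ∀ g : Sc K n, ep g = 1 ↔ ∃ c : K, g.1.1 = c • (1 : Matrix (Fin n) (Fin n) K))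
    {g h : Sc K n} {c : K} (e : g.1.1 = c • h.1.1) : ep g = ep h := by
  have h1 : ep (g * h⁻¹) = 1 := by
    rw [hker]
    refine ⟨c, ?_⟩
    have h3 : h.1.1 * star h.1.1 = 1 := mem_unitaryGroup_iff.1 h.1.2
    show g.1.1 * star h.1.1 = c • 1
    rw [e, Matrix.smul_mul, h3]
  rw [map_mul, map_inv] at h1
  exact mul_inv_eq_one.1 h1

/-- `Comb` for the elements `ep (1 - 2 sm u)` -/
theorem comb_Sc (hstar : ∀ x : K, star x = x) (hodd : Odd (Nat.card K)) (h2 : (2 : K) ≠ 0)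
    (hn : Odd n) {ep : Sc K n →* G}
    (hker : ∀ g : Sc K n, ep g = 1 ↔ ∃ c : K, g.1.1 = c • (1 : Matrix (Fin n) (Fin n) K))
    {ew : List (Ln K n) → G}
    (hew : ∀ u, Orth u → ∃ h : Sc K n, h.1.1 = sM (-1) (-1) u ∧ ew u = ep h) :
    Comb 2 n (Fr K n) ew := by
  choose! m hm hm' using fun u (hu : Orth u) => exists_Sc (K := K) (n := n) hstar hodd h2 hn hu
  let f : Sc K n →* PGU K n := (QuotientGroup.mk' _).comp (Sc K n).subtype
  have hk : f.ker = ep.ker := by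
    ext g
    rw [MonoidHom.mem_ker, MonoidHom.mem_ker, hker]
    exact H275.mk_one_iff (neg_one_ne h2) norm_neg_one g.1
  have h3 : Comb 2 n (Fr K n) (eW (-1 : K)) :=
    H275.comb_eW (p := 2) (by ring) (neg_one_ne h2) norm_neg_one hn.pos
  have h4 : Comb 2 n (Fr K n) (fun u => f (m u)) :=
    H775.Comb.congr (O := Orth) h3 H775.her_orth (fun w hw => (hm' w hw).symm)
      (hm' [] List.Pairwise.nil).symm
  have h5 : ∀ w, Orth w → ep (m w) = ew w := by
    intro w hw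
    obtain ⟨h, h6, h7⟩ := hew w hw
    rw [h7]
    have h8 : m w = h := Subtype.ext (Subtype.ext (by rw [hm w hw, h6]))
    rw [h8]
  exact H775.Comb.congr (O := Orth) (H775.Comb.of_ker hk h4) H775.her_orth h5
    (h5 [] List.Pairwise.nil)

/-- normalisation of the elements of the words -/
lemma hew_of (hstar : ∀ x : K, star x = x) (hodd : Odd (Nat.card K)) (h2 : (2 : K) ≠ 0)
    (hn : Odd n) {ep : Sc K n →* G}
    (hker : ∀ g : Sc K n, ep g = 1 ↔ ∃ c : K, g.1.1 = c • (1 : Matrix (Fin n) (Fin n) K))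
    {ew : List (Ln K n) → G}
    (hew : ∀ u, Orth u → ∃ (h : Sc K n) (c : K),
      h.1.1 = c • (1 + ((-1 : K) - 1) • sm u) ∧ ew u = ep h) :
    ∀ u, Orth u → ∃ h : Sc K n, h.1.1 = sM (-1) (-1) u ∧ ew u = ep h := by
  intro u hu
  obtain ⟨h, c, h1, h3⟩ := hew u hu
  obtain ⟨m, hm, -⟩ := exists_Sc (K := K) (n := n) hstar hodd h2 hn hu
  refine ⟨m, hm, ?_⟩
  rw [h3]
  refine ep_eq hker (c := c * (-1) ^ u.length) ?_
  rw [h1, hm, sM, smul_smul, mul_assoc, ← pow_add]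
  rw [Even.neg_one_pow ⟨u.length, rfl⟩, mul_one]

/-- **T3 for `Ω_n(q)⟨s⟩`**, `n` odd, `|K| = q²`, with the obstructions counted up to reversal. -/
theorem top_Sc [Finite G] (hstar : ∀ x : K, star x = x) {q : ℕ} (hq : Odd q)
    (hK : Nat.card K = q ^ 2) (s : K ≃+* K) (hsq : ∀ x : K, s x = x ^ q) (hn : Odd n) (hn2 : 2 ≤ n)
    (x : ℚ) (hx0 : 0 < x)
    (hM : 1 ≤ (1 - x - 1 / (((q - 1 : ℕ) : ℚ) * x)) * (2 * x) ^ (n - 1) * (2 : ℕ))
    (hST : ∀ g : GU K n, ∃ h : Sc K n, h.1.1 = g.1 * star (g.1.map s))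
    (ep : Sc K n →* G)
    (hker : ∀ g : Sc K n, ep g = 1 ↔ ∃ c : K, g.1.1 = c • (1 : Matrix (Fin n) (Fin n) K))
    (y : G) (hy2 : y ^ 2 = 1) (hyN : y ∉ ep.range)
    (hy : ∀ h h' : Sc K n, h'.1.1 = h.1.1.map s → y * ep h * y⁻¹ = ep h')
    (ew : List (Ln K n) → G)
    (hew : ∀ u, Orth u → ∃ (h : Sc K n) (c : K),
      h.1.1 = c • (1 + ((-1 : K) - 1) • sm u) ∧ ew u = ep h)
    (𝕜 : Type v) [Field 𝕜] :
    ∃ w ∈ Fr K n, ∃ h : Sc K n, (ep h * y) ^ 2 = 1 ∧
      (∀ a ∈ closure {z | ∃ u v, w = u ++ v ∧ z = ew u}, (ep h * y) * a = a * (ep h * y)) ∧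
      ∃ (α : Ch 𝕜 (Subgroup G)) (l : List (Subgroup G)),
        TopCycle 𝕜 2 (ep.range ⊔ zpowers y)
          (closure {z | ∃ u v, w = u ++ v ∧ z = ew u} ⊔ zpowers (ep h * y)) α l ∧
        l.length = n := by
  have hodd : Odd (Nat.card K) := by rw [hK]; exact hq.pow
  have h2 := two_ne_of (K := K) hq hK
  have hew' := hew_of hstar hodd h2 hn hker hew
  have hc := card_Fs_lt hstar hq hK s hsq hn hn2 x hx0 hM
  rw [← pow_succ, Nat.sub_add_cancel (by omega)] at hc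
  exact top_orth hstar hq hK s hsq hn hn2 (Sc K n)
    (Sc_stable s fun x => by rw [hstar, hstar]) hST ep (fun g => (hker g).1) y hy2 hyN hy ew hew'
    (comb_Sc hstar hodd h2 hn hker hew') hc 𝕜

end

end

end Vale.Agent.P240.R2.H829
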