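import Vale.Agent.P240.R2.H829.Ext
import Vale.Agent.P240.R2.H829.DG
import Vale.Agent.P240.R2.H613.DT
import Vale.Agent.P240.R2.H281.DC
import Vale.Agent.P240.R2.H401.D3

/-!
`StmtDII` of helper401: the top cycle with the reflection in the last coordinate, even orthogonal
groups with nonsquare discriminant.
-/

set_option autoImplicit false

namespace Vale.Agent.P240.R2.H829.DII

open Matrix Vale.Agent.P240.R2.AS Vale.Agent.P240.R2.H38 Vale.Agent.P240.K
open Vale.Agent.P240.R2.H145.EO (B ac OD Big Ker)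
open Vale.Agent.P240.R2.H938 (TC)
open Vale.Agent.P240.R2.H401.D
open Vale.Agent.P240.R2.H281DC (gd gd_coe card_Ad)
open scoped Classical

universe u v w

noncomputable section

section
variable {K : Type u} [Field K] {n m : ℕ} {d : K}

/-- commutators lie in `SD0` -/
lemma comm_memD {a : Fin n → K} (u g : ↥(OD a)) : u * g * u⁻¹ * g⁻¹ ∈ SD0 a := by
  show (QuotientGroup.mk (u * g * u⁻¹ * g⁻¹) : POD a) ∈ commutator (POD a)
  have h := Subgroup.commutator_mem_commutator (G := POD a)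
    (Subgroup.mem_top (QuotientGroup.mk u : POD a)) (Subgroup.mem_top (QuotientGroup.mk g : POD a))
  exact h

/-- scalars lie in `SD0` -/
lemma scal_memD {a : Fin n → K} {g : ↥(OD a)} {l : K}
    (h : g.1.1 = l • (1 : Matrix (Fin n) (Fin n) K)) : g ∈ SD0 a := by
  show (QuotientGroup.mk g : POD a) ∈ commutator (POD a)
  have h1 : (QuotientGroup.mk g : POD a) = 1 := by
    rw [QuotientGroup.eq_one_iff, Subgroup.mem_center_iff]
    intro x
    apply Subtype.ext
    apply Units.ext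
    show x.1.1 * g.1.1 = g.1.1 * x.1.1
    rw [h, mul_smul_comm, smul_mul_assoc, mul_one, one_mul]
  rw [h1]
  exact Subgroup.one_mem _

/-- the inclusion -/
def incl (a : Fin n → K) : SD0 a →* SD a where
  toFun h := ⟨h.1.1, h.1, h.2, rfl⟩
  map_one' := rfl
  map_mul' _ _ := rfl

/-- the sign change of one coordinate -/
def cI (hF : StmtDF.{u}) [Fintype K] (hN : DNum K m d) (i : Fin (m + 1)) : ↥(OD (fd m d)) :=
  ⟨gd (fun k => if k = i then -1 else 1) (fun k => by by_cases h : k = i <;> simp [h]),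
    ((hF K m d hN).2.1 _ (fun k => by by_cases h : k = i <;> simp [h]) _ (gd_coe _ _)).1⟩

variable [Fintype K]

lemma cI_coe (hF : StmtDF.{u}) (hN : DNum K m d) (i : Fin (m + 1)) :
    (cI hF hN i).1.1 = diagonal (fun k => if k = i then (-1 : K) else 1) := rfl

lemma two_ne (hN : DNum K m d) : (2 : K) ≠ 0 := H281.two_ne_of_odd hN.odd

lemma cI_sq (hF : StmtDF.{u}) (hN : DNum K m d) (i : Fin (m + 1)) :
    cI hF hN i * cI hF hN i = 1 := by
  apply Subtype.ext
  apply Units.ext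
  show (cI hF hN i).1.1 * (cI hF hN i).1.1 = 1
  rw [cI_coe, diagonal_mul_diagonal, ← diagonal_one]
  congr 1
  funext k
  by_cases h : k = i <;> simp [h]

omit [Fintype K] in
lemma mem_SD0_iff {a : Fin n → K} {g : ↥(OD a)} : g ∈ SD0 a ↔ g.1 ∈ SD a := by
  constructor
  · exact fun h => ⟨g, h, rfl⟩
  · rintro ⟨h, hh, he⟩
    have : h = g := Subtype.ext he
    rwa [← this]

lemma last_not_mem (hF : StmtDF.{u}) (hN : DNum K m d) : cI hF hN (Fin.last m) ∉ SD0 (fd m d) := by
  rw [mem_SD0_iff]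
  intro h
  have h1 := ((hF K m d hN).2.1 (fun k => if k = Fin.last m then (-1 : K) else 1)
    (fun k => by by_cases h : k = Fin.last m <;> simp [h]) _
    (cI_coe hF hN (Fin.last m))).2.1 h
  rw [Finset.prod_ite_eq' Finset.univ (Fin.last m) (fun _ => (-1 : K))] at h1
  simp only [Finset.mem_univ, if_true] at h1
  apply two_ne hN
  linear_combination -h1

lemma cI_mul_mem (hF : StmtDF.{u}) (hN : DNum K m d) (i : Fin (m + 1)) :
    cI hF hN i * cI hF hN (Fin.last m) ∈ SD0 (fd m d) := by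
  by_cases hi : i = Fin.last m
  · rw [hi, cI_sq]
    exact Subgroup.one_mem _
  · rw [mem_SD0_iff]
    refine ((hF K m d hN).2.1 (fun k => (if k = i then (-1 : K) else 1) *
      (if k = Fin.last m then -1 else 1)) (fun k => ?_) _ ?_).2.2 ?_
    · by_cases h : k = i <;> by_cases h' : k = Fin.last m <;> simp [h, h']
    · show (cI hF hN i).1.1 * (cI hF hN (Fin.last m)).1.1 = _
      rw [cI_coe, cI_coe, diagonal_mul_diagonal]
    · rw [Finset.prod_mul_distrib, Finset.prod_ite_eq' Finset.univ i (fun _ => (-1 : K)),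
        Finset.prod_ite_eq' Finset.univ (Fin.last m) (fun _ => (-1 : K))]
      simp

/-- the group with the reflections -/
abbrev S1 (hF : StmtDF.{u}) (hN : DNum K m d) : Subgroup ↥(OD (fd m d)) :=
  SD0 (fd m d) ⊔ Subgroup.zpowers (cI hF hN (Fin.last m))

lemma S1_conj (hF : StmtDF.{u}) (hN : DNum K m d) (u : ↥(OD (fd m d))) {g : ↥(OD (fd m d))}
    (hg : g ∈ S1 hF hN) : u * g * u⁻¹ ∈ S1 hF hN := by
  have h1 : u * g * u⁻¹ = (u * g * u⁻¹ * g⁻¹) * g := by group
  rw [h1]
  exact Subgroup.mul_mem _ (Subgroup.mem_sup_left (comm_memD u g)) hg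

lemma cI_mem (hF : StmtDF.{u}) (hN : DNum K m d) (i : Fin (m + 1)) : cI hF hN i ∈ S1 hF hN := by
  have h1 : cI hF hN i = cI hF hN i * cI hF hN (Fin.last m) * cI hF hN (Fin.last m) := by
    rw [mul_assoc, cI_sq, mul_one]
  rw [h1]
  exact Subgroup.mul_mem _ (Subgroup.mem_sup_left (cI_mul_mem hF hN i))
    (Subgroup.mem_sup_right (Subgroup.mem_zpowers _))

end

section mats
variable {K : Type u} [Field K] {m : ℕ} {d : K}
variable {K' : Type u} [Field K'] [Fintype K'] [StarRing K'] {j : K →+* K'} {δ : K'}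
  {φ : ↥(OD (fd m d)) →* GU K' (m + 1)}

omit [Fintype K'] in
lemma scal_iff (hδ0 : δ ≠ 0)
    (hφ : ∀ g i k, (φ g).1 i k = (if i = Fin.last m then δ else 1) * j (g.1.1 i k) *
        (if k = Fin.last m then δ⁻¹ else 1)) (x : ↥(OD (fd m d))) :
    (∃ l : K, x.1.1 = l • (1 : Matrix (Fin (m + 1)) (Fin (m + 1)) K)) ↔
      ∃ l : K', (φ x).1 = l • (1 : Matrix (Fin (m + 1)) (Fin (m + 1)) K') := by
  have hD : ∀ i : Fin (m + 1), (if i = Fin.last m then δ else 1) *
      (if i = Fin.last m then δ⁻¹ else 1) = 1 := by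
    intro i
    by_cases hi : i = Fin.last m
    · rw [if_pos hi, if_pos hi, mul_inv_cancel₀ hδ0]
    · rw [if_neg hi, if_neg hi, mul_one]
  constructor
  · rintro ⟨l, hl⟩
    refine ⟨j l, ?_⟩
    ext i k
    rw [hφ, hl, Matrix.smul_apply, Matrix.smul_apply, one_apply, one_apply]
    by_cases hik : i = k
    · subst hik
      rw [if_pos rfl, if_pos rfl, smul_eq_mul, smul_eq_mul, mul_one, mul_one]
      linear_combination (j l) * hD i
    · rw [if_neg hik, if_neg hik, smul_zero, smul_zero, map_zero, mul_zero, zero_mul]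
  · rintro ⟨l, hl⟩
    have h1 : ∀ i k, (if i = Fin.last m then δ else 1) * j (x.1.1 i k) *
        (if k = Fin.last m then δ⁻¹ else 1) = (l • (1 : Matrix _ _ K')) i k := by
      intro i k
      rw [← hl, hφ]
    have h3 : ∀ i, j (x.1.1 i i) = l := by
      intro i
      have h4 := h1 i i
      rw [Matrix.smul_apply, one_apply_eq, smul_eq_mul, mul_one] at h4
      linear_combination h4 - j (x.1.1 i i) * hD i
    refine ⟨x.1.1 0 0, ?_⟩
    ext i k
    rw [Matrix.smul_apply, one_apply]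
    by_cases hik : i = k
    · subst hik
      rw [if_pos rfl, smul_eq_mul, mul_one]
      exact j.injective (by rw [h3, h3])
    · rw [if_neg hik, smul_zero]
      have h4 := h1 i k
      rw [Matrix.smul_apply, one_apply_ne hik, smul_zero, mul_eq_zero, mul_eq_zero] at h4
      rcases h4 with (h4 | h4) | h4
      · exfalso
        by_cases hi : i = Fin.last m
        · rw [if_pos hi] at h4; exact hδ0 h4
        · rw [if_neg hi] at h4; exact one_ne_zero h4
      · exact (map_eq_zero j).1 h4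
      · exfalso
        by_cases hi : k = Fin.last m
        · rw [if_pos hi] at h4; exact hδ0 (inv_eq_zero.1 h4)
        · rw [if_neg hi] at h4; exact one_ne_zero h4

lemma phi_cI [Fintype K] (hδ0 : δ ≠ 0)
    (hφ : ∀ g i k, (φ g).1 i k = (if i = Fin.last m then δ else 1) * j (g.1.1 i k) *
        (if k = Fin.last m then δ⁻¹ else 1)) (hF : StmtDF.{u}) (hN : DNum K m d) (i : Fin (m + 1)) :
    (φ (cI hF hN i)).1 = sM (-1 : K') 1 [E1 i] := by
  rw [sM_E1, one_smul]
  ext a b
  rw [hφ, cI_coe, diagonal_apply, diagonal_apply]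
  by_cases hab : a = b
  · subst hab
    rw [if_pos rfl, if_pos rfl]
    by_cases ha : a = i
    · rw [if_pos ha, if_pos ha, map_neg, map_one]
      by_cases hl : a = Fin.last m
      · rw [if_pos hl, if_pos hl]; field_simp
      · rw [if_neg hl, if_neg hl]; ring
    · rw [if_neg ha, if_neg ha, map_one]
      by_cases hl : a = Fin.last m
      · rw [if_pos hl, if_pos hl]; field_simp
      · rw [if_neg hl, if_neg hl]; ring
  · rw [if_neg hab, if_neg hab, map_zero, mul_zero, zero_mul]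

lemma phi_letter [Fintype K] (hδ0 : δ ≠ 0)
    (hφ : ∀ g i k, (φ g).1 i k = (if i = Fin.last m then δ else 1) * j (g.1.1 i k) *
        (if k = Fin.last m then δ⁻¹ else 1)) (hF : StmtDF.{u}) (hN : DNum K m d) (u : ↥(OD (fd m d)))
    (i : Fin (m + 1)) :
    (φ (u * cI hF hN i * u⁻¹)).1 = sM (-1 : K') 1 [lnU (φ u) (E1 i)] := by
  have h3 : [lnU (φ u) (E1 i)] = [E1 i].map (lnU (φ u)) := rfl
  rw [h3, sM_map, ← phi_cI hδ0 hφ hF hN, map_mul, map_mul, map_inv]
  rfl

end mats

/-- the homomorphism on `S1` -/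
theorem exists_eta {K : Type u} [Field K] [Fintype K] {m : ℕ} {d : K} (hF : StmtDF.{u})
    (hN : DNum K m d) {G : Type v} [Group G] {L : Subgroup G} {ε : SD (fd m d) →* G}
    (hε : DHom L ε) {e : G} (he2 : e ^ 2 = 1) (heL : e ∉ L)
    (hact : ∀ s : ↥(OD (fd m d)), s.1.1 = diagonal (fun i => if i = Fin.last m then -1 else 1) →
      ∀ h : SD (fd m d), e * ε h * e⁻¹ = ε (cjD s h)) :
    ∃ η : S1 hF hN →* G, (∀ (x : ↥(OD (fd m d))) (hx : x ∈ S1 hF hN) (hx' : x ∈ SD0 (fd m d)),
      η ⟨x, hx⟩ = ε (incl (fd m d) ⟨x, hx'⟩)) ∧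
    (∀ (x : ↥(OD (fd m d))) (hx : x ∈ S1 hF hN)
      (hx' : x * cI hF hN (Fin.last m) ∈ SD0 (fd m d)),
      η ⟨x, hx⟩ = ε (incl (fd m d) ⟨x * cI hF hN (Fin.last m), hx'⟩) * e) ∧
    (∀ g, η g ∈ L ⊔ Subgroup.zpowers e) ∧
    (∀ g : S1 hF hN, η g = 1 ↔
      ∃ l : K, g.1.1.1 = l • (1 : Matrix (Fin (m + 1)) (Fin (m + 1)) K)) := by
  set s₀ := cI hF hN (Fin.last m) with hs₀
  have hs₀s : s₀ * s₀ = 1 := cI_sq hF hN _
  have hs₀i : s₀⁻¹ = s₀ := inv_eq_of_mul_eq_one_left hs₀s
  have hHn : (SD0 (fd m d)).Normal := SD0_normal _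
  -- the homomorphism
  have hee : e * e = 1 := by rw [← pow_two, he2]
  obtain ⟨η, hη1, hη2⟩ := Ext.ext_hom hHn hs₀s (last_not_mem hF hN) (ε.comp (incl (fd m d))) hee
    (by
      intro h h' hh
      have h3 := hact s₀ rfl (incl (fd m d) h)
      have h4 : cjD s₀ (incl (fd m d) h) = incl (fd m d) h' := by
        apply Subtype.ext
        show s₀.1 * h.1.1 * s₀.1⁻¹ = h'.1.1
        have h5 : s₀.1⁻¹ = s₀.1 := congrArg Subtype.val hs₀i
        rw [h5, hh]
        rfl
      rw [h4, mul_inv_eq_iff_eq_mul] at h3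
      exact h3)
  have hrange : ∀ g, η g ∈ L ⊔ Subgroup.zpowers e := by
    intro g
    rcases (Ext.mem_sup hHn hs₀s).1 g.2 with hg | hg
    · rw [hη1 g hg]
      refine Subgroup.mem_sup_left ?_
      rw [← hε.range]
      exact ⟨_, rfl⟩
    · rw [hη2 g hg]
      refine Subgroup.mul_mem _ (Subgroup.mem_sup_left ?_)
        (Subgroup.mem_sup_right (Subgroup.mem_zpowers e))
      rw [← hε.range]
      exact ⟨_, rfl⟩
  have hker : ∀ g : S1 hF hN, η g = 1 ↔
      ∃ l : K, g.1.1.1 = l • (1 : Matrix (Fin (m + 1)) (Fin (m + 1)) K) := by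
    intro g
    constructor
    · intro h1
      rcases (Ext.mem_sup hHn hs₀s).1 g.2 with hg | hg
      · rw [hη1 g hg] at h1
        exact (hε.ker _).1 h1
      · exfalso
        rw [hη2 g hg] at h1
        apply heL
        rw [eq_inv_of_mul_eq_one_right h1, ← hε.range]
        exact Subgroup.inv_mem _ ⟨_, rfl⟩
    · rintro ⟨l, hl⟩
      rw [hη1 g (scal_memD hl)]
      exact (hε.ker _).2 ⟨l, hl⟩
  exact ⟨η, fun x hx hx' => hη1 ⟨x, hx⟩ hx', fun x hx hx' => hη2 ⟨x, hx⟩ hx', hrange, hker⟩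

end

end Vale.Agent.P240.R2.H829.DII
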