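import Vale.Agent.P240.R2.H829.DII1

/-!
`StmtDII` of helper401, continued: the words.
-/

set_option autoImplicit false

namespace Vale.Agent.P240.R2.H829.DII

open Matrix Vale.Agent.P240.R2.AS Vale.Agent.P240.R2.H38 Vale.Agent.P240.K
open Vale.Agent.P240.R2.H145.EO (B ac OD Big Ker)
open Vale.Agent.P240.R2.H938 (TC)
open Vale.Agent.P240.R2.H401.D
open Vale.Agent.P240.R2.H281DC (gd gd_coe card_Ad)
open scoped Classical

universe u v w

noncomputable section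

variable {K : Type u} [Field K] [Fintype K] {m : ℕ} {d : K} (hF : StmtDF.{u}) (hN : DNum K m d)
  {G : Type v} [Group G] {ε : SD (fd m d) →* G} {η : S1 hF hN →* G} {e : G}

/-- the involution of the coordinates `u` -/
def ei (η : S1 hF hN →* G) (u : ↥(OD (fd m d))) : G :=
  η ⟨u * cI hF hN (Fin.last m) * u⁻¹, S1_conj hF hN u (cI_mem hF hN _)⟩

theorem words {K' : Type u} [Field K'] [Fintype K'] [StarRing K'] {j : K →+* K'} {δ : K'}
    {φ : ↥(OD (fd m d)) →* GU K' (m + 1)} (hδ0 : δ ≠ 0)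
    (hφ : ∀ g i k, (φ g).1 i k = (if i = Fin.last m then δ else 1) * j (g.1.1 i k) *
        (if k = Fin.last m then δ⁻¹ else 1))
    (hη1 : ∀ (x : ↥(OD (fd m d))) (hx : x ∈ S1 hF hN) (hx' : x ∈ SD0 (fd m d)),
      η ⟨x, hx⟩ = ε (incl (fd m d) ⟨x, hx'⟩)) (u : ↥(OD (fd m d)))
    (p : List (Ln K' (m + 1))) : Orth p →
      (∀ P ∈ p, ∃ i, P = lnU (φ u) (E1 i)) →
      ∃ (x : ↥(OD (fd m d))) (hx : x ∈ S1 hF hN), (φ x).1 = sM (-1 : K') 1 p ∧
        η ⟨x, hx⟩ ∈ Ad ε u ⊔ Subgroup.zpowers (ei hF hN η u) := by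
  have hHn : (SD0 (fd m d)).Normal := SD0_normal _
  induction p with
  | nil =>
    intro _ _
    refine ⟨1, Subgroup.one_mem _, ?_, ?_⟩
    · rw [map_one, sM_nil]
      rfl
    · have h1 : η (⟨1, Subgroup.one_mem _⟩ : S1 hF hN) = 1 := map_one η
      rw [h1]
      exact Subgroup.one_mem _
  | cons P p ih =>
    intro ho hp
    obtain ⟨x, hx, hx1, hx2⟩ := ih (List.pairwise_cons.1 ho).2 fun Q hQ => hp Q (by simp [hQ])
    obtain ⟨i, rfl⟩ := hp _ (List.mem_cons_self ..)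
    have hci : u * cI hF hN i * u⁻¹ ∈ S1 hF hN := S1_conj hF hN u (cI_mem hF hN i)
    refine ⟨(u * cI hF hN i * u⁻¹) * x, Subgroup.mul_mem _ hci hx, ?_, ?_⟩
    · have h3 : lnU (φ u) (E1 i) :: p = [lnU (φ u) (E1 i)] ++ p := rfl
      rw [h3, H38.sM_append ho, ← phi_letter hδ0 hφ hF hN, ← hx1,
        map_mul φ (u * cI hF hN i * u⁻¹) x]
      rfl
    · have h3 : η (⟨(u * cI hF hN i * u⁻¹) * x, Subgroup.mul_mem _ hci hx⟩ : S1 hF hN) =
          η ⟨u * cI hF hN i * u⁻¹, hci⟩ * η ⟨x, hx⟩ := map_mul η ⟨_, hci⟩ ⟨_, hx⟩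
      rw [h3]
      refine Subgroup.mul_mem _ ?_ hx2
      -- one letter
      have hk : u * (cI hF hN i * cI hF hN (Fin.last m)) * u⁻¹ ∈ SD0 (fd m d) :=
        hHn.conj_mem _ (cI_mul_mem hF hN i) u
      have h4 : (⟨u * cI hF hN i * u⁻¹, hci⟩ : S1 hF hN) =
          (⟨u * (cI hF hN i * cI hF hN (Fin.last m)) * u⁻¹, Subgroup.mem_sup_left hk⟩ : S1 hF hN) *
            ⟨u * cI hF hN (Fin.last m) * u⁻¹, S1_conj hF hN u (cI_mem hF hN _)⟩ := by
        apply Subtype.ext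
        show u * cI hF hN i * u⁻¹ = u * (cI hF hN i * cI hF hN (Fin.last m)) * u⁻¹ *
          (u * cI hF hN (Fin.last m) * u⁻¹)
        calc u * cI hF hN i * u⁻¹ =
            u * cI hF hN i * (cI hF hN (Fin.last m) * cI hF hN (Fin.last m)) * u⁻¹ := by
              rw [cI_sq, mul_one]
          _ = _ := by group
      rw [h4, map_mul]
      refine Subgroup.mul_mem _ (Subgroup.mem_sup_left ?_)
        (Subgroup.mem_sup_right (Subgroup.mem_zpowers _))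
      rw [hη1 _ _ hk]
      refine ⟨incl (fd m d) ⟨cI hF hN i * cI hF hN (Fin.last m), cI_mul_mem hF hN i⟩,
        ⟨fun k => (if k = i then (-1 : K) else 1) * (if k = Fin.last m then -1 else 1),
          fun k => ?_, ?_⟩, ?_⟩
      · by_cases h : k = i <;> by_cases h' : k = Fin.last m <;> simp [h, h']
      · show (cI hF hN i).1.1 * (cI hF hN (Fin.last m)).1.1 = _
        rw [cI_coe, cI_coe, diagonal_mul_diagonal]
      · show ε (cjD u _) = ε (incl (fd m d) _)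
        congr 1

theorem ei_sq (u : ↥(OD (fd m d))) : ei hF hN η u ^ 2 = 1 := by
  have h1 : (⟨u * cI hF hN (Fin.last m) * u⁻¹, S1_conj hF hN u (cI_mem hF hN _)⟩ : S1 hF hN) ^ 2 =
      1 := by
    apply Subtype.ext
    show (u * cI hF hN (Fin.last m) * u⁻¹) ^ 2 = 1
    rw [pow_two]
    calc u * cI hF hN (Fin.last m) * u⁻¹ * (u * cI hF hN (Fin.last m) * u⁻¹) =
        u * (cI hF hN (Fin.last m) * cI hF hN (Fin.last m)) * u⁻¹ := by group
      _ = 1 := by rw [cI_sq, mul_one, mul_inv_cancel]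
  rw [ei, ← map_pow, h1, map_one]

theorem ei_comm (hη1 : ∀ (x : ↥(OD (fd m d))) (hx : x ∈ S1 hF hN) (hx' : x ∈ SD0 (fd m d)),
      η ⟨x, hx⟩ = ε (incl (fd m d) ⟨x, hx'⟩)) (u : ↥(OD (fd m d))) :
    ∀ a ∈ Ad ε u, ei hF hN η u * a = a * ei hF hN η u := by
  rintro _ ⟨t, ⟨c, hc, htc'⟩, rfl⟩
  obtain ⟨t0, ht0, ht1⟩ := t.2
  have hk : u * t0 * u⁻¹ ∈ SD0 (fd m d) := (SD0_normal _).conj_mem _ ht0 u
  have h1 : (ε.comp (cjD u)) t = η ⟨u * t0 * u⁻¹, Subgroup.mem_sup_left hk⟩ := by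
    rw [hη1 _ _ hk]
    show ε (cjD u t) = ε (incl (fd m d) ⟨u * t0 * u⁻¹, hk⟩)
    congr 1
    apply Subtype.ext
    show u.1 * t.1 * u.1⁻¹ = u.1 * t0.1 * u.1⁻¹
    rw [← ht1]
    rfl
  have h3 : cI hF hN (Fin.last m) * t0 = t0 * cI hF hN (Fin.last m) := by
    apply Subtype.ext
    apply Units.ext
    show (cI hF hN (Fin.last m)).1.1 * t0.1.1 = t0.1.1 * (cI hF hN (Fin.last m)).1.1
    have h4 : t0.1.1 = diagonal c := by
      rw [← htc', ← ht1]
      rfl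
    rw [h4, cI_coe, diagonal_mul_diagonal, diagonal_mul_diagonal]
    congr 1
    funext k
    ring
  rw [h1, ei, ← map_mul, ← map_mul]
  congr 1
  apply Subtype.ext
  show u * cI hF hN (Fin.last m) * u⁻¹ * (u * t0 * u⁻¹) =
    u * t0 * u⁻¹ * (u * cI hF hN (Fin.last m) * u⁻¹)
  calc u * cI hF hN (Fin.last m) * u⁻¹ * (u * t0 * u⁻¹) =
      u * (cI hF hN (Fin.last m) * t0) * u⁻¹ := by group
    _ = u * (t0 * cI hF hN (Fin.last m)) * u⁻¹ := by rw [h3]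
    _ = _ := by group

theorem ei_mem {L : Subgroup G} (hL : ε.range = L)
    (hη2 : ∀ (x : ↥(OD (fd m d))) (hx : x ∈ S1 hF hN)
      (hx' : x * cI hF hN (Fin.last m) ∈ SD0 (fd m d)),
      η ⟨x, hx⟩ = ε (incl (fd m d) ⟨x * cI hF hN (Fin.last m), hx'⟩) * e) (u : ↥(OD (fd m d))) :
    ei hF hN η u * e⁻¹ ∈ L := by
  have hk : u * cI hF hN (Fin.last m) * u⁻¹ * cI hF hN (Fin.last m) ∈ SD0 (fd m d) := by
    have h1 := comm_memD u (cI hF hN (Fin.last m))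
    have h3 : (cI hF hN (Fin.last m))⁻¹ = cI hF hN (Fin.last m) :=
      inv_eq_of_mul_eq_one_left (cI_sq hF hN _)
    rwa [h3] at h1
  rw [ei, hη2 _ _ hk, mul_inv_cancel_right, ← hL]
  exact ⟨_, rfl⟩

theorem card_le [Finite G] {L : Subgroup G} (hε : DHom L ε)
    (hη1 : ∀ (x : ↥(OD (fd m d))) (hx : x ∈ S1 hF hN) (hx' : x ∈ SD0 (fd m d)),
      η ⟨x, hx⟩ = ε (incl (fd m d) ⟨x, hx'⟩)) (u : ↥(OD (fd m d))) :
    Nat.card (Ad ε u ⊔ Subgroup.zpowers (ei hF hN η u) : Subgroup G) ≤ 2 ^ m := by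
  have hm5 := hN.hm
  have h4 : Ad ε u ≤ Subgroup.normalizer (Subgroup.zpowers (ei hF hN η u) : Set G) := by
    intro a ha
    have h5 : a ∈ Subgroup.centralizer (Subgroup.zpowers (ei hF hN η u) : Set G) := by
      rw [Subgroup.mem_centralizer_iff]
      rintro _ ⟨k, rfl⟩
      exact ((show Commute (ei hF hN η u) a from ei_comm hF hN hη1 u a ha).zpow_left k)
    exact Subgroup.centralizer_le_normalizer _ h5
  have h5 := H275.card_sup_mul h4
  rw [card_Ad hF hN hε.ker u] at h5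
  have h6 : Nat.card (Subgroup.zpowers (ei hF hN η u)) ≤ 2 := by
    rw [Nat.card_zpowers]
    exact Nat.le_of_dvd two_pos (orderOf_dvd_of_pow_eq_one (ei_sq hF hN u))
  have h7 : 1 ≤ Nat.card (Ad ε u ⊓ Subgroup.zpowers (ei hF hN η u) : Subgroup G) := Nat.card_pos
  have h8 : 2 ^ m = 2 ^ (m - 1) * 2 := by
    rw [← pow_succ]
    congr 1
    omega
  calc Nat.card (Ad ε u ⊔ Subgroup.zpowers (ei hF hN η u) : Subgroup G)
      = Nat.card (Ad ε u ⊔ Subgroup.zpowers (ei hF hN η u) : Subgroup G) * 1 := (mul_one _).symm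
    _ ≤ Nat.card (Ad ε u ⊔ Subgroup.zpowers (ei hF hN η u) : Subgroup G) *
        Nat.card (Ad ε u ⊓ Subgroup.zpowers (ei hF hN η u) : Subgroup G) := Nat.mul_le_mul_left _ h7
    _ = 2 ^ (m - 1) * Nat.card (Subgroup.zpowers (ei hF hN η u)) := h5
    _ ≤ 2 ^ (m - 1) * 2 := Nat.mul_le_mul_left _ h6
    _ = 2 ^ m := h8.symm

end

end Vale.Agent.P240.R2.H829.DII
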