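import Vale.Agent.P240.R2.H829.EO

/-!
The order of the group of matrices in `SU_n(q)` that commute with `Da α ∘ star` modulo scalars,
bounded by the number of words in any invariant nonempty set of frames of fixed letters.
-/

set_option autoImplicit false

namespace Vale.Agent.P240.R2.H829.EO

open Matrix Vale.Agent.P240.R2.AS Vale.Agent.P240.R2.H38 Vale.Agent.P240.R2.H986.E
open Vale.Agent.P240.R2.H986.St Vale.Agent.P240.R2.H687
open scoped Classical

universe u

noncomputable section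

section
variable {K : Type u} [Field K] [Fintype K] [StarRing K] {n : ℕ} {α : K}

omit [Fintype K] in
/-- the entries of a diagonal conjugate are `±1` -/
lemma entry_gen (hα : α * star α = 1) {g u₀ : GU K n} (e : cD α g.1 = g.1)
    (hfix : ∀ i, cD α (lnU u₀ (E1 i)).1 = (lnU u₀ (E1 i)).1)
    (h : ∀ i, lnU (u₀⁻¹ * g * u₀) (E1 i) = E1 i) (i : Fin n) :
    (u₀⁻¹ * g * u₀ : GU K n).1 i i = 1 ∨ (u₀⁻¹ * g * u₀ : GU K n).1 i i = -1 := by
  set v : GU K n := u₀⁻¹ * g * u₀ with hv
  set a : K := v.1 i i with ha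
  have hd := diag_of_fix h
  -- the eigenvalue
  have h1 : v.1 * (E1 i : Ln K n).1 = a • (E1 i : Ln K n).1 := by
    rw [E1_coe]
    ext j k
    rw [mul_diagonal, Matrix.smul_apply, diagonal_apply, smul_eq_mul]
    by_cases hk : k = i
    · subst hk
      by_cases hj : j = k
      · subst hj
        rw [if_pos rfl, if_pos rfl]
      · rw [hd j k hj, if_neg hj, zero_mul, mul_zero]
    · rw [if_neg hk, mul_zero]
      by_cases hj : j = k
      · subst hj
        rw [if_pos rfl, if_neg hk, mul_zero]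
      · rw [if_neg hj, mul_zero]
  have h2 : g * u₀ = u₀ * v := by rw [hv]; group
  have h3 : g.1 * (lnU u₀ (E1 i)).1 = a • (lnU u₀ (E1 i)).1 := by
    rw [lnU_coe]
    have h4 : g.1 * u₀.1 = u₀.1 * v.1 := congrArg Subtype.val h2
    calc g.1 * (u₀.1 * (E1 i : Ln K n).1 * star u₀.1)
        = (g.1 * u₀.1) * (E1 i : Ln K n).1 * star u₀.1 := by simp only [mul_assoc]
      _ = u₀.1 * (v.1 * (E1 i : Ln K n).1) * star u₀.1 := by rw [h4]; simp only [mul_assoc]
      _ = _ := by rw [h1, mul_smul_comm, smul_mul_assoc]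
  have h4 : g.1 * (lnU u₀ (E1 i)).1 = star a • (lnU u₀ (E1 i)).1 := by
    have h5 := congrArg (cD α) h3
    rwa [cD_mul hα, cD_smul, e, hfix i] at h5
  have hP : (lnU u₀ (E1 i)).1 ≠ 0 := by
    intro h0
    have h5 : star u₀.1 * (lnU u₀ (E1 i)).1 * u₀.1 = (E1 i : Ln K n).1 := by
      rw [lnU_coe]
      calc star u₀.1 * (u₀.1 * (E1 i : Ln K n).1 * star u₀.1) * u₀.1
          = (star u₀.1 * u₀.1) * (E1 i : Ln K n).1 * (star u₀.1 * u₀.1) := by
            simp only [mul_assoc]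
        _ = _ := by rw [star_gu, one_mul, mul_one]
    rw [h0, mul_zero, zero_mul] at h5
    have h6 := congrFun (congrFun h5 i) i
    rw [E1_coe, diagonal_apply_eq, if_pos rfl, Matrix.zero_apply] at h6
    exact zero_ne_one h6
  have h5 : star a = a := by
    rw [h3] at h4
    have h6 : (a - star a) • (lnU u₀ (E1 i)).1 = 0 := by rw [sub_smul, ← h4, sub_self]
    rcases smul_eq_zero.1 h6 with h7 | h7
    · exact (sub_eq_zero.1 h7).symm
    · exact absurd h7 hP
  have h6 : a * star a = 1 := by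
    have h7 : (v.1 * star v.1) i i = 1 := by
      rw [mem_unitaryGroup_iff.1 v.2, one_apply_eq]
    rw [Matrix.mul_apply, Finset.sum_eq_single i] at h7
    · exact h7
    · intro j _ hj
      rw [hd i j (Ne.symm hj), zero_mul]
    · intro h8
      exact absurd (Finset.mem_univ _) h8
  rw [h5] at h6
  exact mul_self_eq_one_iff.1 h6

variable (K) in
/-- the elements of `SU` that commute with `D` star, any invariant set of frames -/
theorem card_C_gen (hα : α * star α = 1) (F : Finset (List (Ln K n))) (hF1 : F ⊆ Fr K n)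
    (hF2 : ∀ w ∈ F, ∀ P ∈ w, cD α P.1 = P.1)
    (hF3 : ∀ u : GU K n, cD α u.1 = u.1 → ∀ w ∈ F, w.map (lnU u) ∈ F) (hne : F.Nonempty) :
    Nat.card {h : H38.SU K n // cD α (mx h) = mx h} ≤ 2 ^ n * F.card := by
  obtain ⟨w, hw⟩ := hne
  obtain ⟨u₀, hu₀⟩ := exists_lnU (hF1 hw)
  have hfix : ∀ i, cD α (lnU u₀ (E1 i)).1 = (lnU u₀ (E1 i)).1 := by
    intro i
    refine hF2 w hw _ ?_
    rw [hu₀]
    exact List.mem_map_of_mem ((List.mem_ofFn' _ _).2 ⟨i, rfl⟩)
  set C := {h : H38.SU K n // cD α (mx h) = mx h} with hC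
  have hrep : ∀ x : {x // x ∈ F}, ∃ r : C,
      (∃ g : C, w.map (lnU g.1.1) = x.1) → w.map (lnU r.1.1) = x.1 := by
    intro x
    by_cases h : ∃ g : C, w.map (lnU g.1.1) = x.1
    · obtain ⟨g, hg⟩ := h
      exact ⟨g, fun _ => hg⟩
    · refine ⟨⟨1, ?_⟩, fun h' => absurd h' h⟩
      rw [mx_one, cD_one hα]
  choose r hr using hrep
  let W : C → {x // x ∈ F} := fun h => ⟨w.map (lnU h.1.1), hF3 h.1.1 h.2 w hw⟩
  have hW : ∀ h : C, w.map (lnU (r (W h)).1.1) = w.map (lnU h.1.1) := fun h => hr (W h) ⟨h, rfl⟩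
  let g : C → GU K n := fun h => (r (W h)).1.1⁻¹ * h.1.1
  have hg1 : ∀ h i, lnU (u₀⁻¹ * g h * u₀) (E1 i) = E1 i := by
    intro h i
    have h1 : lnU (r (W h)).1.1 (lnU u₀ (E1 i)) = lnU h.1.1 (lnU u₀ (E1 i)) := by
      have h3 := hW h
      rw [hu₀, w0, List.map_ofFn, List.map_ofFn, List.map_ofFn] at h3
      exact congrFun (List.ofFn_injective h3) i
    rw [lnU_mul, lnU_mul, lnU_mul, ← h1, lnU_inv, lnU_inv]
  have hg2 : ∀ h, cD α (g h).1 = (g h).1 := by
    intro h
    show cD α (((r (W h)).1.1⁻¹ * h.1.1 : GU K n)).1 = _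
    rw [gu_mul, gu_inv, cD_mul hα, cD_star]
    have e1 : cD α (r (W h)).1.1.1 = (r (W h)).1.1.1 := (r (W h)).2
    have e2 : cD α h.1.1.1 = h.1.1.1 := h.2
    rw [e1, e2]
  have hcard : Nat.card ({x // x ∈ F} × (Fin n → Bool)) = 2 ^ n * F.card := by
    rw [Nat.card_prod, Nat.card_eq_fintype_card, Fintype.card_coe, Nat.card_eq_fintype_card,
      Fintype.card_fun, Fintype.card_bool, Fintype.card_fin, mul_comm]
  rw [← hcard]
  refine Nat.card_le_card_of_injective
    (fun h : C => (W h, fun i => decide ((u₀⁻¹ * g h * u₀ : GU K n).1 i i = 1))) ?_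
  intro h h' e
  have e1 : W h = W h' := congrArg Prod.fst e
  have e2 := congrArg Prod.snd e
  have e3 : u₀⁻¹ * g h * u₀ = u₀⁻¹ * g h' * u₀ := by
    refine diag_ext (diag_of_fix (hg1 h)) (diag_of_fix (hg1 h')) fun i => ?_
    have h3 := congrFun e2 i
    simp only [decide_eq_decide] at h3
    rcases entry_gen hα (hg2 h) hfix (hg1 h) i with h4 | h4
    · rw [h4, h3.1 h4]
    · rcases entry_gen hα (hg2 h') hfix (hg1 h') i with h5 | h5
      · rw [h5, h3.2 h5]
      · rw [h4, h5]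
  have e5 : g h = g h' := mul_left_cancel (mul_right_cancel e3)
  have e4 : h.1.1 = h'.1.1 := by
    have h3 : (r (W h)).1.1⁻¹ * h.1.1 = (r (W h')).1.1⁻¹ * h'.1.1 := e5
    rw [e1] at h3
    exact mul_left_cancel h3
  exact Subtype.ext (Subtype.ext e4)

variable (K) in
/-- the elements of `SU` that commute with `D` star up to scalars, any invariant set of frames -/
theorem card_X_le_gen {q : ℕ} (hF : Fld K q) (hα : α * star α = 1) (hn : 0 < n)
    (F : Finset (List (Ln K n))) (hF1 : F ⊆ Fr K n)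
    (hF2 : ∀ w ∈ F, ∀ P ∈ w, cD α P.1 = P.1)
    (hF3 : ∀ u : GU K n, cD α u.1 = u.1 → ∀ w ∈ F, w.map (lnU u) ∈ F) (hne : F.Nonempty) :
    Nat.card {h : H38.SU K n // ∃ a : K, cD α (mx h) = a • mx h} ≤
      n.gcd (q + 1) * (2 ^ n * F.card) := by
  have hfin1 : Finite (Matrix (Fin n) (Fin n) K) :=
    inferInstanceAs (Finite (Fin n → Fin n → K))
  have hfin2 : Finite (unitaryGroup (Fin n) K) := Subtype.finite
  set X := {h : H38.SU K n // ∃ a : K, cD α (mx h) = a • mx h} with hX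
  set C := {h : H38.SU K n // cD α (mx h) = mx h} with hC
  let Z : Set K := {c : K | c ^ (n.gcd (q + 1)) = 1}
  have hZ : Nat.card Z ≤ n.gcd (q + 1) :=
    H687.card_roots_le (Nat.gcd_pos_of_pos_left _ hn)
  choose a ha using fun h : X => h.2
  have haZ : ∀ h, a h ∈ Z := by
    intro h
    obtain ⟨h1, h2⟩ := scal_facts hα hn (ha h)
    have h3 : (a h) ^ (q + 1) = 1 := by rw [pow_succ, ← hF.2.2, mul_comm]; exact h2
    exact pow_gcd_eq_one.2 ⟨h1, h3⟩
  have hrep : ∀ z : K, ∃ r : X, (∃ g : X, a g = z) → a r = z := by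
    intro z
    by_cases h : ∃ g : X, a g = z
    · obtain ⟨g, hg⟩ := h
      exact ⟨g, fun _ => hg⟩
    · exact ⟨⟨1, 1, by rw [mx_one, cD_one hα, one_smul]⟩, fun h' => absurd h' h⟩
  choose r hr using hrep
  have hra : ∀ h : X, a (r (a h)) = a h := fun h => hr _ ⟨h, rfl⟩
  have hc : ∀ h : X, cD α (mx (h.1 * (r (a h)).1⁻¹)) = mx (h.1 * (r (a h)).1⁻¹) := by
    intro h
    rw [mx_mul, mx_inv, cD_mul hα, cD_star, ha h, ha (r (a h)), hra, star_smul,
      smul_mul_smul_comm, (scal_facts hα hn (ha h)).2, one_smul]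
  calc Nat.card X ≤ Nat.card (Z × C) := by
        refine Nat.card_le_card_of_injective
          (fun h : X => ((⟨a h, haZ h⟩ : Z), (⟨h.1 * (r (a h)).1⁻¹, hc h⟩ : C))) ?_
        intro h h' e
        have e1 : a h = a h' := congrArg (fun x : Z × C => x.1.1) e
        have e2 : h.1 * (r (a h)).1⁻¹ = h'.1 * (r (a h')).1⁻¹ :=
          congrArg (fun x : Z × C => x.2.1) e
        rw [e1] at e2
        exact Subtype.ext (mul_right_cancel e2)
    _ = Nat.card Z * Nat.card C := Nat.card_prod _ _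
    _ ≤ _ := Nat.mul_le_mul hZ (card_C_gen K hα F hF1 hF2 hF3 hne)

omit [Fintype K] in
/-- `α = 1` -/
lemma cD_one_eq (A : Matrix (Fin n) (Fin n) K) : cD 1 A = A.map star := by
  have h1 : Da n (1 : K) = 1 := by
    rw [Da, ← diagonal_one]
    congr 1
    funext i
    split_ifs <;> rfl
  rw [cD, h1, star_one, one_mul, mul_one]

variable (K) in
/-- the real elements of `SU` up to scalars, any invariant set of real frames -/
theorem card_X_le_real {q : ℕ} (hF : Fld K q) (hn : 0 < n)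
    (F : Finset (List (Ln K n))) (hF1 : F ⊆ Fr K n)
    (hF2 : ∀ w ∈ F, ∀ P ∈ w, P.1.map star = P.1)
    (hF3 : ∀ u : GU K n, u.1.map star = u.1 → ∀ w ∈ F, w.map (lnU u) ∈ F) (hne : F.Nonempty) :
    Nat.card {h : H38.SU K n // ∃ a : K, (mx h).map star = a • mx h} ≤
      n.gcd (q + 1) * (2 ^ n * F.card) := by
  have h1 := card_X_le_gen K (α := 1) hF (by rw [star_one, mul_one]) hn F hF1
    (fun w hw P hP => by rw [cD_one_eq]; exact hF2 w hw P hP)
    (fun u hu => by rw [cD_one_eq] at hu; exact hF3 u hu) hne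
  simp only [cD_one_eq] at h1
  exact h1

end

end

end Vale.Agent.P240.R2.H829.EO
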