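import Vale.Agent.P240.R2.H401.EDefs
import Vale.Agent.P240.R2.H938.W6

/-!
Even orthogonal groups, package II (StmtEII of helper401), part 1: the group `S1` generated by `SOm`
and the reflections in the letters, and the extension of `ε` to it.
-/

set_option autoImplicit false

namespace Vale.Agent.P240.R2.H829.EP

open Matrix Vale.Agent.P240.R2.AS Vale.Agent.P240.R2.H38 Vale.Agent.P240.K
open Vale.Agent.P240.R2.H938 (TD TC mem_TD Pack cjH mx_cjH)
open Vale.Agent.P240.R2.H296.O (SOm mem_SOm ab ab_gmap exists_mv hf_std)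
open Vale.Agent.P240.R2.H387 (hf)
open Vale.Agent.P240.R2.H401.E
open scoped Classical

universe u v w

noncomputable section

section
variable {K : Type u} [Field K] [StarRing K] {n m : ℕ}

lemma neg_one_norm : (-1 : K) * star (-1 : K) = 1 := by
  rw [star_neg, star_one]; ring

omit [StarRing K] in
lemma neg_one_ne_one (h2 : (2 : K) ≠ 0) : (-1 : K) ≠ 1 := by
  intro h
  apply h2
  linear_combination -h

/-- the determinant -/
def detM (K : Type u) [Field K] [StarRing K] (n : ℕ) : GU K n →* K where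
  toFun g := g.1.det
  map_one' := det_one
  map_mul' _ _ := det_mul _ _

/-- `SOm` has determinant `1` for `n` even -/
lemma det_SOm (hs : ∀ x : K, star x = x) (h2 : (2 : K) ≠ 0) (hn0 : 0 < n) (hn : Even n)
    {g : GU K n} (hg : g ∈ SOm K n) : g.1.det = 1 := by
  let ψ : PGU K n →* Kˣ := QuotientGroup.lift (Subgroup.center (GU K n)) (detM K n).toHomUnits (by
    intro z hz
    obtain ⟨c, hc⟩ := (H296.mem_center_iff (neg_one_ne_one h2) neg_one_norm z).1 hz
    have h3 : c * c = 1 := by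
      have h4 := gu_star z
      rw [hc, star_smul, star_one, smul_mul_smul_comm, one_mul, hs] at h4
      have h5 := congrFun (congrFun h4 ⟨0, hn0⟩) ⟨0, hn0⟩
      rwa [Matrix.smul_apply, one_apply_eq, smul_eq_mul, mul_one] at h5
    rw [MonoidHom.mem_ker]
    apply Units.ext
    show z.1.det = 1
    obtain ⟨k, hk⟩ := hn
    rw [hc, det_smul, det_one, Fintype.card_fin, mul_one, hk, ← two_mul, pow_mul, pow_two, h3,
      one_pow])
  have h3 : (QuotientGroup.mk g : PGU K n) ∈ commutator (PGU K n) := hg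
  have h4 := Abelianization.commutator_subset_ker ψ h3
  exact congrArg Units.val (MonoidHom.mem_ker.1 h4)

lemma sla_sq : sla K m * sla K m = 1 := by
  apply Subtype.ext
  show (sla K m).1 * (sla K m).1 = 1
  rw [sla_coe, diagonal_mul_diagonal, ← diagonal_one]
  congr 1
  funext i
  by_cases hi : i = Fin.last m
  · simp [hi]
  · simp [hi]

lemma sla_inv : (sla K m)⁻¹ = sla K m := inv_eq_of_mul_eq_one_left sla_sq

lemma det_sla : (sla K m).1.det = -1 := by
  rw [sla_coe, det_diagonal, Finset.prod_ite_eq' Finset.univ (Fin.last m) (fun _ => (-1 : K))]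
  simp

lemma sla_not_mem (hs : ∀ x : K, star x = x) (h2 : (2 : K) ≠ 0) (hm : Odd m) :
    sla K m ∉ SOm K (m + 1) := by
  intro h
  have h1 := det_SOm hs h2 (Nat.succ_pos m) hm.add_one h
  rw [det_sla] at h1
  exact neg_one_ne_one h2 h1

/-- conjugates differ by elements of `SOm` -/
lemma comm_mem (u g : GU K n) : u * g * u⁻¹ * g⁻¹ ∈ SOm K n := by
  rw [mem_SOm, map_mul, map_mul, map_mul, map_inv, map_inv, mul_comm (ab K n u), mul_inv_cancel_right,
    mul_inv_cancel]

lemma SOm_conj (u : GU K n) {g : GU K n} (hg : g ∈ SOm K n) : u * g * u⁻¹ ∈ SOm K n :=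
  SOm_normal.conj_mem g hg u

lemma mem_S1 {g : GU K (m + 1)} :
    g ∈ S1 K m ↔ g ∈ SOm K (m + 1) ∨ g * sla K m ∈ SOm K (m + 1) := by
  have := SOm_normal (K := K) (n := m + 1)
  constructor
  · intro hg
    obtain ⟨y, hy, z, hz, rfl⟩ := (Subgroup.mem_sup_of_normal_left).1 hg
    obtain ⟨k, rfl⟩ := hz
    have h0 : sla K m ^ (2 : ℤ) = 1 := by
      rw [zpow_two, sla_sq]
    rcases Int.even_or_odd' k with ⟨j, rfl | rfl⟩
    · left
      show y * sla K m ^ (2 * j) ∈ _
      rw [_root_.zpow_mul, h0, _root_.one_zpow, mul_one]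
      exact hy
    · right
      show y * sla K m ^ (2 * j + 1) * sla K m ∈ _
      rw [_root_.zpow_add, _root_.zpow_mul, h0, _root_.one_zpow, one_mul, _root_.zpow_one, mul_assoc, sla_sq,
        mul_one]
      exact hy
  · rintro (hg | hg)
    · exact Subgroup.mem_sup_left hg
    · have h1 : g = g * sla K m * sla K m := by rw [mul_assoc, sla_sq, mul_one]
      rw [h1]
      exact Subgroup.mul_mem _ (Subgroup.mem_sup_left hg)
        (Subgroup.mem_sup_right (Subgroup.mem_zpowers _))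

lemma SOm_le_S1 : SOm K (m + 1) ≤ S1 K m := le_sup_left

lemma sla_mem : sla K m ∈ S1 K m := Subgroup.mem_sup_right (Subgroup.mem_zpowers _)

lemma S1_conj : ∀ u : GU K (m + 1), ∀ g ∈ S1 K m, u * g * u⁻¹ ∈ S1 K m := by
  intro u g hg
  have h1 : u * g * u⁻¹ = (u * g * u⁻¹ * g⁻¹) * g := by group
  rw [h1]
  exact Subgroup.mul_mem _ (SOm_le_S1 (comm_mem u g)) hg

variable {G : Type v} [Group G]

/-- the data of the package -/
structure P2 (L : Subgroup G) (ε : SOm K (m + 1) →* G) (e : G) : Prop where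
  hs : ∀ x : K, star x = x
  h2 : (2 : K) ≠ 0
  modd : Odd m
  range : ε.range = L
  ker : ∀ g : SOm K (m + 1), ε g = 1 ↔ ∃ a : K, mx g = a • (1 : Matrix (Fin (m + 1)) (Fin (m + 1)) K)
  ep : e ^ 2 = 1
  act : ActsS ε e (sla K m) (RingEquiv.refl K)
  not : e ∉ L

variable {L : Subgroup G} {ε : SOm K (m + 1) →* G} {e : G}

/-- the homomorphism, extended by `1` -/
def eT (ε : SOm K (m + 1) →* G) (g : GU K (m + 1)) : G :=
  if h : g ∈ SOm K (m + 1) then ε ⟨g, h⟩ else 1

lemma eT_of (ε : SOm K (m + 1) →* G) {g : GU K (m + 1)} (h : g ∈ SOm K (m + 1)) :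
    eT ε g = ε ⟨g, h⟩ := dif_pos h

lemma eT_coe (ε : SOm K (m + 1) →* G) (x : SOm K (m + 1)) : eT ε x.1 = ε x := dif_pos x.2

lemma eT_one (ε : SOm K (m + 1) →* G) : eT ε 1 = 1 := by
  rw [eT_of ε (SOm K (m + 1)).one_mem]
  exact map_one ε

lemma eT_mul (ε : SOm K (m + 1) →* G) {g g' : GU K (m + 1)} (h : g ∈ SOm K (m + 1))
    (h' : g' ∈ SOm K (m + 1)) : eT ε (g * g') = eT ε g * eT ε g' := by
  rw [eT_of ε h, eT_of ε h', eT_of ε ((SOm K (m + 1)).mul_mem h h'), ← map_mul]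
  rfl

lemma eT_range (ε : SOm K (m + 1) →* G) (g : GU K (m + 1)) : eT ε g ∈ ε.range := by
  rw [eT]
  split_ifs
  · exact ⟨_, rfl⟩
  · exact ε.range.one_mem

lemma P2.e_inv (h : P2 L ε e) : e⁻¹ = e := by
  rw [inv_eq_iff_mul_eq_one, ← pow_two, h.ep]

omit [StarRing K] in
lemma map_refl_mat (A : Matrix (Fin n) (Fin n) K) : A.map (RingEquiv.refl K) = A := by
  ext i j; simp

lemma P2.act' (h : P2 L ε e) {g : GU K (m + 1)} (hg : g ∈ SOm K (m + 1)) :
    e * eT ε g = eT ε (sla K m * g * sla K m) * e := by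
  have h1 : sla K m * g * sla K m ∈ SOm K (m + 1) := by
    have h3 := SOm_conj (sla K m) hg
    rwa [sla_inv] at h3
  have h3 := h.act.2 ⟨g, hg⟩ ⟨_, h1⟩ (by
    rw [map_refl_mat]
    show (sla K m * g * sla K m).1 = (sla K m).1 * g.1 * star (sla K m).1
    rw [← gu_inv, sla_inv]
    rfl)
  rw [eT_of ε hg, eT_of ε h1, ← h3, inv_mul_cancel_right]

/-- the value of the homomorphism -/
def fv (ε : SOm K (m + 1) →* G) (e : G) (g : GU K (m + 1)) : G :=
  if g ∈ SOm K (m + 1) then eT ε g else eT ε (g * sla K m) * e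

lemma fv_in {g : GU K (m + 1)} (hg : g ∈ SOm K (m + 1)) : fv ε e g = eT ε g := if_pos hg

lemma P2.fv_out (h : P2 L ε e) {g : GU K (m + 1)} (hg : g * sla K m ∈ SOm K (m + 1)) :
    fv ε e g = eT ε (g * sla K m) * e := by
  refine if_neg fun h1 => sla_not_mem h.hs h.h2 h.modd ?_
  have h3 := Subgroup.mul_mem _ (Subgroup.inv_mem _ h1) hg
  rwa [inv_mul_cancel_left] at h3

/-- the homomorphism of the package -/
def P2.hom (h : P2 L ε e) : S1 K m →* G where
  toFun g := fv ε e g.1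
  map_one' := by
    show fv ε e 1 = 1
    rw [fv_in (Subgroup.one_mem _), eT_one]
  map_mul' a b := by
    show fv ε e (a.1 * b.1) = fv ε e a.1 * fv ε e b.1
    rcases mem_S1.1 a.2 with ha | ha
    · rcases mem_S1.1 b.2 with hb | hb
      · rw [fv_in ha, fv_in hb, fv_in (Subgroup.mul_mem _ ha hb), eT_mul ε ha hb]
      · have h1 : a.1 * b.1 * sla K m = a.1 * (b.1 * sla K m) := mul_assoc _ _ _
        rw [fv_in ha, h.fv_out hb, h.fv_out (by rw [h1]; exact Subgroup.mul_mem _ ha hb), h1,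
          eT_mul ε ha hb, mul_assoc]
    · rcases mem_S1.1 b.2 with hb | hb
      · have h0 : sla K m * b.1 * sla K m ∈ SOm K (m + 1) := by
          have h3 := SOm_conj (sla K m) hb
          rwa [sla_inv] at h3
        have h1 : a.1 * b.1 * sla K m = (a.1 * sla K m) * (sla K m * b.1 * sla K m) := by
          calc a.1 * b.1 * sla K m = a.1 * (sla K m * sla K m) * b.1 * sla K m := by
                rw [sla_sq, mul_one]
            _ = _ := by simp only [mul_assoc]
        rw [fv_in hb, h.fv_out ha, h.fv_out (by rw [h1]; exact Subgroup.mul_mem _ ha h0), h1,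
          eT_mul ε ha h0, mul_assoc (eT ε (a.1 * sla K m)), ← h.act' hb, ← mul_assoc]
      · have h0 : sla K m * (b.1 * sla K m) * sla K m ∈ SOm K (m + 1) := by
          have h3 := SOm_conj (sla K m) hb
          rwa [sla_inv] at h3
        have h1 : a.1 * b.1 = (a.1 * sla K m) * (sla K m * (b.1 * sla K m) * sla K m) := by
          calc a.1 * b.1 = a.1 * (sla K m * sla K m) * b.1 * (sla K m * sla K m) := by
                rw [sla_sq, mul_one, mul_one]
            _ = _ := by simp only [mul_assoc]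
        rw [h.fv_out hb, h.fv_out ha, fv_in (by rw [h1]; exact Subgroup.mul_mem _ ha h0), h1,
          eT_mul ε ha h0]
        have h3 := h.act' hb
        have h5 : ∀ x y : G, x * y = x * (y * e) * e := by
          intro x y
          rw [mul_assoc x, mul_assoc y, ← pow_two, h.ep, mul_one]
        rw [h5, ← h3]
        simp only [mul_assoc]

lemma P2.hom_in (h : P2 L ε e) (g : S1 K m) (hg : g.1 ∈ SOm K (m + 1)) :
    h.hom g = ε ⟨g.1, hg⟩ := by
  show fv ε e g.1 = _
  rw [fv_in hg, eT_of ε hg]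

lemma P2.hom_out (h : P2 L ε e) (g : S1 K m) (hg : g.1 * sla K m ∈ SOm K (m + 1)) :
    h.hom g = ε ⟨g.1 * sla K m, hg⟩ * e := by
  show fv ε e g.1 = _
  rw [h.fv_out hg, eT_of ε hg]

lemma P2.hom_coe (h : P2 L ε e) (x : SOm K (m + 1)) : h.hom ⟨x.1, SOm_le_S1 x.2⟩ = ε x :=
  h.hom_in _ x.2

lemma P2.hom_sla (h : P2 L ε e) : h.hom ⟨sla K m, sla_mem⟩ = e := by
  have h0 : sla K m * sla K m ∈ SOm K (m + 1) := by rw [sla_sq]; exact Subgroup.one_mem _
  have h1 : (⟨sla K m * sla K m, h0⟩ : SOm K (m + 1)) = 1 := Subtype.ext sla_sq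
  have h3 : h.hom ⟨sla K m, sla_mem⟩ = ε ⟨sla K m * sla K m, h0⟩ * e :=
    h.hom_out ⟨sla K m, sla_mem⟩ h0
  rw [h3, h1, map_one, one_mul]

lemma P2.range_hom (h : P2 L ε e) : h.hom.range = L ⊔ Subgroup.zpowers e := by
  apply le_antisymm
  · rintro _ ⟨g, rfl⟩
    rcases mem_S1.1 g.2 with hg | hg
    · rw [h.hom_in g hg, ← h.range]
      exact Subgroup.mem_sup_left ⟨_, rfl⟩
    · rw [h.hom_out g hg, ← h.range]
      exact Subgroup.mul_mem _ (Subgroup.mem_sup_left ⟨_, rfl⟩)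
        (Subgroup.mem_sup_right (Subgroup.mem_zpowers e))
  · refine sup_le (fun y hy => ?_) ?_
    · rw [← h.range] at hy
      obtain ⟨x, rfl⟩ := hy
      exact ⟨_, h.hom_coe x⟩
    · rw [Subgroup.zpowers_le]
      exact ⟨_, h.hom_sla⟩

lemma P2.ker_hom (h : P2 L ε e) (g : S1 K m) :
    h.hom g = 1 ↔ ∃ a : K, mx g = a • (1 : Matrix (Fin (m + 1)) (Fin (m + 1)) K) := by
  constructor
  · intro h1
    rcases mem_S1.1 g.2 with hg | hg
    · rw [h.hom_in g hg, h.ker] at h1
      exact h1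
    · exfalso
      rw [h.hom_out g hg] at h1
      apply h.not
      rw [eq_inv_of_mul_eq_one_right h1, ← h.range]
      exact Subgroup.inv_mem _ ⟨_, rfl⟩
  · rintro ⟨a, ha⟩
    have hg : g.1 ∈ SOm K (m + 1) := by
      have h1 : g.1 ∈ Subgroup.center (GU K (m + 1)) :=
        (H296.mem_center_iff (neg_one_ne_one h.h2) neg_one_norm g.1).2 ⟨a, ha⟩
      have h3 : (QuotientGroup.mk g.1 : PGU K (m + 1)) = 1 := (QuotientGroup.eq_one_iff g.1).2 h1
      show (QuotientGroup.mk g.1 : PGU K (m + 1)) ∈ commutator (PGU K (m + 1))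
      rw [h3]
      exact Subgroup.one_mem _
    rw [h.hom_in g hg, h.ker]
    exact ⟨a, ha⟩

end

section
variable {K : Type u} [Field K] [Fintype K] [StarRing K] {n m : ℕ}

omit [Fintype K] in
lemma vecM_conj (u : GU K n) (x : Fin n → K) :
    u.1 * vecMulVec x (star x) * star u.1 = vecMulVec (u.1 *ᵥ x) (star (u.1 *ᵥ x)) := by
  rw [mul_vecMulVec, vecMulVec_mul, star_mulVec, ← star_eq_conjTranspose]

omit [Fintype K] in
/-- every letter is an image of the last one -/
lemma exists_last (hs : ∀ x : K, star x = x) (h2 : (2 : K) ≠ 0) (P : Ln K (m + 1)) :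
    ∃ u : GU K (m + 1), lnU u (E1 (Fin.last m)) = P := by
  obtain ⟨x, hx, hP⟩ := P.2
  have h1 : hf (Pi.single (Fin.last m) (1 : K) : Fin (m + 1) → K) (Pi.single (Fin.last m) 1) = 1 := by
    rw [hf_std, if_pos rfl]
  have h3 : hf x x = 1 := hx
  obtain ⟨r, -, hr, -⟩ := exists_mv hs h2 (v := Pi.single (Fin.last m) (1 : K)) (w := x)
    (by rw [h1, h3]) (by rw [h1]; exact one_ne_zero)
  refine ⟨r, Subtype.ext ?_⟩
  rw [lnU_coe, E1_coe, ← vec_e1, vecM_conj, hr, hP]

lemma sM_last : sM (-1 : K) 1 [E1 (Fin.last m)] = (sla K m).1 := by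
  rw [sM_E1, one_smul, sla_coe]

/-- the reflections in words -/
lemma exists_S1 (hs : ∀ x : K, star x = x) (h2 : (2 : K) ≠ 0) {w : List (Ln K (m + 1))}
    (hw : Orth w) : ∃ g : S1 K m, mx g = sM (-1 : K) 1 w := by
  induction w with
  | nil => exact ⟨1, by rw [mx_one, sM_nil]⟩
  | cons P w ih =>
    obtain ⟨g, hg⟩ := ih (List.pairwise_cons.1 hw).2
    obtain ⟨u, rfl⟩ := exists_last hs h2 P
    refine ⟨⟨u * sla K m * u⁻¹, S1_conj u _ sla_mem⟩ * g, ?_⟩
    have h1 : lnU u (E1 (Fin.last m)) :: w = [lnU u (E1 (Fin.last m))] ++ w := rfl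
    have h3 : [lnU u (E1 (Fin.last m))] = [E1 (Fin.last m)].map (lnU u) := rfl
    rw [mx_mul, hg, h1, H38.sM_append hw, h3, sM_map, sM_last]
    rfl

variable {G : Type v} [Group G]
variable {L : Subgroup G} {ε : SOm K (m + 1) →* G} {e : G}

instance fact2 : Fact (Nat.Prime 2) := ⟨Nat.prime_two⟩

/-- **the package** -/
theorem P2.pack [Finite G] (h : P2 L ε e) : Pack 2 (-1 : K) (S1 K m) h.hom := by
  have hsS : ∀ {w : List (Ln K (m + 1))}, Orth w →
      mx (sS (S1 K m) (-1) 1 w) = sM (-1 : K) 1 w := by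
    intro w hw
    rw [sS, dif_pos (exists_S1 h.hs h.h2 hw)]
    exact (exists_S1 h.hs h.h2 hw).choose_spec
  have hp : (-1 : K) ^ 2 = 1 := by ring
  refine ⟨by have := h.modd.pos; omega, fun w hw => exists_S1 h.hs h.h2 hw, ?_,
    fun g hg => (h.ker_hom g).1 hg⟩
  refine H938.comb_lift (neg_one_ne_one h.h2) neg_one_norm h.ker_hom
    (fun w => sS (S1 K m) (-1) 1 w) ?_
  have hc := H938.comb_eW (n := m + 1) hp (neg_one_ne_one h.h2) neg_one_norm
  refine H38.comb_of (MonoidHom.id (PGU K (m + 1))) Function.injective_id (fun w hw => ?_) hc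
  refine congrArg QuotientGroup.mk (Subtype.ext ?_)
  show mx (sS (S1 K m) (-1) 1 w) = _
  rw [hsS hw, H938.sM_one, H687.eU_val (H687.isPr_sm hw) neg_one_norm]

omit [Fintype K] in
lemma gmap_mul' {σ : K ≃+* K} (hσ : ∀ a, σ (star a) = star (σ a)) (x y : GU K n) :
    gmap σ hσ (x * y) = gmap σ hσ x * gmap σ hσ y := by
  apply Subtype.ext
  show (x.1 * y.1).map σ = x.1.map σ * y.1.map σ
  rw [map_mul_mat]

omit [Fintype K] in
lemma gmap_one' {σ : K ≃+* K} (hσ : ∀ a, σ (star a) = star (σ a)) :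
    gmap σ hσ (1 : GU K n) = 1 := by
  apply Subtype.ext
  show (1 : Matrix (Fin n) (Fin n) K).map σ = 1
  rw [map_one_mat]

omit [Fintype K] in
lemma gmap_inv' {σ : K ≃+* K} (hσ : ∀ a, σ (star a) = star (σ a)) (x : GU K n) :
    gmap σ hσ x⁻¹ = (gmap σ hσ x)⁻¹ := by
  rw [eq_inv_iff_mul_eq_one, ← gmap_mul', inv_mul_cancel, gmap_one']

omit [Fintype K] in
lemma gmap_sla {σ : K ≃+* K} (hσ : ∀ a, σ (star a) = star (σ a)) :
    gmap σ hσ (sla K m) = sla K m := by
  apply Subtype.ext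
  rw [gmap_coe, sla_coe, diagonal_map (map_zero σ)]
  congr 1
  funext i
  by_cases hi : i = Fin.last m
  · simp [hi]
  · simp [hi]

omit [Fintype K] in
/-- semilinear elements that commute with `e` -/
lemma P2.acts (h : P2 L ε e) {t : G} {g₀ : GU K (m + 1)} {σ : K ≃+* K}
    (ht : ActsS ε t g₀ σ) (hte : t * e = e * t) (hs : g₀ * sla K m = sla K m * g₀) :
    ActsS h.hom t g₀ σ := by
  refine ⟨ht.1, fun x x' hx => ?_⟩
  have h4 : (x'.1 : GU K (m + 1)) = g₀ * gmap σ ht.1 x.1 * g₀⁻¹ := Subtype.ext hx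
  -- `gmap` and membership
  have hin : ∀ {y : GU K (m + 1)}, y ∈ SOm K (m + 1) → gmap σ ht.1 y ∈ SOm K (m + 1) := by
    intro y hy
    exact H829.Sc_map ⟨σ, ht.1⟩ y hy
  rcases mem_S1.1 x.2 with hg | hg
  · have hg' : x'.1 ∈ SOm K (m + 1) := by
      rw [h4]
      exact SOm_conj _ (hin hg)
    rw [h.hom_in x hg, h.hom_in x' hg']
    exact ht.2 _ _ hx
  · have h5 : x'.1 * sla K m = g₀ * gmap σ ht.1 (x.1 * sla K m) * g₀⁻¹ := by
      have h6 : g₀⁻¹ * sla K m = sla K m * g₀⁻¹ := by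
        rw [inv_mul_eq_iff_eq_mul, ← mul_assoc, hs, mul_inv_cancel_right]
      rw [gmap_mul', gmap_sla, h4, mul_assoc, h6]
      simp only [mul_assoc]
    have hg' : x'.1 * sla K m ∈ SOm K (m + 1) := by
      rw [h5]
      exact SOm_conj _ (hin hg)
    rw [h.hom_out x hg, h.hom_out x' hg']
    have h6 := ht.2 ⟨_, hg⟩ ⟨_, hg'⟩ (congrArg Subtype.val h5)
    rw [← h6]
    calc t * (ε ⟨x.1 * sla K m, hg⟩ * e) * t⁻¹
        = t * ε ⟨x.1 * sla K m, hg⟩ * (e * t⁻¹) := by simp only [mul_assoc]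
      _ = t * ε ⟨x.1 * sla K m, hg⟩ * (t⁻¹ * e) := by
          congr 1
          rw [eq_inv_mul_iff_mul_eq, ← mul_assoc, hte, mul_inv_cancel_right]
      _ = _ := by simp only [mul_assoc]

omit [Fintype K] in
/-- the group of a frame -/
lemma P2.au (h : P2 L ε e) (v : GU K (m + 1)) :
    (TD K 2 (S1 K m)).map (h.hom.comp (cjH S1_conj v)) =
      Ae ε v ⊔ Subgroup.zpowers (h.hom (cjH S1_conj v ⟨sla K m, sla_mem⟩)) := by
  have hcj : ∀ x : SOm K (m + 1),
      h.hom (cjH S1_conj v ⟨x.1, SOm_le_S1 x.2⟩) = ε (cjO v x) := by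
    intro x
    exact h.hom_coe (cjO v x)
  apply le_antisymm
  · rintro _ ⟨g, ⟨d', h1, h2⟩, rfl⟩
    rcases mem_S1.1 g.2 with hg | hg
    · refine Subgroup.mem_sup_left ⟨⟨g.1, hg⟩, ⟨d', h1, h2⟩, ?_⟩
      exact (hcj ⟨g.1, hg⟩).symm
    · set x : SOm K (m + 1) := ⟨g.1 * sla K m, hg⟩ with hx
      have hgx : g = ⟨x.1, SOm_le_S1 x.2⟩ * ⟨sla K m, sla_mem⟩ := by
        apply Subtype.ext
        show g.1 = g.1 * sla K m * sla K m
        rw [mul_assoc, sla_sq, mul_one]
      rw [hgx, map_mul]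
      refine Subgroup.mul_mem _ (Subgroup.mem_sup_left ?_) (Subgroup.mem_sup_right
        (Subgroup.mem_zpowers _))
      refine ⟨x, ⟨fun i => d' i * (if i = Fin.last m then -1 else 1), fun i => ?_, ?_⟩,
        (hcj x).symm⟩
      · rw [mul_pow, h1, one_mul]
        by_cases hi : i = Fin.last m
        · simp [hi]
        · simp [hi]
      · show g.1.1 * (sla K m).1 = _
        have h3 : g.1.1 = diagonal d' := h2
        rw [h3, sla_coe, diagonal_mul_diagonal]
  · refine sup_le ?_ ?_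
    · rintro _ ⟨x, ⟨d', h1, h2⟩, rfl⟩
      exact ⟨⟨x.1, SOm_le_S1 x.2⟩, ⟨d', h1, h2⟩, hcj x⟩
    · rw [Subgroup.zpowers_le]
      refine ⟨⟨sla K m, sla_mem⟩, ⟨fun i => if i = Fin.last m then (-1 : K) else 1, fun i => ?_,
        sla_coe m⟩, rfl⟩
      by_cases hi : i = Fin.last m
      · simp [hi]
      · simp [hi]

end

end

end Vale.Agent.P240.R2.H829.EP
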