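import Vale.Agent.P240.R2.H829.Cnt3

/-!
Diagonal orthogonal matrices of determinant `1` are coboundaries for the field automorphism of
order `2`, any `n`; the count for `n` even (P240, even orthogonal line).
-/

set_option autoImplicit false

namespace Vale.Agent.P240.R2.H829

open Matrix Vale.Agent.P240.R2.AS Vale.Agent.P240.R2.H687
open Vale.Agent.P240.R2.H387 (Fs mem_Fs)
open scoped Classical

universe u v w

noncomputable section

section
variable {K : Type u} [Field K] [Fintype K] {q : ℕ}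

/-- **Diagonal matrices of determinant `1` as coboundaries**, without scalars, for every `n`. -/
theorem exists_v_one {s : K ≃+* K} (hq : Odd q) (hK : Nat.card K = q ^ 2)
    (hsq : ∀ x : K, s x = x ^ q) {n : ℕ} (a : Fin n → K) (ha : ∀ i, a i = 1 ∨ a i = -1)
    (ha1 : ∏ i, a i = 1) :
    ∃ v : Matrix (Fin n) (Fin n) K, vᵀ * v = 1 ∧ v.map s = diagonal a * v := by
  obtain ⟨θ, hθ0, hθ⟩ := exists_theta hq hK hsq
  have h2 := two_ne_of (K := K) hq hK
  let K₀ : Subfield K := RingHom.eqLocusField (s : K →+* K) (RingHom.id K)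
  have hK₀ : ∀ x : K, x ∈ K₀ ↔ s x = x := fun x => Iff.rfl
  let b : Fin n → K := fun i => if a i = 1 then 1 else θ
  have hb0 : ∀ i, b i ≠ 0 := by
    intro i
    simp only [b]
    split_ifs
    · exact one_ne_zero
    · exact hθ0
  have hb : ∀ i, s (b i) = a i * b i := by
    intro i
    simp only [b]
    split_ifs with h
    · rw [map_one, h, one_mul]
    · rw [hθ, (ha i).resolve_left h, neg_one_mul]
  have haa : ∀ i, a i * a i = 1 := by
    intro i
    rcases ha i with h | h <;> rw [h] <;> ring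
  have hd : ∀ i, b i * b i ∈ K₀ := by
    intro i
    rw [hK₀, map_mul, hb]
    linear_combination (b i * b i) * haa i
  let d : Fin n → K₀ := fun i => ⟨b i * b i, hd i⟩
  have hd0 : ∀ i, d i ≠ 0 := by
    intro i h
    have h1 : b i * b i = 0 := congrArg Subtype.val h
    exact (mul_self_ne_zero.2 (hb0 i)) h1
  have h2' : (2 : K₀) ≠ 0 := by
    intro h
    apply h2
    have h3 := congrArg K₀.subtype h
    rwa [map_ofNat, map_zero] at h3
  have hδ : (∏ i, b i) ∈ K₀ := by
    rw [hK₀, map_prod, Finset.prod_congr rfl fun i _ => hb i, Finset.prod_mul_distrib, ha1,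
      one_mul]
  obtain ⟨M, hM⟩ := H281.exists_orthonormal (F := K₀) h2' _ d hd0 (by
      refine ⟨⟨∏ i, b i, hδ⟩, ?_⟩
      apply Subtype.ext
      have h3 : ((∏ i, d i : K₀) : K) = ∏ i, ((d i : K₀) : K) :=
        map_prod K₀.subtype d Finset.univ
      rw [h3]
      show ∏ i, b i * b i = (∏ i, b i) * ∏ i, b i
      rw [Finset.prod_mul_distrib]) rfl
  let N : Matrix (Fin n) (Fin n) K := M.map K₀.subtype
  have hN : Nᵀ * diagonal (fun i => ((d i : K₀) : K)) * N = 1 := by
    have h1 := congrArg (fun A => K₀.subtype.mapMatrix A) hM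
    simp only [map_mul, map_one, RingHom.mapMatrix_apply] at h1
    rw [← h1]
    congr 2
    rw [diagonal_map (map_zero _)]
    rfl
  have hNs : ∀ i j, s (N i j) = N i j := fun i j => (M i j).2
  refine ⟨diagonal b * N, ?_, ?_⟩
  · rw [transpose_mul, diagonal_transpose, ← hN, mul_assoc, ← mul_assoc (diagonal b),
      diagonal_mul_diagonal, ← mul_assoc]
  · ext i j
    rw [map_apply, diagonal_mul, diagonal_mul, diagonal_mul, map_mul, hb, hNs, mul_assoc]

end

section
variable {K : Type u} [Field K] [StarRing K] {n : ℕ}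

/-- the diagonals `±1` with first entry `1` and determinant `1` -/
def Dg1 (K : Type u) [Field K] (n : ℕ) : Finset (Fin n → K) :=
  (Dg K n).filter fun a => ∏ i, a i = 1

omit [StarRing K] in
lemma mem_Dg1 {a : Fin n → K} : a ∈ Dg1 K n ↔ a ∈ Dg K n ∧ ∏ i, a i = 1 := by
  rw [Dg1, Finset.mem_filter]

omit [StarRing K] in
lemma card_Dg1 (h2 : (2 : K) ≠ 0) (hn : 2 ≤ n) : (Dg1 K n).card = 2 ^ (n - 2) := by
  have h0 := card_Dg (K := K) h2 (n := n) (by omega)
  have h3 : (1 : K) ≠ -1 := by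
    intro h
    apply h2
    linear_combination h
  let i1 : Fin n := ⟨1, by omega⟩
  -- changing the sign of the second entry exchanges the two classes
  let f : (Fin n → K) → (Fin n → K) := fun a => Function.update a i1 (-a i1)
  have hf : ∀ a, f (f a) = a := by
    intro a
    funext i
    by_cases h : i = i1
    · subst h; simp [f]
    · simp [f, Function.update_of_ne h]
  have hprod : ∀ a : Fin n → K, ∏ i, f a i = - ∏ i, a i := by
    intro a
    rw [← Finset.mul_prod_erase Finset.univ (f a) (Finset.mem_univ i1),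
      ← Finset.mul_prod_erase Finset.univ a (Finset.mem_univ i1)]
    have h4 : ∏ i ∈ Finset.univ.erase i1, f a i = ∏ i ∈ Finset.univ.erase i1, a i :=
      Finset.prod_congr rfl fun i hi => by
        simp only [f]
        rw [Function.update_of_ne (Finset.ne_of_mem_erase hi)]
    rw [h4]
    simp only [f, Function.update_self]
    ring
  have hmem : ∀ a ∈ Dg K n, f a ∈ Dg K n := by
    intro a ha
    rw [mem_Dg] at ha ⊢
    intro i
    by_cases h : i = i1
    · subst h
      refine ⟨fun h5 => absurd h5 (by simp [i1]), ?_⟩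
      simp only [f, Function.update_self]
      rcases (ha i1).2 with h6 | h6
      · right; rw [h6]
      · left; rw [h6, neg_neg]
    · simp only [f]
      rw [Function.update_of_ne h]
      exact ha i
  have hpm : ∀ a ∈ Dg K n, ∏ i, a i = 1 ∨ ∏ i, a i = -1 := by
    intro a ha
    have h5 : (∏ i, a i) ^ 2 = 1 := by
      rw [← Finset.prod_pow]
      refine Finset.prod_eq_one fun i _ => ?_
      rcases ((mem_Dg.1 ha) i).2 with h6 | h6 <;> rw [h6] <;> ring
    exact sq_eq_one_iff.1 h5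
  have h4 : (Dg1 K n).card = ((Dg K n).filter fun a => ¬ ∏ i, a i = 1).card := by
    refine Finset.card_bij (fun a _ => f a) ?_ ?_ ?_
    · intro a ha
      rw [mem_Dg1] at ha
      rw [Finset.mem_filter]
      refine ⟨hmem a ha.1, ?_⟩
      rw [hprod, ha.2]
      exact fun h => h3 h.symm
    · intro a _ a' _ h
      rw [← hf a, ← hf a', h]
    · intro a ha
      rw [Finset.mem_filter] at ha
      refine ⟨f a, ?_, hf a⟩
      rw [mem_Dg1]
      refine ⟨hmem a ha.1, ?_⟩
      rw [hprod, (hpm a ha.1).resolve_left ha.2, neg_neg]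
  have h5 := Finset.card_filter_add_card_filter_not (s := Dg K n) (fun a => ∏ i, a i = 1)
  have h6 : (Dg1 K n).card + (Dg1 K n).card = 2 ^ (n - 1) := by
    rw [← h0, ← h5, ← h4]
    rfl
  have h7 : 2 ^ (n - 1) = 2 ^ (n - 2) * 2 := by
    rw [← pow_succ]
    congr 1
    omega
  omega

end

section
variable {K : Type u} [Field K] [StarRing K] {n : ℕ} {Γ : Type w} [Fintype K]

/-- the double count, with the description of the sets `Fy y` as moved fixed frames -/
theorem family_gen_Fu (hn : 0 < n) (s : K ≃+* K) (hs : ∀ x, s (star x) = star (s x))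
    (yy : GU K n → Γ)
    (hyy : ∀ g g', yy g = yy g' →
      ∃ c : K, ((g⁻¹ * g' : GU K n).1).map s = c • (g⁻¹ * g' : GU K n).1)
    (C : Γ → List (Ln K n) → Prop)
    (hC : ∀ (g : GU K n) (u v : List (Ln K n)), u ++ v ∈ Fs s n → C (yy g) (u.map (lg g)))
    (D : Finset (Fin n → K))
    (hD : ∀ a ∈ D, ∃ (v : GU K n) (ε : K), ε ≠ 0 ∧ v.1.map s = ε • (diagonal a * v.1))
    (hD' : ∀ a ∈ D, ∀ a' ∈ D, ∀ c : K, a' = c • a → a' = a) :
    ∃ (Y : Finset Γ) (Fy : Γ → Finset (List (Ln K n))),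
      (∀ y, y ∈ Y ↔ ∃ g, yy g = y) ∧
      (∀ y ∈ Y, Fy y ⊆ Fr K n ∧ (∀ w ∈ Fy y, ∀ w', w.Perm w' → w' ∈ Fy y) ∧
        ∀ u v, u ++ v ∈ Fy y → C y u) ∧
      (∀ y ∈ Y, ∃ g : GU K n, yy g = y ∧ Fy y = Fu s g) ∧
      D.card * (Fr K n).card ≤ Y.card * (Fs s n).card := by
  have : Finite (Matrix (Fin n) (Fin n) K) := inferInstanceAs (Finite (Fin n → Fin n → K))
  have : Finite (GU K n) := Subtype.finite
  set Y : Finset Γ := (Set.finite_range yy).toFinset with hY
  have hmem : ∀ y, y ∈ Y ↔ ∃ g, yy g = y := fun y => by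
    rw [hY, Set.Finite.mem_toFinset, Set.mem_range]
  have hr : ∀ y : Γ, ∃ g : GU K n, y ∈ Y → yy g = y := by
    intro y
    by_cases h : y ∈ Y
    · obtain ⟨g, hg⟩ := (hmem y).1 h
      exact ⟨g, fun _ => hg⟩
    · exact ⟨1, fun h' => absurd h' h⟩
  choose r hr using hr
  have hcount : D.card * (Fr K n).card ≤ ∑ y ∈ Y, (Fu s (r y)).card := by
    refine double_count (Fr K n) Y (fun y => Fu s (r y)) (fun y _ => Fu_sub s _) ?_
    intro w hw
    obtain ⟨U, hU⟩ := exists_basis hw
    choose! v ε hε hv using hD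
    have hv2 : ∀ a ∈ D, (v a).1.map s = diagonal (ε a • a) * (v a).1 := by
      intro a ha
      rw [hv a ha, ← Matrix.smul_mul]
      congr 1
      ext i j
      rw [Matrix.smul_apply, diagonal_apply, diagonal_apply]
      by_cases h : i = j
      · rw [if_pos h, if_pos h]; rfl
      · rw [if_neg h, if_neg h, smul_zero]
    refine Finset.card_le_card_of_injOn (fun a => yy (U * v a)) ?_ ?_
    · intro a ha
      have h1 : yy (U * v a) ∈ Y := (hmem _).2 ⟨_, rfl⟩
      rw [Finset.mem_coe, Finset.mem_filter]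
      refine ⟨h1, ?_⟩
      obtain ⟨c, hc⟩ := hyy _ _ (hr _ h1).symm
      have h3 := mem_Fu_of hs hw hU (hv2 a ha)
      have h4 := Fu_le hn hs (g := U * v a) hc h3
      rwa [mul_inv_cancel_left] at h4
    · intro a ha a' ha' h
      have ha := Finset.mem_coe.1 ha
      have ha' := Finset.mem_coe.1 ha'
      obtain ⟨c, hc⟩ := hyy _ _ h
      have h1 : (U * v a)⁻¹ * (U * v a') = (v a)⁻¹ * v a' := by group
      rw [h1] at hc
      have h2 := prop_of (hv2 a ha) (hv2 a' ha') hc
      refine (hD' a ha a' ha' ((ε a')⁻¹ * c * ε a) ?_).symm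
      funext i
      have h3 := congrFun h2 i
      simp only [Pi.smul_apply, smul_eq_mul] at h3 ⊢
      have h4 := hε a' ha'
      field_simp
      linear_combination h3
  refine ⟨Y, fun y => Fu s (r y), hmem, fun y hy => ⟨Fu_sub s _, Fu_perm s _,
    fun u v huv => ?_⟩, fun y hy => ⟨r y, hr y hy, rfl⟩, ?_⟩
  · obtain ⟨w₀, h₀, h1⟩ := mem_mapW.1 huv
    obtain ⟨u₀, v₀, rfl, rfl, rfl⟩ := List.map_eq_append_iff.1 h1
    have h := hC (r y) u₀ v₀ h₀
    rwa [hr y hy] at h
  · simp only [card_Fu] at hcount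
    rwa [Finset.sum_const, smul_eq_mul] at hcount

/-- **The count for every `n ≥ 2`** (trivial star, `|K| = q²`, `s x = x ^ q`), with the diagonals of
determinant `1`. -/
theorem family_orth1M (hstar : ∀ x : K, star x = x) {q : ℕ} (hq : Odd q)
    (hK : Nat.card K = q ^ 2) (s : K ≃+* K) (hsq : ∀ x : K, s x = x ^ q) (hn : 2 ≤ n)
    (yy : GU K n → Γ)
    (hyy : ∀ g g', yy g = yy g' →
      ∃ c : K, ((g⁻¹ * g' : GU K n).1).map s = c • (g⁻¹ * g' : GU K n).1)
    (C : Γ → List (Ln K n) → Prop)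
    (hC : ∀ (g : GU K n) (u v : List (Ln K n)), u ++ v ∈ Fs s n → C (yy g) (u.map (lg g))) :
    ∃ (Y : Finset Γ) (Fy : Γ → Finset (List (Ln K n))),
      (∀ y, y ∈ Y ↔ ∃ g, yy g = y) ∧
      (∀ y ∈ Y, Fy y ⊆ Fr K n ∧ (∀ w ∈ Fy y, ∀ w', w.Perm w' → w' ∈ Fy y) ∧
        ∀ u v, u ++ v ∈ Fy y → C y u) ∧
      (∀ y ∈ Y, ∃ g : GU K n, yy g = y ∧ Fy y = Fu s g) ∧
      2 ^ (n - 2) * (Fr K n).card ≤ Y.card * (Fs s n).card := by
  have h2 := two_ne_of (K := K) hq hK
  have hn0 : 0 < n := by omega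
  rw [← card_Dg1 (K := K) h2 hn]
  exact family_gen_Fu hn0 s (fun x => by rw [hstar, hstar]) yy hyy C hC
    (Dg1 K n) (fun a ha => by
      obtain ⟨ha0, ha1⟩ := mem_Dg1.1 ha
      obtain ⟨v, hv, hv2⟩ := exists_v_one hq hK hsq a (fun i => ((mem_Dg.1 ha0) i).2) ha1
      refine ⟨⟨v, mem_unitaryGroup_iff'.2 ?_⟩, 1, one_ne_zero, by rw [one_smul]; exact hv2⟩
      rw [star_eq_transpose hstar, hv]) (fun a ha a' ha' c h => by
      have h7 := (mem_Dg.1 (mem_Dg1.1 ha).1 ⟨0, hn0⟩).1 rfl
      have h8 := (mem_Dg.1 (mem_Dg1.1 ha').1 ⟨0, hn0⟩).1 rfl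
      have h9 := congrFun h ⟨0, hn0⟩
      rw [Pi.smul_apply, h7, h8, smul_eq_mul, mul_one] at h9
      rw [h, ← h9, one_smul])

end

end

end Vale.Agent.P240.R2.H829
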