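import Vale.Agent.P240.R2.H829.EP1
import Vale.Agent.P240.R2.H829.Even

/-!
Even orthogonal groups, package II (StmtEII of helper401), part 2: the frames fixed by the conjugates
of `x ↦ s σ(x)`, and their number.
-/

set_option autoImplicit false

namespace Vale.Agent.P240.R2.H829.EP

open Matrix Vale.Agent.P240.R2.AS Vale.Agent.P240.R2.H38 Vale.Agent.P240.K
open Vale.Agent.P240.R2.H296.O (SOm mem_SOm ab ab_gmap exists_mv hf_std)
open Vale.Agent.P240.R2.H401.E
open Vale.Agent.P240.R2.H402 (RR RR_one RR_add RR_smul det_RR)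
open Vale.Agent.P240.R2.H938 (RR_mul RR_star RR_map RR_inj RR_diagonal rr rr_coe dgU dgU_coe)
open scoped Classical

universe u v w

noncomputable section

section
variable {K : Type u} [Field K] [Fintype K] [StarRing K] {n m : ℕ}

lemma mem_Ftw {s : GU K n} {σ : K ≃+* K} {w : List (Ln K n)} :
    w ∈ Ftw s σ ↔ w ∈ Fr K n ∧ ∀ P ∈ w, s.1 * P.1.map σ * star s.1 = P.1 := Finset.mem_filter

lemma Ftw_sub (s : GU K n) (σ : K ≃+* K) : Ftw s σ ⊆ Fr K n := Finset.filter_subset _ _

lemma Ftw_perm (s : GU K n) (σ : K ≃+* K) :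
    ∀ w ∈ Ftw s σ, ∀ w', w.Perm w' → w' ∈ Ftw s σ := by
  intro w hw w' h
  rw [mem_Ftw] at hw ⊢
  exact ⟨H687.Fr_perm w hw.1 w' h, fun P hP => hw.2 P (h.mem_iff.2 hP)⟩

omit [Fintype K] in
/-- the twisted conjugate -/
def tw (σ : K ≃+* K) (hσ : ∀ a, σ (star a) = star (σ a)) (s g : GU K n) : GU K n :=
  g * s * (gmap σ hσ g)⁻¹

omit [Fintype K] in
lemma fix_tw {σ : K ≃+* K} (hσ : ∀ a, σ (star a) = star (σ a)) {s : GU K n} (g : GU K n)
    {P : Ln K n} (h : s.1 * P.1.map σ * star s.1 = P.1) :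
    (tw σ hσ s g).1 * (lnU g P).1.map σ * star (tw σ hσ s g).1 = (lnU g P).1 := by
  have h1 : (lnU g P).1.map σ = g.1.map σ * P.1.map σ * star (g.1.map σ) := by
    rw [lnU_coe, map_mul_mat, map_mul_mat, map_star_mat hσ]
  have h2 : (tw σ hσ s g).1 = g.1 * s.1 * star (g.1.map σ) := rfl
  have h3 : star (g.1.map σ) * g.1.map σ = 1 := star_gu (gmap σ hσ g)
  rw [h1, h2, star_mul, star_mul, star_star, lnU_coe]
  calc g.1 * s.1 * star (g.1.map σ) * (g.1.map σ * P.1.map σ * star (g.1.map σ)) *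
        (g.1.map σ * (star s.1 * star g.1))
      = g.1 * s.1 * (star (g.1.map σ) * g.1.map σ) * P.1.map σ * (star (g.1.map σ) * g.1.map σ) *
        (star s.1 * star g.1) := by simp only [mul_assoc]
    _ = g.1 * (s.1 * P.1.map σ * star s.1) * star g.1 := by
        rw [h3]; simp only [mul_assoc, one_mul]
    _ = _ := by rw [h]

omit [Fintype K] in
lemma tw_inv {σ : K ≃+* K} (hσ : ∀ a, σ (star a) = star (σ a)) (s g : GU K n) :
    tw σ hσ (tw σ hσ s g) g⁻¹ = s := by
  rw [tw, tw, gmap_inv']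
  group

omit [Fintype K] in
lemma map_lnU_inv (g : GU K n) (w : List (Ln K n)) : (w.map (lnU g⁻¹)).map (lnU g) = w := by
  rw [List.map_map]
  conv_rhs => rw [← List.map_id w]
  refine List.map_congr_left fun P _ => ?_
  rw [Function.comp_apply, id_eq, lnU_inv']

lemma Ftw_tw {σ : K ≃+* K} (hσ : ∀ a, σ (star a) = star (σ a)) (s g : GU K n) :
    Ftw (tw σ hσ s g) σ = H687.mapW (lnU g) (lnU_inj g) (Ftw s σ) := by
  have key : ∀ (s g : GU K n) (w : List (Ln K n)), w ∈ Ftw s σ →
      w.map (lnU g) ∈ Ftw (tw σ hσ s g) σ := by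
    intro s g w hw
    rw [mem_Ftw] at hw ⊢
    refine ⟨(mem_Fr_map g).2 hw.1, fun P hP => ?_⟩
    obtain ⟨Q, hQ, rfl⟩ := List.mem_map.1 hP
    exact fix_tw hσ g (hw.2 Q hQ)
  ext w
  rw [H687.mem_mapW]
  constructor
  · intro hw
    refine ⟨w.map (lnU g⁻¹), ?_, map_lnU_inv g w⟩
    have h1 := key _ g⁻¹ w hw
    rwa [tw_inv] at h1
  · rintro ⟨w₀, h₀, rfl⟩
    exact key s g w₀ h₀

lemma card_Ftw_tw {σ : K ≃+* K} (hσ : ∀ a, σ (star a) = star (σ a)) (s g : GU K n) :
    (Ftw (tw σ hσ s g) σ).card = (Ftw s σ).card := by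
  rw [Ftw_tw]
  exact Finset.card_map _

lemma t_Ftw_tw {σ : K ≃+* K} (hσ : ∀ a, σ (star a) = star (σ a)) (s g : GU K n) :
    AS.t (Ftw (tw σ hσ s g) σ) = AS.t (Ftw s σ) := by
  rw [Ftw_tw]
  exact H687.t_map _ _

lemma Ftw_congr {σ : K ≃+* K} {s s' : GU K n} {c : K} (hc : c * star c = 1)
    (h : s'.1 = c • s.1) : Ftw s' σ = Ftw s σ := by
  ext w
  rw [mem_Ftw, mem_Ftw]
  refine and_congr_right fun _ => forall_congr' fun P => imp_congr_right fun _ => ?_
  rw [h, star_smul, smul_mul_assoc, smul_mul_smul_comm, hc, one_smul]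

omit [Fintype K] in
lemma diag_fix (σ : K ≃+* K) {s : GU K n} {d : Fin n → K} (hs : s.1 = diagonal d) (i : Fin n) :
    s.1 * (E1 i : Ln K n).1.map σ * star s.1 = (E1 i : Ln K n).1 := by
  have h1 : (E1 i : Ln K n).1.map σ = (E1 i : Ln K n).1 := by
    rw [E1_coe, diagonal_map (map_zero σ)]
    congr 1
    funext k
    by_cases hk : k = i
    · simp [hk]
    · simp [hk]
  have h2 : s.1 * (E1 i : Ln K n).1 = (E1 i : Ln K n).1 * s.1 := by
    rw [hs, E1_coe, diagonal_mul_diagonal, diagonal_mul_diagonal]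
    congr 1
    funext k
    rw [mul_comm]
  rw [h1, h2, mul_assoc, gu_star, mul_one]

omit [Fintype K] in
/-- `sla` in blocks -/
lemma sla_RR : (sla K m).1 = RR 1 (-1) := by
  rw [sla_coe, ← diagonal_one, RR_diagonal]
  congr 1
  funext i
  obtain ⟨j, rfl⟩ := finSumFinEquiv.surjective i
  rw [Equiv.symm_apply_apply]
  rcases j with j | j
  · rw [finSumFinEquiv_apply_left, if_neg]
    · rfl
    · intro h
      have h1 := congrArg Fin.val h
      have := j.2
      simp at h1
      omega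
  · rw [finSumFinEquiv_apply_right, if_pos]
    · rfl
    · apply Fin.ext
      simp

/-- **the count**: `yy g` stands for the conjugate by `g` of `x ↦ s σ(x) s⁻¹` -/
theorem count_tw (hs : ∀ x : K, star x = x) {q : ℕ} (hq : Odd q) (hK : Nat.card K = q ^ 2)
    {σ : K ≃+* K} (hσ : ∀ a, σ (star a) = star (σ a)) (hsq : ∀ x : K, σ x = x ^ q) (hm : 1 ≤ m)
    {s : GU K (m + 1)} (hs' : s = 1 ∨ s = sla K m) {Γ : Type w} (yy : GU K (m + 1) → Γ)
    (hyy : ∀ g g', yy g = yy g' → ∃ c : K, c * star c = 1 ∧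
      (tw σ hσ s g').1 = c • (tw σ hσ s g).1) :
    ∃ (Y : Finset Γ) (r : Γ → GU K (m + 1)), (∀ y, y ∈ Y ↔ ∃ g, yy g = y) ∧
      (∀ y ∈ Y, yy (r y) = y) ∧
      2 ^ (m - 1) * (Fr K (m + 1)).card ≤ Y.card * (Ftw s σ).card := by
  have : Finite (Matrix (Fin (m + 1)) (Fin (m + 1)) K) :=
    inferInstanceAs (Finite (Fin (m + 1) → Fin (m + 1) → K))
  have : Finite (GU K (m + 1)) := Subtype.finite
  have h2 := two_ne_of (K := K) hq hK
  set Y : Finset Γ := (Set.finite_range yy).toFinset with hY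
  have hmem : ∀ y, y ∈ Y ↔ ∃ g, yy g = y := fun y => by
    rw [hY, Set.Finite.mem_toFinset, Set.mem_range]
  have hr : ∀ y : Γ, ∃ g : GU K (m + 1), y ∈ Y → yy g = y := by
    intro y
    by_cases h : y ∈ Y
    · obtain ⟨g, hg⟩ := (hmem y).1 h
      exact ⟨g, fun _ => hg⟩
    · exact ⟨1, fun h' => absurd h' h⟩
  choose r hr using hr
  refine ⟨Y, r, hmem, hr, ?_⟩
  have hcount : 2 ^ (m - 1) * (Fr K (m + 1)).card ≤
      ∑ y ∈ Y, (Ftw (tw σ hσ s (r y)) σ).card := by
    refine double_count (Fr K (m + 1)) Y (fun y => Ftw (tw σ hσ s (r y)) σ)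
      (fun y _ => Ftw_sub _ _) ?_
    intro w hw
    obtain ⟨U, rfl⟩ := exists_lnU hw
    -- the coboundaries
    have hv : ∀ a : Fin (m + 1) → K, ∃ v d : GU K (m + 1), a ∈ Dg1 K (m + 1) →
        d.1 = RR (diagonal fun i : Fin m => a i.succ) 1 ∧ d * d = 1 ∧ s * v = v * s ∧
        gmap σ hσ v = d * v ∧ s * d = d * s := by
      intro a
      by_cases ha : a ∈ Dg1 K (m + 1)
      · obtain ⟨ha0, ha1⟩ := mem_Dg1.1 ha
        have h00 : a 0 = 1 := (mem_Dg.1 ha0 0).1 rfl
        have hpm : ∀ i : Fin m, a i.succ = 1 ∨ a i.succ = -1 := fun i => (mem_Dg.1 ha0 i.succ).2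
        obtain ⟨v, hv, hv2⟩ := exists_v_one hq hK hsq (fun i : Fin m => a i.succ) hpm (by
          rw [Fin.prod_univ_succ, h00, one_mul] at ha1
          exact ha1)
        have h11 : (1 : K) * star (1 : K) = 1 := by rw [star_one, mul_one]
        have hd : ∀ i : Fin m, a i.succ * star (a i.succ) = 1 := by
          intro i
          rw [hs]
          rcases hpm i with h | h <;> rw [h] <;> ring
        refine ⟨rr ⟨v, mem_unitaryGroup_iff'.2 (by rw [star_eq_transpose hs, hv])⟩ 1 h11,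
          rr (dgU (fun i : Fin m => a i.succ) hd) 1 h11, fun _ => ⟨rfl, ?_, ?_, ?_, ?_⟩⟩
        · apply Subtype.ext
          rw [gu_mul, rr_coe, dgU_coe, RR_mul, diagonal_mul_diagonal, mul_one]
          have h3 : (fun i : Fin m => a i.succ * a i.succ) = fun _ => 1 := by
            funext i
            rw [← hs (a i.succ)]
            have := hd i
            rwa [hs] at this ⊢
          rw [h3, diagonal_one, RR_one]
          rfl
        · rcases hs' with rfl | rfl
          · rw [one_mul, mul_one]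
          · apply Subtype.ext
            rw [gu_mul, gu_mul, rr_coe, sla_RR, RR_mul, RR_mul, one_mul, mul_one, one_mul, mul_one]
        · apply Subtype.ext
          rw [gmap_coe, gu_mul, rr_coe, rr_coe, dgU_coe, RR_map, RR_mul, map_one, mul_one]
          congr 1
        · rcases hs' with rfl | rfl
          · rw [one_mul, mul_one]
          · apply Subtype.ext
            rw [gu_mul, gu_mul, rr_coe, sla_RR, RR_mul, RR_mul, one_mul, mul_one, one_mul, mul_one]
      · exact ⟨1, 1, fun h => absurd h ha⟩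
    choose v d hvd using hv
    have htw : ∀ a ∈ Dg1 K (m + 1), tw σ hσ s (U * v a) = tw σ hσ (s * d a) U := by
      intro a ha
      obtain ⟨-, e1, e2, e3, e4⟩ := hvd a ha
      have e5 : (d a)⁻¹ = d a := inv_eq_of_mul_eq_one_left e1
      rw [tw, tw, gmap_mul', e3, _root_.mul_inv_rev, _root_.mul_inv_rev, e5]
      calc U * v a * s * ((v a)⁻¹ * d a * (gmap σ hσ U)⁻¹)
          = U * (v a * s) * (v a)⁻¹ * d a * (gmap σ hσ U)⁻¹ := by simp only [mul_assoc]
        _ = U * (s * v a) * (v a)⁻¹ * d a * (gmap σ hσ U)⁻¹ := by rw [e2]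
        _ = U * (s * d a) * (gmap σ hσ U)⁻¹ := by group
    have hcard : (Dg1 K (m + 1)).card = 2 ^ (m - 1) := by
      rw [card_Dg1 h2 (by omega)]
      congr 1
    rw [← hcard]
    refine Finset.card_le_card_of_injOn (fun a => yy (U * v a)) ?_ ?_
    · intro a ha
      have ha := Finset.mem_coe.1 ha
      have h1 : yy (U * v a) ∈ Y := (hmem _).2 ⟨_, rfl⟩
      rw [Finset.mem_coe, Finset.mem_filter]
      refine ⟨h1, ?_⟩
      obtain ⟨c, hc, hc2⟩ := hyy _ _ (hr _ h1).symm
      rw [Ftw_congr hc hc2, htw a ha, Ftw_tw, H687.map_mem_mapW, mem_Ftw]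
      refine ⟨w0_mem, fun P hP => ?_⟩
      rw [w0, List.mem_ofFn] at hP
      obtain ⟨i, rfl⟩ := hP
      obtain ⟨e0, -⟩ := hvd a ha
      have hd : ∃ δ : Fin (m + 1) → K, (s * d a).1 = diagonal δ := by
        rcases hs' with rfl | rfl
        · refine ⟨fun i => Sum.elim (fun i : Fin m => a i.succ) (fun _ => 1)
            (finSumFinEquiv.symm i), ?_⟩
          rw [one_mul, e0, RR_diagonal]
        · refine ⟨fun i => (if i = Fin.last m then -1 else 1) *
            Sum.elim (fun i : Fin m => a i.succ) (fun _ => 1) (finSumFinEquiv.symm i), ?_⟩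
          rw [gu_mul, sla_coe, e0, RR_diagonal, diagonal_mul_diagonal]
      obtain ⟨δ, hδ⟩ := hd
      exact diag_fix σ hδ i
    · intro a ha b hb h
      have ha := Finset.mem_coe.1 ha
      have hb := Finset.mem_coe.1 hb
      obtain ⟨c, -, hc⟩ := hyy _ _ h
      rw [htw a ha, htw b hb] at hc
      obtain ⟨e0, -⟩ := hvd a ha
      obtain ⟨e1, -⟩ := hvd b hb
      have hc1 : (d b).1 = c • (d a).1 := by
        have h3 : ∀ g : GU K (m + 1), (tw σ hσ (s * g) U).1 =
            (U * s).1 * g.1 * star (gmap σ hσ U).1 := by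
          intro g
          have h4 : tw σ hσ (s * g) U = (U * s) * g * (gmap σ hσ U)⁻¹ := by
            rw [tw]; simp only [mul_assoc]
          rw [h4, gu_mul, gu_mul, gu_inv]
        rw [h3, h3] at hc
        have h5 := congrArg (fun A => star (U * s).1 * A * (gmap σ hσ U).1) hc
        have h6 : ∀ A : Matrix (Fin (m + 1)) (Fin (m + 1)) K,
            star (U * s).1 * ((U * s).1 * A * star (gmap σ hσ U).1) * (gmap σ hσ U).1 = A := by
          intro A
          calc star (U * s).1 * ((U * s).1 * A * star (gmap σ hσ U).1) * (gmap σ hσ U).1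
              = (star (U * s).1 * (U * s).1) * A * (star (gmap σ hσ U).1 * (gmap σ hσ U).1) := by
                simp only [mul_assoc]
            _ = A := by rw [star_gu, star_gu, one_mul, mul_one]
        simp only [mul_smul_comm, smul_mul_assoc] at h5
        rw [h6, h6] at h5
        exact h5
      rw [e0, e1, ← RR_smul] at hc1
      obtain ⟨hc2, hc3⟩ := RR_inj hc1
      rw [mul_one] at hc3
      rw [← hc3, one_smul] at hc2
      have hc4 := diagonal_injective hc2
      obtain ⟨ha0, -⟩ := mem_Dg1.1 ha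
      obtain ⟨hb0, -⟩ := mem_Dg1.1 hb
      funext i
      refine Fin.cases ?_ (fun j => ?_) i
      · rw [(mem_Dg.1 ha0 0).1 rfl, (mem_Dg.1 hb0 0).1 rfl]
      · exact (congrFun hc4 j).symm
  refine hcount.trans (le_of_eq ?_)
  rw [Finset.sum_congr rfl fun y _ => card_Ftw_tw hσ s (r y), Finset.sum_const, smul_eq_mul]

end

end

end Vale.Agent.P240.R2.H829.EP
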