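import Mathlib

/-!
Extension of a homomorphism from a normal subgroup `H` to `H ⊔ ⟨s⟩`, `s` an involution outside `H`.
-/

set_option autoImplicit false

namespace Vale.Agent.P240.R2.H829.Ext

open scoped Classical

universe u v

noncomputable section

variable {Γ : Type u} {G : Type v} [Group Γ] [Group G] {H : Subgroup Γ} {s : Γ}

lemma mem_sup (hH : H.Normal) (hs : s * s = 1) {g : Γ} :
    g ∈ H ⊔ Subgroup.zpowers s ↔ g ∈ H ∨ g * s ∈ H := by
  constructor
  · intro hg
    obtain ⟨y, hy, z, hz, rfl⟩ := (Subgroup.mem_sup_of_normal_left).1 hg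
    obtain ⟨k, rfl⟩ := hz
    have h0 : s ^ (2 : ℤ) = 1 := by rw [zpow_two, hs]
    rcases Int.even_or_odd' k with ⟨j, rfl | rfl⟩
    · left
      show y * s ^ (2 * j) ∈ _
      rw [zpow_mul, h0, one_zpow, mul_one]
      exact hy
    · right
      show y * s ^ (2 * j + 1) * s ∈ _
      rw [zpow_add, zpow_mul, h0, one_zpow, one_mul, zpow_one, mul_assoc, hs, mul_one]
      exact hy
  · rintro (hg | hg)
    · exact Subgroup.mem_sup_left hg
    · have h1 : g = g * s * s := by rw [mul_assoc, hs, mul_one]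
      rw [h1]
      exact Subgroup.mul_mem _ (Subgroup.mem_sup_left hg)
        (Subgroup.mem_sup_right (Subgroup.mem_zpowers _))

/-- the homomorphism, extended by `1` -/
def eT (ε : H →* G) (g : Γ) : G := if h : g ∈ H then ε ⟨g, h⟩ else 1

lemma eT_of (ε : H →* G) {g : Γ} (h : g ∈ H) : eT ε g = ε ⟨g, h⟩ := dif_pos h

lemma eT_mul (ε : H →* G) {g g' : Γ} (h : g ∈ H) (h' : g' ∈ H) :
    eT ε (g * g') = eT ε g * eT ε g' := by
  rw [eT_of ε h, eT_of ε h', eT_of ε (H.mul_mem h h'), ← map_mul]
  rfl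

/-- the value -/
def fv (ε : H →* G) (s : Γ) (e : G) (g : Γ) : G := if g ∈ H then eT ε g else eT ε (g * s) * e

/-- **the extension** -/
theorem ext_hom (hH : H.Normal) (hs : s * s = 1) (hsH : s ∉ H) (ε : H →* G) {e : G}
    (he : e * e = 1) (hact : ∀ h h' : H, h'.1 = s * h.1 * s → e * ε h = ε h' * e) :
    ∃ η : (H ⊔ Subgroup.zpowers s : Subgroup Γ) →* G,
      (∀ (g : (H ⊔ Subgroup.zpowers s : Subgroup Γ)) (hg : g.1 ∈ H), η g = ε ⟨g.1, hg⟩) ∧
      ∀ (g : (H ⊔ Subgroup.zpowers s : Subgroup Γ)) (hg : g.1 * s ∈ H),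
        η g = ε ⟨g.1 * s, hg⟩ * e := by
  have hsi : s⁻¹ = s := inv_eq_of_mul_eq_one_left hs
  have hconj : ∀ {g : Γ}, g ∈ H → s * g * s ∈ H := by
    intro g hg
    have h3 := hH.conj_mem g hg s
    rwa [hsi] at h3
  have hin : ∀ {g : Γ}, g ∈ H → fv ε s e g = eT ε g := fun hg => if_pos hg
  have hout : ∀ {g : Γ}, g * s ∈ H → fv ε s e g = eT ε (g * s) * e := by
    intro g hg
    refine if_neg fun h1 => hsH ?_
    have h3 := Subgroup.mul_mem _ (Subgroup.inv_mem _ h1) hg
    rwa [inv_mul_cancel_left] at h3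
  have hact' : ∀ {g : Γ}, g ∈ H → e * eT ε g = eT ε (s * g * s) * e := by
    intro g hg
    rw [eT_of ε hg, eT_of ε (hconj hg)]
    exact hact ⟨g, hg⟩ ⟨_, hconj hg⟩ rfl
  have hm : ∀ {a b : Γ}, a ∈ H ⊔ Subgroup.zpowers s → b ∈ H ⊔ Subgroup.zpowers s →
      fv ε s e (a * b) = fv ε s e a * fv ε s e b := by
    intro a b ha hb
    rcases (mem_sup hH hs).1 ha with ha | ha
    · rcases (mem_sup hH hs).1 hb with hb | hb
      · rw [hin ha, hin hb, hin (Subgroup.mul_mem _ ha hb), eT_mul ε ha hb]
      · have h1 : a * b * s = a * (b * s) := mul_assoc _ _ _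
        rw [hin ha, hout hb, hout (by rw [h1]; exact Subgroup.mul_mem _ ha hb), h1,
          eT_mul ε ha hb, mul_assoc]
    · rcases (mem_sup hH hs).1 hb with hb | hb
      · have h1 : a * b * s = (a * s) * (s * b * s) := by
          calc a * b * s = a * (s * s) * b * s := by rw [hs, mul_one]
            _ = _ := by simp only [mul_assoc]
        rw [hin hb, hout ha, hout (by rw [h1]; exact Subgroup.mul_mem _ ha (hconj hb)), h1,
          eT_mul ε ha (hconj hb), mul_assoc (eT ε (a * s)), ← hact' hb, ← mul_assoc]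
      · have h1 : a * b = (a * s) * (s * (b * s) * s) := by
          calc a * b = a * (s * s) * b * (s * s) := by rw [hs, mul_one, mul_one]
            _ = _ := by simp only [mul_assoc]
        rw [hout hb, hout ha, hin (by rw [h1]; exact Subgroup.mul_mem _ ha (hconj hb)), h1,
          eT_mul ε ha (hconj hb)]
        have h3 := hact' hb
        have h5 : ∀ x y : G, x * y = x * (y * e) * e := by
          intro x y
          rw [mul_assoc x, mul_assoc y, he, mul_one]
        rw [h5, ← h3]
        simp only [mul_assoc]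
  refine ⟨{ toFun := fun g => fv ε s e g.1
            map_one' := by
              show fv ε s e 1 = 1
              rw [hin (Subgroup.one_mem _), eT_of ε (Subgroup.one_mem _)]
              exact map_one ε
            map_mul' := fun a b => hm a.2 b.2 }, fun g hg => ?_, fun g hg => ?_⟩
  · show fv ε s e g.1 = _
    rw [hin hg, eT_of ε hg]
  · show fv ε s e g.1 = _
    rw [hout hg, eT_of ε hg]

end

end Vale.Agent.P240.R2.H829.Ext
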