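import Mathlib

/-!
An operator of order prime to `6` that normalizes a commuting family of isometries of exponent `3`
of a space of dimension less than `10` centralizes it.
-/

set_option autoImplicit false

namespace Vale.Agent.P240.R2.H829.T2

open Module Function

universe u v w

noncomputable section

section per
variable {X : Type u} {T : X → X} {N : ℕ} {x : X}

lemma per_small (hN : N.Coprime 6) (hx : IsPeriodicPt T N x) {d : ℕ} (hd : 0 < d) (hd5 : d < 5)
    (h : IsPeriodicPt T d x) : T x = x := by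
  have h2 : N.Coprime 2 := Nat.Coprime.coprime_dvd_right (by norm_num) hN
  have h3 : N.Coprime 3 := Nat.Coprime.coprime_dvd_right (by norm_num) hN
  have h4 : N.Coprime d := by
    interval_cases d
    · exact Nat.coprime_one_right _
    · exact h2
    · exact h3
    · exact Nat.Coprime.pow_right 2 h2
  have h5 := hx.gcd h
  rw [h4] at h5
  exact h5

lemma per_two (hN : N.Coprime 6) (hx : IsPeriodicPt T N x) {d : ℕ}
    (h : IsPeriodicPt T (2 * d) x) : IsPeriodicPt T d x := by
  have h2 : N.Coprime 2 := Nat.Coprime.coprime_dvd_right (by norm_num) hN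
  have h5 := hx.gcd h
  rw [Nat.Coprime.gcd_mul_left_cancel_right d h2.symm] at h5
  exact h5.trans_dvd (Nat.gcd_dvd_right _ _)

end per

section chars
variable {E : Type u} {k : Type v} [Field k] {cj : E → E} {N : ℕ}

/-- composition with the conjugation -/
def TT (cj : E → E) (χ : E → k) : E → k := fun x => χ (cj x)

omit [Field k] in
lemma TT_iter (cj : E → E) (χ : E → k) (i : ℕ) (x : E) : (TT cj)^[i] χ x = χ (cj^[i] x) := by
  induction i generalizing χ with
  | zero => rfl
  | succ i ih =>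
    rw [iterate_succ_apply, ih, iterate_succ_apply']
    rfl

lemma TT_per (hcj : ∀ x, cj^[N] x = x) (χ : E → k) : IsPeriodicPt (TT cj) N χ := by
  funext x
  rw [TT_iter, hcj]

lemma TT_inv (χ : E → k) (i : ℕ) : (TT cj)^[i] χ⁻¹ = ((TT cj)^[i] χ)⁻¹ := by
  funext x
  rw [TT_iter, Pi.inv_apply, Pi.inv_apply, TT_iter]

lemma TT_inj (hN : N.Coprime 6) (hcj : ∀ x, cj^[N] x = x) : Injective (TT (k := k) cj) := by
  have hN0 : N ≠ 0 := by
    rintro rfl
    norm_num at hN
  intro a b h
  obtain ⟨M, rfl⟩ := Nat.exists_eq_succ_of_ne_zero hN0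
  have h1 : (TT cj)^[M + 1] a = a := TT_per hcj a
  have h2 : (TT cj)^[M + 1] b = b := TT_per hcj b
  rw [iterate_succ_apply] at h1 h2
  rw [← h1, ← h2, h]

/-- the ten characters -/
def ten (cj : E → E) (χ : E → k) (a : Fin 5 × Bool) : E → k :=
  if a.2 then (TT cj)^[a.1] χ else ((TT cj)^[a.1] χ)⁻¹

lemma ten_aux (hN : N.Coprime 6) (hcj : ∀ x, cj^[N] x = x) {χ : E → k} (h3 : ∀ x, χ x ^ 3 = 1)
    (hne : TT cj χ ≠ χ) {i j : ℕ} (h : (TT cj)^[i] χ = ((TT cj)^[j] χ)⁻¹) : False := by
  have hinj := TT_inj (k := k) hN hcj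
  obtain ⟨d, hd⟩ : ∃ d, (TT cj)^[d] χ = χ⁻¹ := by
    rw [← TT_inv] at h
    rcases Nat.le_total j i with hij | hij
    · refine ⟨i - j, hinj.iterate j ?_⟩
      rw [← iterate_add_apply, Nat.add_sub_cancel' hij]
      exact h
    · refine ⟨j - i, ?_⟩
      have h1 : χ = (TT cj)^[j - i] χ⁻¹ := by
        apply hinj.iterate i
        rw [← iterate_add_apply, Nat.add_sub_cancel' hij]
        exact h
      rw [TT_inv] at h1
      have h2 := congrArg (fun f : E → k => f⁻¹) h1
      simp only [inv_inv] at h2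
      exact h2.symm
  have h2d : IsPeriodicPt (TT cj) (2 * d) χ := by
    show (TT cj)^[2 * d] χ = χ
    rw [two_mul, iterate_add_apply, hd, TT_inv, hd, inv_inv]
  have h4 : (TT cj)^[d] χ = χ := per_two hN (TT_per hcj χ) h2d
  have h5 : ∀ x, χ x = 1 := by
    intro x
    have h6 : χ x = (χ x)⁻¹ := by
      have := congrFun (h4.symm.trans hd) x
      rwa [Pi.inv_apply] at this
    have h7 : χ x ≠ 0 := by
      intro h0
      have := h3 x
      rw [h0] at this
      norm_num at this
    have h8 : χ x * χ x = 1 := by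
      nth_rw 2 [h6]
      exact mul_inv_cancel₀ h7
    have h9 := h3 x
    rw [pow_succ, pow_two, h8, one_mul] at h9
    exact h9
  apply hne
  funext x
  rw [TT, h5, h5]

lemma ten_eq (hN : N.Coprime 6) (hcj : ∀ x, cj^[N] x = x) {χ : E → k}
    (hne : TT cj χ ≠ χ) {i j : Fin 5} (h : (TT cj)^[i] χ = (TT cj)^[j] χ) : i = j := by
  have hinj := TT_inj (k := k) hN hcj
  by_contra hij
  have key : ∀ i j : Fin 5, i.1 < j.1 → (TT cj)^[i] χ = (TT cj)^[j] χ → False := by
    intro i j hlt h
    have h1 : χ = (TT cj)^[j.1 - i.1] χ := by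
      apply hinj.iterate i.1
      rw [← iterate_add_apply, Nat.add_sub_cancel' hlt.le]
      exact h
    exact hne (per_small hN (TT_per hcj χ) (Nat.sub_pos_of_lt hlt)
      (lt_of_le_of_lt (Nat.sub_le _ _) j.2) h1.symm)
  rcases Nat.lt_trichotomy i.1 j.1 with h1 | h1 | h1
  · exact key i j h1 h
  · exact hij (Fin.ext h1)
  · exact key j i h1 h.symm

lemma ten_inj (hN : N.Coprime 6) (hcj : ∀ x, cj^[N] x = x) {χ : E → k} (h3 : ∀ x, χ x ^ 3 = 1)
    (hne : TT cj χ ≠ χ) : Injective (ten cj χ) := by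
  rintro ⟨i, s⟩ ⟨j, t⟩ h
  unfold ten at h
  cases s <;> cases t
  · simp only [Bool.false_eq_true, if_false] at h
    rw [ten_eq hN hcj hne (inv_injective h)]
  · simp only [Bool.false_eq_true, if_false, if_true] at h
    exact (ten_aux hN hcj h3 hne h.symm).elim
  · simp only [Bool.false_eq_true, if_false, if_true] at h
    exact (ten_aux hN hcj h3 hne h).elim
  · simp only [if_true] at h
    rw [ten_eq hN hcj hne h]

end chars

section main
variable {E : Type u} {k : Type v} [Field k] {V : Type w} [AddCommGroup V] [Module k V]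

/-- the simultaneous eigenspaces -/
def VV (f : E → End k V) (χ : E → k) : Submodule k V := ⨅ x, (f x).maxGenEigenspace (χ x)

lemma semis [FiniteDimensional k V] (h3 : (3 : k) ≠ 0) {g : End k V} (hg : g ^ 3 = 1) :
    g.IsSemisimple := by
  have h1 : (Polynomial.X ^ 3 - Polynomial.C (1 : k)).Separable :=
    Polynomial.separable_X_pow_sub_C 1 (by exact_mod_cast h3) one_ne_zero
  refine End.isSemisimple_of_squarefree_aeval_eq_zero h1.squarefree ?_
  simp [hg]

lemma mem_VV [FiniteDimensional k V] (h3 : (3 : k) ≠ 0) {f : E → End k V} (hf : ∀ x, f x ^ 3 = 1)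
    {χ : E → k} {v : V} : v ∈ VV f χ ↔ ∀ x, f x v = χ x • v := by
  unfold VV
  rw [Submodule.mem_iInf]
  refine forall_congr' fun x => ?_
  rw [((semis h3 (hf x)).isFinitelySemisimple).maxGenEigenspace_eq_eigenspace,
    End.mem_eigenspace_iff]

variable [IsAlgClosed k] [FiniteDimensional k V]

/-- **the theorem** -/
theorem centralize (h3 : (3 : k) ≠ 0) (hdim : finrank k V < 10) {f : E → End k V}
    (hf : ∀ x, f x ^ 3 = 1) (hcomm : ∀ x y, Commute (f x) (f y)) {cj : E → E} {N : ℕ}
    (hN : N.Coprime 6) (hcj : ∀ x, cj^[N] x = x) {g : End k V} (hg : Injective g)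
    (hgf : ∀ x v, f x (g v) = g (f (cj x) v)) (B : V → V → k)
    (hBadd : ∀ u v w, B u (v + w) = B u v + B u w) (hBzero : ∀ u, B u 0 = 0)
    (hBl : ∀ (a : k) u v, B (a • u) v = a * B u v) (hBr : ∀ (a : k) u v, B u (a • v) = a * B u v)
    (hBinv : ∀ x u v, B (f x u) (f x v) = B u v) (hBnd : ∀ u, (∀ v, B u v = 0) → u = 0) (x₀ : E) :
    f (cj x₀) = f x₀ := by
  have htop : ⨆ χ : E → k, VV f χ = ⊤ :=
    End.iSup_iInf_maxGenEigenspace_eq_top_of_iSup_maxGenEigenspace_eq_top_of_commute f
      (fun x y _ => hcomm x y) (fun x => End.iSup_maxGenEigenspace_eq_top (f x))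
  have hind : iSupIndep (VV (k := k) f) :=
    End.independent_iInf_maxGenEigenspace_of_forall_mapsTo f fun i j φ =>
      End.mapsTo_maxGenEigenspace_of_comm (hcomm j i) φ
  have hcube : ∀ χ : E → k, VV f χ ≠ ⊥ → ∀ x, χ x ^ 3 = 1 := by
    intro χ hχ x
    obtain ⟨v, hv, hv0⟩ := (Submodule.ne_bot_iff _).1 hχ
    rw [mem_VV h3 hf] at hv
    have h1 : (f x ^ 3) v = χ x ^ 3 • v := by
      rw [pow_succ, pow_two, End.mul_apply, End.mul_apply, hv x, map_smul, hv x, map_smul,
        map_smul, hv x, smul_smul, smul_smul]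
      congr 1
      ring
    rw [hf, End.one_apply] at h1
    have h2 : (χ x ^ 3 - 1) • v = 0 := by rw [sub_smul, ← h1, one_smul, sub_self]
    rcases smul_eq_zero.1 h2 with h4 | h4
    · exact sub_eq_zero.1 h4
    · exact absurd h4 hv0
  have hinv : ∀ χ : E → k, VV f χ ≠ ⊥ → VV f χ⁻¹ ≠ ⊥ := by
    intro χ hχ hbot
    obtain ⟨v, hv, hv0⟩ := (Submodule.ne_bot_iff _).1 hχ
    rw [mem_VV h3 hf] at hv
    apply hv0
    apply hBnd
    have hc := hcube χ hχ
    have hall : ∀ w ∈ ⨆ ψ : E → k, VV f ψ, B v w = 0 := by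
      intro w hw
      refine Submodule.iSup_induction _ (motive := fun w => B v w = 0) hw ?_ (hBzero v) ?_
      · intro ψ w hw
        by_cases hψ : ψ = χ⁻¹
        · rw [hψ, hbot, Submodule.mem_bot] at hw
          rw [hw, hBzero]
        · rw [mem_VV h3 hf] at hw
          obtain ⟨x, hx⟩ := Function.ne_iff.1 hψ
          have h1 := hBinv x v w
          rw [hv x, hw x, hBl, hBr] at h1
          have h2 : (χ x * ψ x - 1) * B v w = 0 := by linear_combination h1
          rcases mul_eq_zero.1 h2 with h4 | h4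
          · exfalso
            apply hx
            rw [Pi.inv_apply]
            exact (eq_inv_of_mul_eq_one_right (sub_eq_zero.1 h4))
          · exact h4
      · intro w w' hw hw'
        rw [hBadd, hw, hw', add_zero]
    intro w
    exact hall w (by rw [htop]; exact Submodule.mem_top)
  have hT : ∀ χ : E → k, VV f χ ≠ ⊥ → VV f (TT cj χ) ≠ ⊥ := by
    intro χ hχ
    obtain ⟨v, hv, hv0⟩ := (Submodule.ne_bot_iff _).1 hχ
    rw [mem_VV h3 hf] at hv
    rw [Submodule.ne_bot_iff]
    refine ⟨g v, (mem_VV h3 hf).2 fun x => ?_, fun h0 => hv0 (hg (by rw [h0, map_zero]))⟩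
    rw [hgf, hv, map_smul]
    rfl
  have hTi : ∀ (i : ℕ) (χ : E → k), VV f χ ≠ ⊥ → VV f ((TT cj)^[i] χ) ≠ ⊥ := by
    intro i
    induction i with
    | zero => intro χ h; exact h
    | succ i ih =>
      intro χ h
      rw [iterate_succ_apply]
      exact ih _ (hT χ h)
  by_contra hcon
  obtain ⟨χ, hχ, hne⟩ : ∃ χ : E → k, VV f χ ≠ ⊥ ∧ TT cj χ ≠ χ := by
    by_contra hall
    push Not at hall
    apply hcon
    have hker : ⨆ χ : E → k, VV f χ ≤ LinearMap.ker (f (cj x₀) - f x₀) := by
      refine iSup_le fun χ => ?_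
      intro v hv
      rw [LinearMap.mem_ker, LinearMap.sub_apply]
      by_cases hb : VV f χ = ⊥
      · rw [hb, Submodule.mem_bot] at hv
        rw [hv, map_zero, map_zero, sub_zero]
      · rw [mem_VV h3 hf] at hv
        have h1 := congrFun (hall χ hb) x₀
        rw [hv, hv, ← h1, TT, sub_self]
    rw [htop, top_le_iff, LinearMap.ker_eq_top, sub_eq_zero] at hker
    exact hker
  have hten : ∀ a : Fin 5 × Bool, VV f (ten cj χ a) ≠ ⊥ := by
    rintro ⟨i, s⟩
    cases s
    · exact hinv _ (hTi i χ hχ)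
    · exact hTi i χ hχ
  choose v hv hv0 using fun a => (Submodule.ne_bot_iff _).1 (hten a)
  have hli := (hind.comp (ten_inj hN hcj (hcube χ hχ) hne)).linearIndependent _ hv hv0
  have h10 := hli.fintype_card_le_finrank
  rw [Fintype.card_prod, Fintype.card_fin, Fintype.card_bool] at h10
  omega

end main

end

end Vale.Agent.P240.R2.H829.T2
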